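/-
P235-M, reduction, row C (helper934): the literal parts C2.1, C2.1', C2.3 of row C.
-/
import Vale.Agent.P235.R2.RED.Stmts

namespace Vale.Agent.P235.Red

/-- the faces of a rotation system -/
abbrev Fc {V : Type} {G : SimpleGraph V} (σ : Equiv.Perm G.Dart) : Type :=
  Quotient (Equiv.Perm.SameCycle.setoid (faceNext σ))

/-- the face (cycle of `faceNext σ`) of the dart `d`; for an up-dart `d` the face on its right is
`fc σ d`, the face on its left is `fc σ d.symm` -/
def fc {V : Type} {G : SimpleGraph V} (σ : Equiv.Perm G.Dart) (d : G.Dart) : Fc σ :=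
  Quotient.mk _ d

/-- the hypotheses of row C -/
structure Ctx {V : Type} (G : SimpleGraph V) (σ : Equiv.Perm G.Dart) (d₀ : G.Dart) (h : V → ℝ)
    (s t : V) : Prop where
  conn : G.Connected
  map : PlaneMap G σ
  hs : s ∈ onFace σ d₀
  ht : t ∈ onFace σ d₀
  ud : UpDown G h s t

/-- a state of the sweep: a set `W` of inner faces; with the face on the right of an up-dart it
contains the one on the left, unless this is the outer face `f₀` -/
structure SwState {V : Type} {G : SimpleGraph V} (σ : Equiv.Perm G.Dart) (h : V → ℝ) (f₀ : Fc σ)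
    (W : Set (Fc σ)) : Prop where
  out : f₀ ∉ W
  closed : ∀ d : G.Dart, h d.fst < h d.snd → fc σ d ∈ W → fc σ d.symm ∈ W ∨ fc σ d.symm = f₀

/-- the front of a state: the up-darts with swept (or outer) left face and unswept right face -/
def Front {V : Type} {G : SimpleGraph V} (σ : Equiv.Perm G.Dart) (h : V → ℝ) (f₀ : Fc σ)
    (W : Set (Fc σ)) : Set G.Dart :=
  {d | h d.fst < h d.snd ∧ (fc σ d.symm ∈ W ∨ fc σ d.symm = f₀) ∧ fc σ d ∉ W}

/-- C2.1: the front has at most one dart leaving and at most one entering every vertex, leaves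
`v ≠ s, t` iff it enters `v`, leaves `s` and enters `t`. -/
def RowC21 : Prop :=
  ∀ (V : Type) [Finite V] (G : SimpleGraph V) (σ : Equiv.Perm G.Dart) (d₀ : G.Dart) (h : V → ℝ)
    (s t : V), Ctx G σ d₀ h s t → ∀ W, SwState σ h (fc σ d₀) W →
    (∀ d ∈ Front σ h (fc σ d₀) W, ∀ e ∈ Front σ h (fc σ d₀) W, d.fst = e.fst → d = e) ∧
    (∀ d ∈ Front σ h (fc σ d₀) W, ∀ e ∈ Front σ h (fc σ d₀) W, d.snd = e.snd → d = e) ∧
    (∀ v, v ≠ s → v ≠ t → ((∃ d ∈ Front σ h (fc σ d₀) W, d.fst = v) ↔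
      ∃ d ∈ Front σ h (fc σ d₀) W, d.snd = v)) ∧
    (∃ d ∈ Front σ h (fc σ d₀) W, d.fst = s) ∧ (∃ d ∈ Front σ h (fc σ d₀) W, d.snd = t)

/-- C2.1': whether a vertex `v ≠ s, t` is on the front depends only on its left and right face. -/
def RowC21' : Prop :=
  ∀ (V : Type) [Finite V] (G : SimpleGraph V) (σ : Equiv.Perm G.Dart) (d₀ : G.Dart) (h : V → ℝ)
    (s t : V), Ctx G σ d₀ h s t → ∀ v, v ≠ s → v ≠ t → ∃ l r : Fc σ,
    ∀ W, SwState σ h (fc σ d₀) W →
      ((∃ d ∈ Front σ h (fc σ d₀) W, d.fst = v) ↔ (l ∈ W ∨ l = fc σ d₀) ∧ r ∉ W)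

/-- C2.3: as long as not all inner faces are swept, there is a face all of whose left darts (the
up-darts with this face on their right) are on the front, i.e. have a swept or outer left face. -/
def RowC23 : Prop :=
  ∀ (V : Type) [Finite V] (G : SimpleGraph V) (σ : Equiv.Perm G.Dart) (d₀ : G.Dart) (h : V → ℝ)
    (s t : V), Ctx G σ d₀ h s t → ∀ W, SwState σ h (fc σ d₀) W →
    (∃ g, g ≠ fc σ d₀ ∧ g ∉ W) →
    ∃ f, f ≠ fc σ d₀ ∧ f ∉ W ∧ ∀ d : G.Dart, h d.fst < h d.snd → fc σ d = f →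
      fc σ d.symm ∈ W ∨ fc σ d.symm = fc σ d₀

end Vale.Agent.P235.Red
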