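/-
P235-M, reduction, row C (helper934): the assembly of row C from C2.1, C2.1' and C2.3.
-/
import Vale.Agent.P235.R2.H934.CDefs

namespace Vale.Agent.P235.Red

open Relation

/-! ### The front is one path -/

/-- one step along the front -/
def FStep {V : Type} {G : SimpleGraph V} (D : Set G.Dart) (u v : V) : Prop :=
  ∃ d ∈ D, d.fst = u ∧ d.snd = v

/-- the vertices of the front -/
def FV {V : Type} {G : SimpleGraph V} (D : Set G.Dart) : Set V :=
  {v | ∃ d ∈ D, d.fst = v ∨ d.snd = v}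

section path

variable {V : Type} {G : SimpleGraph V} {D : Set G.Dart} {h : V → ℝ} {s t : V}

theorem fstep_mono (hup : ∀ d ∈ D, h d.fst < h d.snd) {u v : V}
    (huv : ReflTransGen (FStep D) u v) : u = v ∨ h u < h v := by
  induction huv with
  | refl => exact Or.inl rfl
  | tail _ hbc ih =>
    obtain ⟨d, hd, rfl, rfl⟩ := hbc
    right
    rcases ih with rfl | ih
    · exact hup d hd
    · exact ih.trans (hup d hd)

theorem fstep_reach [Finite V] (hup : ∀ d ∈ D, h d.fst < h d.snd)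
    (hbal : ∀ v, v ≠ s → v ≠ t → ((∃ d ∈ D, d.fst = v) ↔ ∃ d ∈ D, d.snd = v))
    (ht : ∃ d ∈ D, d.snd = t) : ∀ v ∈ FV D, ReflTransGen (FStep D) s v := by
  classical
  have := Fintype.ofFinite V
  have key : ∀ n : ℕ, ∀ v ∈ FV D, (Finset.univ.filter fun w => h w < h v).card ≤ n →
      ReflTransGen (FStep D) s v := by
    intro n
    induction n with
    | zero =>
      intro v hv hn
      by_cases hvs : v = s
      · rw [hvs]
      have hin : ∃ d ∈ D, d.snd = v := by
        by_cases hvt : v = t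
        · rw [hvt]; exact ht
        · obtain ⟨d, hd, h1 | h1⟩ := hv
          · exact (hbal v hvs hvt).1 ⟨d, hd, h1⟩
          · exact ⟨d, hd, h1⟩
      obtain ⟨d, hd, rfl⟩ := hin
      have : d.fst ∈ Finset.univ.filter fun w => h w < h d.snd := by
        simp [hup d hd]
      exact absurd (Finset.card_pos.2 ⟨_, this⟩) (by omega)
    | succ n ih =>
      intro v hv hn
      by_cases hvs : v = s
      · rw [hvs]
      have hin : ∃ d ∈ D, d.snd = v := by
        by_cases hvt : v = t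
        · rw [hvt]; exact ht
        · obtain ⟨d, hd, h1 | h1⟩ := hv
          · exact (hbal v hvs hvt).1 ⟨d, hd, h1⟩
          · exact ⟨d, hd, h1⟩
      obtain ⟨d, hd, rfl⟩ := hin
      refine (ih d.fst ⟨d, hd, Or.inl rfl⟩ ?_).tail ⟨d, hd, rfl, rfl⟩
      have hlt : (Finset.univ.filter fun w => h w < h d.fst).card <
          (Finset.univ.filter fun w => h w < h d.snd).card := by
        apply Finset.card_lt_card
        refine ⟨fun w hw => ?_, fun hcon => ?_⟩
        · simp only [Finset.mem_filter, Finset.mem_univ, true_and] at hw ⊢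
          exact hw.trans (hup d hd)
        · have h2 : d.fst ∈ Finset.univ.filter fun w => h w < h d.snd := by
            simp [hup d hd]
          have h3 := hcon h2
          simp at h3
      omega
  intro v hv
  exact key _ v hv le_rfl

theorem fstep_total [Finite V] (hup : ∀ d ∈ D, h d.fst < h d.snd)
    (hout : ∀ d ∈ D, ∀ e ∈ D, d.fst = e.fst → d = e)
    (hbal : ∀ v, v ≠ s → v ≠ t → ((∃ d ∈ D, d.fst = v) ↔ ∃ d ∈ D, d.snd = v))
    (ht : ∃ d ∈ D, d.snd = t) {u v : V} (hu : u ∈ FV D) (hv : v ∈ FV D) :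
    ReflTransGen (FStep D) u v ∨ ReflTransGen (FStep D) v u := by
  refine ReflTransGen.total_of_right_unique ?_ (fstep_reach hup hbal ht u hu)
    (fstep_reach hup hbal ht v hv)
  rintro a b c ⟨d, hd, h1, h2⟩ ⟨e, he, h3, h4⟩
  have := hout d hd e he (h1.trans h3.symm)
  rw [← h2, ← h4, this]

/-- two vertices of the front, the first not above the second: the first one reaches the second -/
theorem fstep_of_le [Finite V] (hup : ∀ d ∈ D, h d.fst < h d.snd)
    (hout : ∀ d ∈ D, ∀ e ∈ D, d.fst = e.fst → d = e)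
    (hbal : ∀ v, v ≠ s → v ≠ t → ((∃ d ∈ D, d.fst = v) ↔ ∃ d ∈ D, d.snd = v))
    (ht : ∃ d ∈ D, d.snd = t) {u v : V} (hu : u ∈ FV D) (hv : v ∈ FV D) (huv : h u ≤ h v) :
    ReflTransGen (FStep D) u v := by
  rcases fstep_total hup hout hbal ht hu hv with h1 | h1
  · exact h1
  · rcases fstep_mono hup h1 with h2 | h2
    · rw [h2]
    · exact absurd huv (not_le.2 h2)

end path

/-! ### The sequence of states -/

section seq

variable {V : Type} {G : SimpleGraph V} {σ : Equiv.Perm G.Dart} {h : V → ℝ} {f₀ : Fc σ}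

/-- `f` can be swept in the state `W` -/
def Swp (h : V → ℝ) (f₀ : Fc σ) (W : Set (Fc σ)) (f : Fc σ) : Prop :=
  f ≠ f₀ ∧ f ∉ W ∧ ∀ d : G.Dart, h d.fst < h d.snd → fc σ d = f →
    fc σ d.symm ∈ W ∨ fc σ d.symm = f₀

open Classical in
/-- the next state -/
noncomputable def nxt (h : V → ℝ) (f₀ : Fc σ) (W : Set (Fc σ)) : Set (Fc σ) :=
  if hx : ∃ f, Swp h f₀ W f then insert hx.choose W else W

/-- the states -/
noncomputable def Ws (h : V → ℝ) (f₀ : Fc σ) (k : ℕ) : Set (Fc σ) := (nxt h f₀)^[k] ∅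

theorem Ws_succ (k : ℕ) : Ws h f₀ (k + 1) = nxt h f₀ (Ws h f₀ k) :=
  Function.iterate_succ_apply' _ _ _

theorem sub_nxt (W : Set (Fc σ)) : W ⊆ nxt h f₀ W := by
  unfold nxt
  split_ifs
  · exact Set.subset_insert _ _
  · exact subset_rfl

theorem Ws_mono : Monotone (Ws (σ := σ) h f₀) :=
  monotone_nat_of_le_succ fun k => by rw [Ws_succ]; exact sub_nxt _

theorem state_empty : SwState σ h f₀ ∅ := ⟨fun h => h, fun _ _ h => absurd h (fun h => h)⟩

theorem state_nxt {W : Set (Fc σ)} (hW : SwState σ h f₀ W) : SwState σ h f₀ (nxt h f₀ W) := by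
  unfold nxt
  split_ifs with hx
  · obtain ⟨h1, h2, h3⟩ := hx.choose_spec
    refine ⟨?_, ?_⟩
    · rintro (h4 | h4)
      · exact h1 h4.symm
      · exact hW.out h4
    · rintro d hd (h4 | h4)
      · rcases h3 d hd h4 with h5 | h5
        · exact Or.inl (Set.mem_insert_of_mem _ h5)
        · exact Or.inr h5
      · rcases hW.closed d hd h4 with h5 | h5
        · exact Or.inl (Set.mem_insert_of_mem _ h5)
        · exact Or.inr h5
  · exact hW

theorem state_Ws (k : ℕ) : SwState σ h f₀ (Ws h f₀ k) := by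
  induction k with
  | zero => exact state_empty
  | succ k ih => rw [Ws_succ]; exact state_nxt ih

/-- a face which is swept in one step was sweepable -/
theorem swp_of_nxt {W : Set (Fc σ)} {f : Fc σ} (h1 : f ∉ W) (h2 : f ∈ nxt h f₀ W) :
    Swp h f₀ W f := by
  unfold nxt at h2
  split_ifs at h2 with hx
  · rcases h2 with h2 | h2
    · rw [h2]; exact hx.choose_spec
    · exact absurd h2 h1
  · exact absurd h2 h1

theorem ncard_Ws [Finite (Fc σ)]
    (hsw : ∀ W, SwState σ h f₀ W → (∃ g, g ≠ f₀ ∧ g ∉ W) → ∃ f, Swp h f₀ W f) (k : ℕ) :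
    (∀ g, g ≠ f₀ → g ∈ Ws h f₀ k) ∨ k ≤ (Ws h f₀ k).ncard := by
  induction k with
  | zero => exact Or.inr (Nat.zero_le _)
  | succ k ih =>
    rcases ih with ih | ih
    · exact Or.inl fun g hg => Ws_mono (Nat.le_succ k) (ih g hg)
    · by_cases hc : ∃ g, g ≠ f₀ ∧ g ∉ Ws h f₀ k
      · right
        have hx := hsw _ (state_Ws k) hc
        rw [Ws_succ]
        unfold nxt
        rw [dif_pos hx, Set.ncard_insert_of_notMem hx.choose_spec.2.1 (Set.toFinite _)]
        omega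
      · left
        push Not at hc
        exact fun g hg => Ws_mono (Nat.le_succ k) (hc g hg)

theorem Ws_all [Finite (Fc σ)]
    (hsw : ∀ W, SwState σ h f₀ W → (∃ g, g ≠ f₀ ∧ g ∉ W) → ∃ f, Swp h f₀ W f) {k : ℕ}
    (hk : Nat.card (Fc σ) ≤ k + 1) : ∀ g, g ≠ f₀ → g ∈ Ws h f₀ k := by
  rcases ncard_Ws hsw k with h1 | h1
  · exact h1
  · intro g hg
    by_contra hcon
    have h2 : (insert g (insert f₀ (Ws h f₀ k))).ncard = (Ws h f₀ k).ncard + 2 := by
      rw [Set.ncard_insert_of_notMem _ (Set.toFinite _),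
        Set.ncard_insert_of_notMem (state_Ws k).out (Set.toFinite _)]
      rintro (h3 | h3)
      · exact hg h3
      · exact hcon h3
    have h3 : (insert g (insert f₀ (Ws h f₀ k))).ncard ≤ Nat.card (Fc σ) := by
      rw [← Set.ncard_univ]
      exact Set.ncard_le_ncard (Set.subset_univ _) (Set.toFinite _)
    omega

/-- every inner face is swept at some stage -/
theorem exists_stage [Finite (Fc σ)]
    (hsw : ∀ W, SwState σ h f₀ W → (∃ g, g ≠ f₀ ∧ g ∉ W) → ∃ f, Swp h f₀ W f) {k : ℕ}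
    (hk : Nat.card (Fc σ) ≤ k + 1) {f : Fc σ} (hf : f ≠ f₀) :
    ∃ i ≤ k, Swp h f₀ (Ws h f₀ i) f := by
  classical
  have hex : ∃ j, f ∈ Ws h f₀ j := ⟨k, Ws_all hsw hk f hf⟩
  obtain ⟨i, hi⟩ : ∃ i, Nat.find hex = i + 1 := by
    refine Nat.exists_eq_succ_of_ne_zero fun h0 => ?_
    have := Nat.find_spec hex
    rw [h0] at this
    exact this
  have h1 : f ∉ Ws h f₀ i := Nat.find_min hex (by omega)
  have h2 : f ∈ Ws h f₀ (i + 1) := by rw [← hi]; exact Nat.find_spec hex
  have h3 : Nat.find hex ≤ k := Nat.find_min' hex (Ws_all hsw hk f hf)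
  exact ⟨i, by omega, swp_of_nxt h1 (by rwa [← Ws_succ])⟩

end seq

/-- the number of faces -/
theorem card_fc_le {V : Type} [Finite V] {G : SimpleGraph V} {σ : Equiv.Perm G.Dart}
    (hP : PlaneMap G σ) (hV : Nonempty V) : Nat.card (Fc σ) ≤ Nat.card V ^ 2 + 1 := by
  classical
  have := Fintype.ofFinite V
  have h1 := hP.euler
  have h2 : Nat.card G.edgeSet ≤ (Fintype.card V).choose 2 := by
    have := G.card_edgeFinset_le_card_choose_two
    rwa [Nat.card_eq_fintype_card, ← SimpleGraph.edgeFinset_card]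
  have h3 : (Fintype.card V).choose 2 ≤ Fintype.card V ^ 2 := Nat.choose_le_pow _ _
  have h0 : Nat.card V = Fintype.card V := Nat.card_eq_fintype_card
  rw [h0] at h1 ⊢
  have h4 : 0 < Fintype.card V := Fintype.card_pos
  have h5 : Nat.card (Fc σ) = Nat.card (Quotient (Equiv.Perm.SameCycle.setoid (faceNext σ))) := rfl
  omega

/-- **Row C from its parts** -/
theorem rowC_of (h21 : RowC21) (h21' : RowC21') (h23 : RowC23) : RowC := by
  classical
  intro V _ G σ d₀ h s t hconn hmap hs ht hud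
  have hctx : Ctx G σ d₀ h s t := ⟨hconn, hmap, hs, ht, hud⟩
  have := Fintype.ofFinite V
  have hDfin : Finite G.Dart := Finite.of_fintype _
  have hFfin : Finite (Fc σ) := Quotient.finite _
  set f₀ : Fc σ := fc σ d₀ with hf₀
  set N := Nat.card V ^ 2 with hN
  have hcard : Nat.card (Fc σ) ≤ N + 1 := card_fc_le hmap ⟨s⟩
  have hsw : ∀ W, SwState σ h f₀ W → (∃ g, g ≠ f₀ ∧ g ∉ W) → ∃ f, Swp h f₀ W f :=
    fun W hW hg => h23 V G σ d₀ h s t hctx W hW hg
  have hst : ∀ i, SwState σ h f₀ (Ws h f₀ i) := fun i => state_Ws i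
  have hup : ∀ i, ∀ d ∈ Front σ h f₀ (Ws h f₀ i), h d.fst < h d.snd := fun i d hd => hd.1
  have h1 : ∀ i, ∀ d ∈ Front σ h f₀ (Ws h f₀ i), ∀ e ∈ Front σ h f₀ (Ws h f₀ i),
      d.fst = e.fst → d = e := fun i => (h21 V G σ d₀ h s t hctx _ (hst i)).1
  have h3 : ∀ i, ∀ v, v ≠ s → v ≠ t → ((∃ d ∈ Front σ h f₀ (Ws h f₀ i), d.fst = v) ↔
      ∃ d ∈ Front σ h f₀ (Ws h f₀ i), d.snd = v) :=
    fun i => (h21 V G σ d₀ h s t hctx _ (hst i)).2.2.1
  have h4 : ∀ i, ∃ d ∈ Front σ h f₀ (Ws h f₀ i), d.fst = s :=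
    fun i => (h21 V G σ d₀ h s t hctx _ (hst i)).2.2.2.1
  have h5 : ∀ i, ∃ d ∈ Front σ h f₀ (Ws h f₀ i), d.snd = t :=
    fun i => (h21 V G σ d₀ h s t hctx _ (hst i)).2.2.2.2
  -- s is the lowest, t the highest vertex
  have hmin : ∀ v, h s ≤ h v := by
    obtain ⟨m, -, hm⟩ := Finset.exists_min_image (Finset.univ : Finset V) h ⟨s, Finset.mem_univ s⟩
    have hms : m = s := by
      by_contra hne
      obtain ⟨u, -, hu⟩ := hud.low m hne
      exact absurd (hm u (Finset.mem_univ u)) (not_le.2 hu)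
    exact fun v => hms ▸ hm v (Finset.mem_univ v)
  have hmax : ∀ v, h v ≤ h t := by
    obtain ⟨m, -, hm⟩ := Finset.exists_max_image (Finset.univ : Finset V) h ⟨s, Finset.mem_univ s⟩
    have hms : m = t := by
      by_contra hne
      obtain ⟨u, -, hu⟩ := hud.high m hne
      exact absurd (hm u (Finset.mem_univ u)) (not_le.2 hu)
    exact fun v => hms ▸ hm v (Finset.mem_univ v)
  -- every up-dart is on some front
  have hcov : ∀ d : G.Dart, h d.fst < h d.snd → ∃ i ≤ N, d ∈ Front σ h f₀ (Ws h f₀ i) := by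
    intro d hd
    by_cases hf : fc σ d = f₀
    · refine ⟨N, le_rfl, hd, ?_, ?_⟩
      · by_cases hg : fc σ d.symm = f₀
        · exact Or.inr hg
        · exact Or.inl (Ws_all hsw hcard _ hg)
      · rw [hf]; exact (hst N).out
    · obtain ⟨i, hi, -, h7, h8⟩ := exists_stage hsw hcard hf
      exact ⟨i, hi, hd, h8 d hd rfl, h7⟩
  have hsP : ∀ i, s ∈ FV (Front σ h f₀ (Ws h f₀ i)) := fun i => by
    obtain ⟨d, hd, h7⟩ := h4 i
    exact ⟨d, hd, Or.inl h7⟩
  have htP : ∀ i, t ∈ FV (Front σ h f₀ (Ws h f₀ i)) := fun i => by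
    obtain ⟨d, hd, h7⟩ := h5 i
    exact ⟨d, hd, Or.inr h7⟩
  refine ⟨fun i => FV (Front σ h f₀ (Ws h f₀ i)), ?_, ?_, ?_, ?_, ?_, ?_, ?_⟩
  · -- every
    intro v
    by_cases hvt : v = t
    · exact ⟨0, Nat.zero_le _, hvt ▸ htP 0⟩
    · obtain ⟨u, hu, hlt⟩ := hud.high v hvt
      obtain ⟨i, hi, h7⟩ := hcov ⟨(v, u), hu⟩ hlt
      exact ⟨i, hi, _, h7, Or.inl rfl⟩
  · -- cover
    intro u v huv hlt
    obtain ⟨i, hi, h7⟩ := hcov ⟨(u, v), huv⟩ hlt
    refine ⟨i, hi, ⟨_, h7, Or.inl rfl⟩, ⟨_, h7, Or.inr rfl⟩, fun w hw hcon => ?_⟩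
    have h8 := fstep_of_le (hup i) (h1 i) (h3 i) (h5 i) (u := u) (v := w)
      ⟨_, h7, Or.inl rfl⟩ hw hcon.1.le
    rcases ReflTransGen.cases_head h8 with h9 | ⟨x, ⟨e, he, h10, h11⟩, h12⟩
    · rw [h9] at hcon; exact lt_irrefl _ hcon.1
    · have h13 := h1 i e he _ h7 h10
      rw [h13] at h11
      have h14 : v = x := h11
      rw [← h14] at h12
      rcases fstep_mono (hup i) h12 with h15 | h15
      · rw [h15] at hcon; exact lt_irrefl _ hcon.2
      · exact lt_asymm h15 hcon.2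
  · -- inj
    intro i _ u hu v hv huv
    have h8 := fstep_of_le (hup i) (h1 i) (h3 i) (h5 i) hu hv huv.le
    rcases fstep_mono (hup i) h8 with h9 | h9
    · exact h9
    · exact absurd huv h9.ne
  · -- conn
    intro i _ u hu v hv huv hno
    have h8 := fstep_of_le (hup i) (h1 i) (h3 i) (h5 i) hu hv huv.le
    rcases ReflTransGen.cases_head h8 with h9 | ⟨x, ⟨e, he, h10, h11⟩, h12⟩
    · rw [h9] at huv; exact absurd huv (lt_irrefl _)
    · rcases fstep_mono (hup i) h12 with h15 | h15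
      · rw [← h10, ← h15, ← h11]; exact e.adj
      · refine absurd ⟨?_, h15⟩ (hno x ⟨e, he, Or.inr h11⟩)
        rw [← h10, ← h11]; exact hup i e he
  · exact ⟨s, fun i _ => hsP i, hmin⟩
  · exact ⟨t, fun i _ => htP i, hmax⟩
  · -- convex
    intro v i j k hij hjk _ hvi hvk
    by_cases hvs : v = s
    · rw [hvs]; exact hsP j
    by_cases hvt : v = t
    · rw [hvt]; exact htP j
    obtain ⟨l, r, hlr⟩ := h21' V G σ d₀ h s t hctx v hvs hvt
    have hiff : ∀ i, v ∈ FV (Front σ h f₀ (Ws h f₀ i)) ↔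
        (l ∈ Ws h f₀ i ∨ l = f₀) ∧ r ∉ Ws h f₀ i := by
      intro i
      rw [← hlr _ (hst i)]
      constructor
      · rintro ⟨d, hd, h7 | h7⟩
        · exact ⟨d, hd, h7⟩
        · exact (h3 i v hvs hvt).2 ⟨d, hd, h7⟩
      · rintro ⟨d, hd, h7⟩
        exact ⟨d, hd, Or.inl h7⟩
    have hi' := (hiff i).1 hvi
    have hk' := (hiff k).1 hvk
    refine (hiff j).2 ⟨?_, fun hr => hk'.2 (Ws_mono hjk hr)⟩
    rcases hi'.1 with h7 | h7
    · exact Or.inl (Ws_mono hij h7)
    · exact Or.inr h7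

end Vale.Agent.P235.Red
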