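/-
P235-M, reduction, cyclic form (helper934): cyclic sweeps of plane graphs, `s` and `t` anywhere.
-/
import Vale.Agent.P235.R2.H934.CDefs

namespace Vale.Agent.P235.Red

/-- `P 0, …, P N` are monotone paths of `G` (for the height `h`) from one bottom vertex to one top
vertex, `P N = P 0`; they cover all edges; a vertex outside `P 0` is on the paths of a contiguous
range of indices, a vertex of `P 0` misses a contiguous range of indices. -/
structure CycSweep {V : Type} (G : SimpleGraph V) (h : V → ℝ) (N : ℕ) (P : ℕ → Set V) : Prop where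
  every : ∀ v, ∃ i ≤ N, v ∈ P i
  cover : ∀ u v, G.Adj u v → h u < h v → ∃ i ≤ N, u ∈ P i ∧ v ∈ P i ∧
    ∀ w ∈ P i, ¬ (h u < h w ∧ h w < h v)
  inj : ∀ i ≤ N, ∀ u ∈ P i, ∀ v ∈ P i, h u = h v → u = v
  conn : ∀ i ≤ N, ∀ u ∈ P i, ∀ v ∈ P i, h u < h v → (∀ w ∈ P i, ¬ (h u < h w ∧ h w < h v)) →
    G.Adj u v
  bot : ∃ s, (∀ i ≤ N, s ∈ P i) ∧ ∀ v, h s ≤ h v
  top : ∃ t, (∀ i ≤ N, t ∈ P i) ∧ ∀ v, h v ≤ h t
  closed : P N = P 0
  conv_out : ∀ v, v ∉ P 0 → ∀ i j k, i ≤ j → j ≤ k → k ≤ N → v ∈ P i → v ∈ P k → v ∈ P j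
  conv_in : ∀ v, v ∈ P 0 → ∀ i j k, i ≤ j → j ≤ k → k ≤ N → v ∉ P i → v ∉ P k → v ∉ P j

/-- the cyclic row: every plane map without local extrema besides `s` and `t` has a cyclic sweep
with `|V|²` steps (one step per face, then constant). -/
def RowCyc : Prop :=
  ∀ (V : Type) [Finite V] (G : SimpleGraph V) (σ : Equiv.Perm G.Dart) (h : V → ℝ) (s t : V),
    G.Connected → PlaneMap G σ → UpDown G h s t →
    ∃ P : ℕ → Set V, CycSweep G h (Nat.card V ^ 2) P

end Vale.Agent.P235.Red
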