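/-
P235-M, reduction, cyclic form (helper934): unit flows along the up-darts of a graph with a height.
-/
import Vale.Agent.P235.R2.H934.C24

namespace Vale.Agent.P235.Red

section flow

variable {V : Type} {G : SimpleGraph V} {h : V → ℝ} {s t : V}

open Classical in
/-- indicator function with integer values -/
noncomputable def ind {α : Type} (A : Set α) (a : α) : ℤ := if a ∈ A then 1 else 0

theorem ind_of_mem {α : Type} {A : Set α} {a : α} (ha : a ∈ A) : ind A a = 1 := if_pos ha

theorem ind_of_notMem {α : Type} {A : Set α} {a : α} (ha : a ∉ A) : ind A a = 0 := if_neg ha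

theorem ind_cases {α : Type} (A : Set α) (a : α) : (a ∈ A ∧ ind A a = 1) ∨ (a ∉ A ∧ ind A a = 0) := by
  by_cases ha : a ∈ A
  · exact Or.inl ⟨ha, ind_of_mem ha⟩
  · exact Or.inr ⟨ha, ind_of_notMem ha⟩

open Classical in
/-- sum over the up-darts leaving `v` -/
noncomputable def outS [Fintype G.Dart] (h : V → ℝ) (x : G.Dart → ℤ) (v : V) : ℤ :=
  ∑ d : G.Dart, if d.fst = v ∧ h d.fst < h d.snd then x d else 0

open Classical in
/-- sum over the up-darts entering `v` -/
noncomputable def inS [Fintype G.Dart] (h : V → ℝ) (x : G.Dart → ℤ) (v : V) : ℤ :=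
  ∑ d : G.Dart, if d.snd = v ∧ h d.fst < h d.snd then x d else 0

/-- a nonnegative flow of value `m` along the up-darts from `s` to `t` -/
structure Flow [Fintype G.Dart] (h : V → ℝ) (s t : V) (m : ℤ) (x : G.Dart → ℤ) : Prop where
  nonneg : ∀ d : G.Dart, h d.fst < h d.snd → 0 ≤ x d
  bal : ∀ v, v ≠ s → v ≠ t → outS h x v = inS h x v
  src : outS h x s = m

variable [Fintype G.Dart]

theorem outS_add (x y : G.Dart → ℤ) (v : V) :
    outS h (fun d => x d + y d) v = outS h x v + outS h y v := by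
  unfold outS
  rw [← Finset.sum_add_distrib]
  refine Finset.sum_congr rfl fun d _ => ?_
  split_ifs <;> simp

theorem inS_add (x y : G.Dart → ℤ) (v : V) :
    inS h (fun d => x d + y d) v = inS h x v + inS h y v := by
  unfold inS
  rw [← Finset.sum_add_distrib]
  refine Finset.sum_congr rfl fun d _ => ?_
  split_ifs <;> simp

theorem outS_sub (x y : G.Dart → ℤ) (v : V) :
    outS h (fun d => x d - y d) v = outS h x v - outS h y v := by
  unfold outS
  rw [← Finset.sum_sub_distrib]
  refine Finset.sum_congr rfl fun d _ => ?_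
  split_ifs <;> simp

theorem inS_sub (x y : G.Dart → ℤ) (v : V) :
    inS h (fun d => x d - y d) v = inS h x v - inS h y v := by
  unfold inS
  rw [← Finset.sum_sub_distrib]
  refine Finset.sum_congr rfl fun d _ => ?_
  split_ifs <;> simp

/-- single terms -/
theorem le_outS {x : G.Dart → ℤ} (hx : ∀ d : G.Dart, h d.fst < h d.snd → 0 ≤ x d) {d : G.Dart}
    (hd : h d.fst < h d.snd) : x d ≤ outS h x d.fst := by
  classical
  unfold outS
  have h1 : (fun e : G.Dart => if e.fst = d.fst ∧ h e.fst < h e.snd then x e else 0) d ≤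
      ∑ e : G.Dart, if e.fst = d.fst ∧ h e.fst < h e.snd then x e else 0 := by
    refine Finset.single_le_sum (f := fun e : G.Dart =>
      if e.fst = d.fst ∧ h e.fst < h e.snd then x e else 0) (fun e _ => ?_) (Finset.mem_univ d)
    show 0 ≤ if e.fst = d.fst ∧ h e.fst < h e.snd then x e else 0
    split_ifs with h2
    · exact hx e h2.2
    · exact le_rfl
  simpa [hd] using h1

theorem le_inS {x : G.Dart → ℤ} (hx : ∀ d : G.Dart, h d.fst < h d.snd → 0 ≤ x d) {d : G.Dart}
    (hd : h d.fst < h d.snd) : x d ≤ inS h x d.snd := by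
  classical
  unfold inS
  have h1 : (fun e : G.Dart => if e.snd = d.snd ∧ h e.fst < h e.snd then x e else 0) d ≤
      ∑ e : G.Dart, if e.snd = d.snd ∧ h e.fst < h e.snd then x e else 0 := by
    refine Finset.single_le_sum (f := fun e : G.Dart =>
      if e.snd = d.snd ∧ h e.fst < h e.snd then x e else 0) (fun e _ => ?_) (Finset.mem_univ d)
    show 0 ≤ if e.snd = d.snd ∧ h e.fst < h e.snd then x e else 0
    split_ifs with h2
    · exact hx e h2.2
    · exact le_rfl
  simpa [hd] using h1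

/-- two terms -/
theorem add_le_outS {x : G.Dart → ℤ} (hx : ∀ d : G.Dart, h d.fst < h d.snd → 0 ≤ x d)
    {d e : G.Dart} (hd : h d.fst < h d.snd) (he : h e.fst < h e.snd) (hde : d.fst = e.fst)
    (hne : d ≠ e) : x d + x e ≤ outS h x d.fst := by
  classical
  unfold outS
  have h1 : ∑ e ∈ ({d, e} : Finset G.Dart),
      (if e.fst = d.fst ∧ h e.fst < h e.snd then x e else 0) ≤
      ∑ e : G.Dart, if e.fst = d.fst ∧ h e.fst < h e.snd then x e else 0 := by
    refine Finset.sum_le_sum_of_subset_of_nonneg (Finset.subset_univ _) fun e _ _ => ?_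
    split_ifs with h2
    · exact hx e h2.2
    · exact le_rfl
  rw [Finset.sum_pair hne, if_pos ⟨rfl, hd⟩, if_pos ⟨hde.symm, he⟩] at h1
  exact h1

theorem add_le_inS {x : G.Dart → ℤ} (hx : ∀ d : G.Dart, h d.fst < h d.snd → 0 ≤ x d)
    {d e : G.Dart} (hd : h d.fst < h d.snd) (he : h e.fst < h e.snd) (hde : d.snd = e.snd)
    (hne : d ≠ e) : x d + x e ≤ inS h x d.snd := by
  classical
  unfold inS
  have h1 : ∑ e ∈ ({d, e} : Finset G.Dart),
      (if e.snd = d.snd ∧ h e.fst < h e.snd then x e else 0) ≤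
      ∑ e : G.Dart, if e.snd = d.snd ∧ h e.fst < h e.snd then x e else 0 := by
    refine Finset.sum_le_sum_of_subset_of_nonneg (Finset.subset_univ _) fun e _ _ => ?_
    split_ifs with h2
    · exact hx e h2.2
    · exact le_rfl
  rw [Finset.sum_pair hne, if_pos ⟨rfl, hd⟩, if_pos ⟨hde.symm, he⟩] at h1
  exact h1

theorem exists_of_outS_pos {x : G.Dart → ℤ} {v : V} (hv : 0 < outS h x v) :
    ∃ d : G.Dart, h d.fst < h d.snd ∧ 0 < x d ∧ d.fst = v := by
  classical
  by_contra hcon
  push Not at hcon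
  refine absurd hv (not_lt.2 (Finset.sum_nonpos fun d _ => ?_))
  split_ifs with h1
  · by_contra h2
    exact hcon d h1.2 (not_le.1 h2) h1.1
  · exact le_rfl

theorem exists_of_inS_pos {x : G.Dart → ℤ} {v : V} (hv : 0 < inS h x v) :
    ∃ d : G.Dart, h d.fst < h d.snd ∧ 0 < x d ∧ d.snd = v := by
  classical
  by_contra hcon
  push Not at hcon
  refine absurd hv (not_lt.2 (Finset.sum_nonpos fun d _ => ?_))
  split_ifs with h1
  · by_contra h2
    exact hcon d h1.2 (not_le.1 h2) h1.1
  · exact le_rfl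

theorem inS_bot (hs : ∀ v, h s ≤ h v) (x : G.Dart → ℤ) : inS h x s = 0 := by
  classical
  unfold inS
  refine Finset.sum_eq_zero fun d _ => if_neg ?_
  rintro ⟨h1, h2⟩
  rw [h1] at h2
  exact absurd (hs d.fst) (not_le.2 h2)

theorem outS_top (ht : ∀ v, h v ≤ h t) (x : G.Dart → ℤ) : outS h x t = 0 := by
  classical
  unfold outS
  refine Finset.sum_eq_zero fun d _ => if_neg ?_
  rintro ⟨h1, h2⟩
  rw [h1] at h2
  exact absurd (ht d.snd) (not_le.2 h2)

open Classical in
/-- the flow through a cut -/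
theorem flow_cut {m : ℤ} {x : G.Dart → ℤ} (hf : Flow h s t m x) (hs : ∀ v, h s ≤ h v)
    (S : Finset V) (hsS : s ∈ S) (htS : t ∉ S) :
    ∑ d : G.Dart, ((if d.fst ∈ S ∧ h d.fst < h d.snd then x d else 0) -
      (if d.snd ∈ S ∧ h d.fst < h d.snd then x d else 0)) = m := by
  have h1 : ∑ v ∈ S, outS h x v =
      ∑ d : G.Dart, if d.fst ∈ S ∧ h d.fst < h d.snd then x d else 0 := by
    unfold outS
    rw [Finset.sum_comm]
    refine Finset.sum_congr rfl fun d _ => ?_
    by_cases hu : h d.fst < h d.snd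
    · simp only [hu, and_true]
      rw [Finset.sum_ite_eq]
    · simp [hu]
  have h2 : ∑ v ∈ S, inS h x v =
      ∑ d : G.Dart, if d.snd ∈ S ∧ h d.fst < h d.snd then x d else 0 := by
    unfold inS
    rw [Finset.sum_comm]
    refine Finset.sum_congr rfl fun d _ => ?_
    by_cases hu : h d.fst < h d.snd
    · simp only [hu, and_true]
      rw [Finset.sum_ite_eq]
    · simp [hu]
  rw [Finset.sum_sub_distrib, ← h1, ← h2, ← Finset.sum_sub_distrib,
    Finset.sum_eq_single_of_mem s hsS]
  · rw [hf.src, inS_bot hs, sub_zero]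
  · intro v hv hvs
    rw [hf.bal v hvs (fun h => htS (h ▸ hv)), sub_self]

theorem flow_out_le [Finite V] {m : ℤ} {x : G.Dart → ℤ} (hf : Flow h s t m x)
    (hs : ∀ v, h s ≤ h v) {v : V} (hv : h v < h t) : outS h x v ≤ m := by
  classical
  have := Fintype.ofFinite V
  rw [← flow_cut hf hs (Finset.univ.filter fun u => h u ≤ h v) (by simp [hs v]) (by simp [hv])]
  unfold outS
  refine Finset.sum_le_sum fun d _ => ?_
  simp only [Finset.mem_filter, Finset.mem_univ, true_and]
  by_cases hu : h d.fst < h d.snd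
  · simp only [hu, and_true]
    have h0 := hf.nonneg d hu
    by_cases h1 : d.fst = v
    · rw [if_pos h1, if_pos (by rw [h1]), if_neg (by rw [← h1]; exact not_le.2 hu)]
      simp
    · rw [if_neg h1]
      by_cases h2 : h d.snd ≤ h v
      · rw [if_pos h2, if_pos (hu.le.trans h2)]
        simp
      · rw [if_neg h2]
        split_ifs <;> simp [h0]
  · simp [hu]

theorem flow_in_top [Finite V] {m : ℤ} {x : G.Dart → ℤ} (hf : Flow h s t m x)
    (hs : ∀ v, h s ≤ h v) (ht : ∀ v, h v ≤ h t) (hst : s ≠ t) : inS h x t = m := by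
  classical
  have := Fintype.ofFinite V
  rw [← flow_cut hf hs (Finset.univ.erase t) (by simp [hst]) (by simp)]
  unfold inS
  refine Finset.sum_congr rfl fun d _ => ?_
  by_cases hu : h d.fst < h d.snd
  · have h1 : d.fst ≠ t := fun h1 => absurd (ht d.snd) (not_le.2 (h1 ▸ hu))
    by_cases h2 : d.snd = t
    · simp [hu, h1, h2]
    · simp [hu, h1, h2]
  · simp [hu]

/-- the front of a flow -/
def FrontF (h : V → ℝ) (x : G.Dart → ℤ) : Set G.Dart := {d | h d.fst < h d.snd ∧ 0 < x d}

/-- a unit flow is a path -/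
theorem flow_path [Finite V] {x : G.Dart → ℤ} (hf : Flow h s t 1 x)
    (hs : ∀ v, h s ≤ h v) (ht : ∀ v, h v ≤ h t) (hst : h s < h t) :
    (∀ d ∈ FrontF h x, ∀ e ∈ FrontF h x, d.fst = e.fst → d = e) ∧
    (∀ d ∈ FrontF h x, ∀ e ∈ FrontF h x, d.snd = e.snd → d = e) ∧
    (∀ v, v ≠ s → v ≠ t → ((∃ d ∈ FrontF h x, d.fst = v) ↔ ∃ d ∈ FrontF h x, d.snd = v)) ∧
    (∃ d ∈ FrontF h x, d.fst = s) ∧ (∃ d ∈ FrontF h x, d.snd = t) ∧
    (∀ d : G.Dart, h d.fst < h d.snd → x d ≤ 1) := by
  have hne : s ≠ t := fun h1 => absurd hst (h1 ▸ lt_irrefl _)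
  have hout : ∀ d : G.Dart, h d.fst < h d.snd → outS h x d.fst ≤ 1 := fun d hd =>
    flow_out_le hf hs (hd.trans_le (ht _))
  have hin : ∀ d : G.Dart, h d.fst < h d.snd → inS h x d.snd ≤ 1 := by
    intro d hd
    by_cases h1 : d.snd = t
    · rw [h1, flow_in_top hf hs ht hne]
    · have h2 : d.snd ≠ s := fun h2 => absurd (hs d.fst) (not_le.2 (h2 ▸ hd))
      rw [← hf.bal _ h2 h1]
      by_cases h3 : h d.snd < h t
      · exact flow_out_le hf hs h3
      · by_contra h4
        obtain ⟨e, he1, -, he3⟩ := exists_of_outS_pos (h := h) (x := x) (v := d.snd) (by omega)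
        exact absurd (ht e.snd) (not_le.2 (lt_of_le_of_lt (not_lt.1 h3) (he3 ▸ he1)))
  refine ⟨?_, ?_, ?_, ?_, ?_, ?_⟩
  · intro d hd e he hde
    by_contra hcon
    have h1 := add_le_outS hf.nonneg hd.1 he.1 hde hcon
    have h2 := hout d hd.1
    have h3 := hd.2
    have h4 := he.2
    omega
  · intro d hd e he hde
    by_contra hcon
    have h1 := add_le_inS hf.nonneg hd.1 he.1 hde hcon
    have h2 := hin d hd.1
    have h3 := hd.2
    have h4 := he.2
    omega
  · intro v hvs hvt
    constructor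
    · rintro ⟨d, hd, rfl⟩
      have h1 := le_outS hf.nonneg hd.1
      have h2 := hd.2
      obtain ⟨e, he1, he2, he3⟩ := exists_of_inS_pos (h := h) (x := x) (v := d.fst)
        (by rw [← hf.bal _ hvs hvt]; omega)
      exact ⟨e, ⟨he1, he2⟩, he3⟩
    · rintro ⟨d, hd, rfl⟩
      have h1 := le_inS hf.nonneg hd.1
      have h2 := hd.2
      obtain ⟨e, he1, he2, he3⟩ := exists_of_outS_pos (h := h) (x := x) (v := d.snd)
        (by rw [hf.bal _ hvs hvt]; omega)
      exact ⟨e, ⟨he1, he2⟩, he3⟩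
  · obtain ⟨e, he1, he2, he3⟩ := exists_of_outS_pos (h := h) (x := x) (v := s)
      (by rw [hf.src]; exact one_pos)
    exact ⟨e, ⟨he1, he2⟩, he3⟩
  · obtain ⟨e, he1, he2, he3⟩ := exists_of_inS_pos (h := h) (x := x) (v := t)
      (by rw [flow_in_top hf hs ht hne]; exact one_pos)
    exact ⟨e, ⟨he1, he2⟩, he3⟩
  · intro d hd
    exact (le_outS hf.nonneg hd).trans (hout d hd)

/-- a flow of value `0` vanishes -/
theorem flow_zero [Finite V] {x : G.Dart → ℤ} (hf : Flow h s t 0 x)
    (hs : ∀ v, h s ≤ h v) (ht : ∀ v, h v ≤ h t) (d : G.Dart) (hd : h d.fst < h d.snd) :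
    x d = 0 := by
  have h1 := flow_out_le hf hs (v := d.fst) (hd.trans_le (ht _))
  have h2 := le_outS hf.nonneg hd
  have h3 := hf.nonneg d hd
  omega

end flow

end Vale.Agent.P235.Red
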