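/-
P235-M, reduction, cyclic form (helper934): a start path, states, fronts, the sweepable face.
-/
import Vale.Agent.P235.R2.H934.Flow
import Vale.Agent.P235.R2.H934.CycDefs
import Vale.Agent.P235.R2.H90.C1

namespace Vale.Agent.P235.Red

open Equiv Vale.Agent.P235.R2.H90

section exQ

variable {V : Type} {G : SimpleGraph V} {h : V → ℝ} {s t : V} [Fintype G.Dart]

theorem ind_self {α : Type} (a : α) : ind ({a} : Set α) a = 1 := ind_of_mem (Set.mem_singleton a)

theorem ind_ne {α : Type} {a b : α} (hab : a ≠ b) : ind ({b} : Set α) a = 0 :=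
  ind_of_notMem fun h => hab (Set.mem_singleton_iff.1 h)

theorem outS_single {e : G.Dart} (he : h e.fst < h e.snd) (w : V) :
    outS h (ind {e}) w = ind {e.fst} w := by
  classical
  unfold outS
  rw [Finset.sum_eq_single e]
  · by_cases h1 : e.fst = w
    · rw [if_pos ⟨h1, he⟩, ind_self, h1, ind_self]
    · rw [if_neg (fun h2 => h1 h2.1), ind_ne (Ne.symm h1)]
  · intro d _ hd
    rw [ind_ne hd, ite_self]
  · intro h1
    exact absurd (Finset.mem_univ e) h1

theorem inS_single {e : G.Dart} (he : h e.fst < h e.snd) (w : V) :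
    inS h (ind {e}) w = ind {e.snd} w := by
  classical
  unfold inS
  rw [Finset.sum_eq_single e]
  · by_cases h1 : e.snd = w
    · rw [if_pos ⟨h1, he⟩, ind_self, h1, ind_self]
    · rw [if_neg (fun h2 => h1 h2.1), ind_ne (Ne.symm h1)]
  · intro d _ hd
    rw [ind_ne hd, ite_self]
  · intro h1
    exact absurd (Finset.mem_univ e) h1

theorem ind_nn {α : Type} (A : Set α) (a : α) : 0 ≤ ind A a := by
  rcases ind_cases A a with h | h <;> rw [h.2] <;> norm_num

theorem exists_path_aux [Finite V] (hhigh : ∀ v, v ≠ t → ∃ u, G.Adj v u ∧ h v < h u) (n : ℕ) :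
    ∀ v, v ≠ t → {w | h v < h w}.ncard ≤ n →
      ∃ Q : Set G.Dart, (∀ d ∈ Q, h v ≤ h d.fst ∧ h d.fst < h d.snd) ∧ Flow h v t 1 (ind Q) := by
  classical
  induction n with
  | zero =>
    intro v hv hn
    obtain ⟨u, _, hu⟩ := hhigh v hv
    have h1 : u ∈ {w | h v < h w} := hu
    have h2 := (Set.ncard_pos (Set.toFinite _)).2 ⟨u, h1⟩
    omega
  | succ n ih =>
    intro v hv hn
    obtain ⟨u, hadj, hu⟩ := hhigh v hv
    set e : G.Dart := ⟨(v, u), hadj⟩ with he
    have hef : e.fst = v := rfl
    have hes : e.snd = u := rfl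
    have hup : h e.fst < h e.snd := hu
    by_cases hut : u = t
    · refine ⟨{e}, ?_, ?_, ?_, ?_⟩
      · rintro d rfl
        exact ⟨le_rfl, hup⟩
      · intro d _
        exact ind_nn _ _
      · intro w hwv hwt
        rw [outS_single hup, inS_single hup, ind_ne (fun h1 : w = e.fst => hwv (h1.trans hef)),
          ind_ne (fun h1 : w = e.snd => hwt (h1.trans (hes.trans hut)))]
      · rw [outS_single hup]
        exact ind_self v
    · have hlt : {w | h u < h w}.ncard < {w | h v < h w}.ncard := by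
        have hsub : {w | h u < h w} ⊆ {w | h v < h w} := fun w hw => hu.trans hw
        exact Set.ncard_lt_ncard ((Set.ssubset_iff_of_subset hsub).2 ⟨u, hu, lt_irrefl (h u)⟩)
          (Set.toFinite _)
      obtain ⟨Q, hQ1, hQ2⟩ := ih u hut (by omega)
      have heQ : e ∉ Q := fun h1 => absurd (hQ1 e h1).1 (not_le.2 hu)
      have hind : ind (insert e Q) = fun d => ind Q d + ind {e} d := by
        funext d
        by_cases h1 : d = e
        · subst h1
          rw [ind_of_mem (Set.mem_insert _ _), ind_of_notMem heQ, ind_self, zero_add]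
        · rw [ind_ne h1, add_zero]
          by_cases h2 : d ∈ Q
          · rw [ind_of_mem (Set.mem_insert_of_mem _ h2), ind_of_mem h2]
          · rw [ind_of_notMem h2, ind_of_notMem]
            rintro (h3 | h3)
            · exact h1 h3
            · exact h2 h3
      have hin0 : inS h (ind Q) u = 0 := by
        unfold inS
        refine Finset.sum_eq_zero fun d _ => ?_
        split_ifs with h1
        · refine ind_of_notMem fun h2 => ?_
          have h3 := (hQ1 d h2).1
          rw [h1.1] at h1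
          exact absurd h3 (not_le.2 h1.2)
        · rfl
      have hout0 : outS h (ind Q) v = 0 := by
        unfold outS
        refine Finset.sum_eq_zero fun d _ => ?_
        split_ifs with h1
        · refine ind_of_notMem fun h2 => ?_
          have h3 := (hQ1 d h2).1
          rw [h1.1] at h3
          exact absurd h3 (not_le.2 hu)
        · rfl
      refine ⟨insert e Q, ?_, ?_, ?_, ?_⟩
      · rintro d (rfl | hd)
        · exact ⟨le_rfl, hup⟩
        · exact ⟨hu.le.trans (hQ1 d hd).1, (hQ1 d hd).2⟩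
      · intro d _
        exact ind_nn _ _
      · intro w hwv hwt
        rw [hind, outS_add, inS_add, outS_single hup, inS_single hup,
          ind_ne (fun h1 : w = e.fst => hwv (h1.trans hef)), add_zero]
        by_cases hwu : w = u
        · subst hwu
          rw [hQ2.src, hin0, show ind {e.snd} w = 1 from ind_self w, zero_add]
        · rw [ind_ne (fun h1 : w = e.snd => hwu (h1.trans hes)), add_zero,
            hQ2.bal w hwu hwt]
      · rw [hind, outS_add, hout0, zero_add, outS_single hup]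
        exact ind_self v

theorem exists_path [Finite V] (hhigh : ∀ v, v ≠ t → ∃ u, G.Adj v u ∧ h v < h u) (hst : s ≠ t) :
    ∃ Q : Set G.Dart, Flow h s t 1 (ind Q) := by
  obtain ⟨Q, -, hQ⟩ := exists_path_aux hhigh _ s hst le_rfl
  exact ⟨Q, hQ⟩

end exQ

section plane

variable {V : Type} {G : SimpleGraph V} {σ : Equiv.Perm G.Dart} {h : V → ℝ} {s t : V}

theorem fc_next (d : G.Dart) : fc σ (faceNext σ d) = fc σ d :=
  Quotient.sound (Equiv.Perm.sameCycle_apply_left.2 (Equiv.Perm.SameCycle.refl _ _))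

theorem fc_rot (d : G.Dart) : fc σ (σ d) = fc σ d.symm := by
  rw [← fc_next (σ := σ) d.symm]
  rfl

theorem fst_of_cycle [Finite V] (hP : PlaneMap G σ) {a d : G.Dart} (had : σ.SameCycle a d) :
    d.fst = a.fst := by
  classical
  have := Fintype.ofFinite V
  have : Finite G.Dart := Finite.of_fintype _
  have := Fintype.ofFinite G.Dart
  obtain ⟨i, -, hi⟩ := had.exists_pow_eq'
  have key : ∀ i : ℕ, ((σ ^ i) a).fst = a.fst := by
    intro i
    induction i with
    | zero => simp
    | succ i ih => rw [pow_succ', Perm.mul_apply, hP.fst, ih]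
  rw [← hi, key]

theorem ndn_iff (hU : UpDown G h s t) (d : G.Dart) :
    ¬ h d.fst < h d.snd ↔ h d.snd < h d.fst := by
  have := hU.ne _ _ d.adj
  constructor
  · intro h1; exact lt_of_le_of_ne (not_lt.1 h1) this.symm
  · intro h1; exact not_lt.2 h1.le

/-- the darts around a vertex: `w (left) - w (right)` summed over the up-darts leaving `v` is the
same sum over the up-darts entering `v` -/
theorem sum_w [Fintype G.Dart] (hP : PlaneMap G σ) (hU : UpDown G h s t) (w : Fc σ → ℤ) (v : V) :
    outS h (fun d => w (fc σ d.symm) - w (fc σ d)) v =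
      inS h (fun d => w (fc σ d.symm) - w (fc σ d)) v := by
  classical
  have h1 : ∑ d : G.Dart, (if d.fst = v then w (fc σ d.symm) - w (fc σ d) else 0) = 0 := by
    have h2 : ∑ d : G.Dart, (if d.fst = v then w (fc σ d.symm) else 0) =
        ∑ d : G.Dart, (if d.fst = v then w (fc σ d) else 0) := by
      rw [← Equiv.sum_comp σ (fun d => if d.fst = v then w (fc σ d) else 0)]
      refine Finset.sum_congr rfl fun d _ => ?_
      rw [hP.fst, fc_rot]
    rw [← sub_eq_zero, ← Finset.sum_sub_distrib] at h2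
    refine Eq.trans (Finset.sum_congr rfl fun d _ => ?_) h2
    split_ifs <;> simp
  have h2 : ∑ d : G.Dart, (if d.fst = v ∧ ¬ h d.fst < h d.snd
      then w (fc σ d.symm) - w (fc σ d) else 0) =
      - inS h (fun d => w (fc σ d.symm) - w (fc σ d)) v := by
    unfold inS
    rw [← Equiv.sum_comp (SimpleGraph.Dart.symm_involutive (G := G)).toPerm, ← Finset.sum_neg_distrib]
    refine Finset.sum_congr rfl fun d _ => ?_
    simp only [Function.Involutive.coe_toPerm, SimpleGraph.Dart.symm_symm]
    have h3 : (d.symm.fst = v ∧ ¬ h d.symm.fst < h d.symm.snd) ↔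
        (d.snd = v ∧ h d.fst < h d.snd) := by
      show (d.snd = v ∧ ¬ h d.snd < h d.fst) ↔ _
      have h4 := hU.ne _ _ d.adj
      constructor
      · rintro ⟨h5, h6⟩
        exact ⟨h5, lt_of_le_of_ne (not_lt.1 h6) h4⟩
      · rintro ⟨h5, h6⟩
        exact ⟨h5, not_lt.2 h6.le⟩
    by_cases h5 : d.snd = v ∧ h d.fst < h d.snd
    · rw [if_pos (h3.2 h5), if_pos h5]
      ring
    · rw [if_neg (fun h6 => h5 (h3.1 h6)), if_neg h5, neg_zero]
  have h3 : outS h (fun d => w (fc σ d.symm) - w (fc σ d)) v +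
      ∑ d : G.Dart, (if d.fst = v ∧ ¬ h d.fst < h d.snd
      then w (fc σ d.symm) - w (fc σ d) else 0) = 0 := by
    refine Eq.trans ?_ h1
    unfold outS
    rw [← Finset.sum_add_distrib]
    refine Finset.sum_congr rfl fun d _ => ?_
    by_cases h4 : d.fst = v
    · by_cases h5 : h d.fst < h d.snd
      · rw [if_pos ⟨h4, h5⟩, if_neg (fun h6 => h6.2 h5), if_pos h4, add_zero]
      · rw [if_neg (fun h6 => h5 h6.2), if_pos ⟨h4, h5⟩, if_pos h4, zero_add]
    · rw [if_neg (fun h6 => h4 h6.1), if_neg (fun h6 => h4 h6.1), if_neg h4, add_zero]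
  rw [h2] at h3
  linarith

/-- the two ends of the run of up-darts around a vertex -/
theorem exists_ab [Finite V] (hP : PlaneMap G σ) (hU : UpDown G h s t) {v : V} (hvs : v ≠ s)
    (hvt : v ≠ t) : (∃ a : G.Dart, a.fst = v ∧ h a.fst < h a.snd ∧ ¬ h (σ a).fst < h (σ a).snd) ∧
      ∃ b : G.Dart, b.fst = v ∧ ¬ h b.fst < h b.snd ∧ h (σ b).fst < h (σ b).snd := by
  classical
  have := Fintype.ofFinite V
  have : Finite G.Dart := Finite.of_fintype _
  obtain ⟨u, hu, hu'⟩ := hU.high v hvt
  obtain ⟨u', hv, hv'⟩ := hU.low v hvs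
  have hx : (⟨(v, u), hu⟩ : G.Dart).fst = (⟨(v, u'), hv⟩ : G.Dart).fst := rfl
  constructor
  · obtain ⟨d, h1, h2, h3⟩ := cyc_change σ (fun d : G.Dart => h d.fst < h d.snd)
      (hP.cyc _ _ hx) hu' (not_lt.2 hv'.le)
    exact ⟨d, fst_of_cycle hP h1, h2, h3⟩
  · obtain ⟨d, h1, h2, h3⟩ := cyc_change σ (fun d : G.Dart => ¬ h d.fst < h d.snd)
      (hP.cyc _ _ hx.symm) (not_lt.2 hv'.le) (not_not.2 hu')
    exact ⟨d, fst_of_cycle hP h1, h2, not_not.1 h3⟩

/-- telescoping around a vertex -/
theorem telescope [Finite V] [Fintype G.Dart] (hP : PlaneMap G σ) (hU : UpDown G h s t) {v : V}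
    (hvs : v ≠ s) (hvt : v ≠ t) : ∃ l r : Fc σ, ∀ w : Fc σ → ℤ,
      outS h (fun d => w (fc σ d.symm) - w (fc σ d)) v = w l - w r := by
  classical
  obtain ⟨⟨a, a1, a2, a3⟩, b, b1, b2, b3⟩ := exists_ab hP hU hvs hvt
  obtain ⟨c1, c2, -, -⟩ := rowC1 V G σ h s t hP hU
  refine ⟨fc σ a.symm, fc σ b.symm, fun w => ?_⟩
  have h1 : ∑ d : G.Dart, (if d.fst = v ∧ h d.fst < h d.snd then w (fc σ d) else 0) =
      ∑ d : G.Dart, (if d.fst = v ∧ h (σ d).fst < h (σ d).snd then w (fc σ d.symm) else 0) := by
    rw [← Equiv.sum_comp σ (fun d : G.Dart => if d.fst = v ∧ h d.fst < h d.snd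
      then w (fc σ d) else 0)]
    refine Finset.sum_congr rfl fun d _ => ?_
    simp only [fc_rot]
    rw [hP.fst]
  have h2 : outS h (fun d => w (fc σ d.symm) - w (fc σ d)) v =
      ∑ d : G.Dart, ((if d.fst = v ∧ h d.fst < h d.snd then w (fc σ d.symm) else 0) -
        (if d.fst = v ∧ h (σ d).fst < h (σ d).snd then w (fc σ d.symm) else 0)) := by
    rw [Finset.sum_sub_distrib, ← h1, ← Finset.sum_sub_distrib]
    unfold outS
    refine Finset.sum_congr rfl fun d _ => ?_
    split_ifs <;> simp
  have h3 : ∀ d : G.Dart, ((if d.fst = v ∧ h d.fst < h d.snd then w (fc σ d.symm) else 0) -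
        (if d.fst = v ∧ h (σ d).fst < h (σ d).snd then w (fc σ d.symm) else 0)) =
      (if d = a then w (fc σ a.symm) else 0) - (if d = b then w (fc σ b.symm) else 0) := by
    intro d
    by_cases h4 : d.fst = v
    · by_cases h5 : h d.fst < h d.snd
      · have h6 : d ≠ b := by rintro rfl; exact b2 h5
        rw [if_neg h6, if_pos ⟨h4, h5⟩]
        by_cases h7 : h (σ d).fst < h (σ d).snd
        · have h8 : d ≠ a := by rintro rfl; exact a3 h7
          rw [if_neg h8, if_pos ⟨h4, h7⟩, sub_self, sub_self]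
        · have h8 : d = a := c1 d a (h4.trans a1.symm) h5 ((ndn_iff hU _).1 h7) a2
            ((ndn_iff hU _).1 a3)
          rw [if_pos h8, if_neg (fun h9 => h7 h9.2), h8]
      · have h6 : d ≠ a := by rintro rfl; exact h5 a2
        rw [if_neg h6, if_neg (fun h9 => h5 h9.2)]
        by_cases h7 : h (σ d).fst < h (σ d).snd
        · have h8 : d = b := c2 d b (h4.trans b1.symm) ((ndn_iff hU _).1 h5) h7
            ((ndn_iff hU _).1 b2) b3
          rw [if_pos h8, if_pos ⟨h4, h7⟩, h8]
        · have h8 : d ≠ b := by rintro rfl; exact h7 b3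
          rw [if_neg h8, if_neg (fun h9 => h7 h9.2)]
    · have h6 : d ≠ a := by rintro rfl; exact h4 a1
      have h7 : d ≠ b := by rintro rfl; exact h4 b1
      rw [if_neg h6, if_neg h7, if_neg (fun h9 => h4 h9.1), if_neg (fun h9 => h4 h9.1)]
  rw [h2, Finset.sum_congr rfl fun d _ => h3 d, Finset.sum_sub_distrib]
  simp

/-- a state of the cyclic sweep starting at the path `Q` -/
def CState (h : V → ℝ) (Q : Set G.Dart) (W : Set (Fc σ)) : Prop :=
  ∀ d : G.Dart, h d.fst < h d.snd → d ∉ Q → fc σ d ∈ W → fc σ d.symm ∈ W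

/-- the flow of a state -/
noncomputable def xW (Q : Set G.Dart) (W : Set (Fc σ)) (d : G.Dart) : ℤ :=
  (ind W (fc σ d.symm) - ind W (fc σ d)) + ind Q d

theorem s_low [Finite V] (hU : UpDown G h s t) : ∀ v, h s ≤ h v := by
  classical
  have := Fintype.ofFinite V
  obtain ⟨m, -, hm⟩ := Finset.exists_min_image (Finset.univ : Finset V) h ⟨s, Finset.mem_univ s⟩
  have hms : m = s := by
    by_contra hne
    obtain ⟨u, -, hu⟩ := hU.low m hne
    exact absurd (hm u (Finset.mem_univ u)) (not_le.2 hu)
  exact fun v => hms ▸ hm v (Finset.mem_univ v)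

theorem t_high [Finite V] (hU : UpDown G h s t) : ∀ v, h v ≤ h t := by
  classical
  have := Fintype.ofFinite V
  obtain ⟨m, -, hm⟩ := Finset.exists_max_image (Finset.univ : Finset V) h ⟨s, Finset.mem_univ s⟩
  have hms : m = t := by
    by_contra hne
    obtain ⟨u, -, hu⟩ := hU.high m hne
    exact absurd (hm u (Finset.mem_univ u)) (not_le.2 hu)
  exact fun v => hms ▸ hm v (Finset.mem_univ v)

theorem s_ne_t (hU : UpDown G h s t) : s ≠ t := fun h1 => by
  have := hU.lt
  rw [h1] at this
  exact lt_irrefl _ this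

theorem flow_xW [Finite V] [Fintype G.Dart] (hP : PlaneMap G σ) (hU : UpDown G h s t)
    {Q : Set G.Dart} (hQ : Flow h s t 1 (ind Q)) {W : Set (Fc σ)} (hW : CState h Q W) :
    Flow h s t 1 (xW Q W) := by
  refine ⟨?_, ?_, ?_⟩
  · intro d hd
    unfold xW
    by_cases h1 : d ∈ Q
    · rw [ind_of_mem h1]
      rcases ind_cases W (fc σ d.symm) with h2 | h2 <;> rcases ind_cases W (fc σ d) with h3 | h3 <;>
        rw [h2.2, h3.2] <;> norm_num
    · rw [ind_of_notMem h1]
      rcases ind_cases W (fc σ d) with h3 | h3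
      · rw [h3.2, ind_of_mem (hW d hd h1 h3.1)]
        norm_num
      · rw [h3.2]
        have := ind_nn W (fc σ d.symm)
        linarith
  · intro v hvs hvt
    unfold xW
    rw [outS_add (x := fun d => ind W (fc σ d.symm) - ind W (fc σ d)) (y := fun d => ind Q d),
      inS_add (x := fun d => ind W (fc σ d.symm) - ind W (fc σ d)) (y := fun d => ind Q d),
      sum_w hP hU (ind W) v, show outS h (fun d => ind Q d) v = inS h (fun d => ind Q d) v from
        hQ.bal v hvs hvt]
  · unfold xW
    rw [outS_add (x := fun d => ind W (fc σ d.symm) - ind W (fc σ d)) (y := fun d => ind Q d),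
      sum_w hP hU (ind W) s, inS_bot (s_low hU), zero_add]
    exact hQ.src

/-- the front of a state -/
def CFront (h : V → ℝ) (Q : Set G.Dart) (W : Set (Fc σ)) : Set G.Dart := FrontF h (xW Q W)

end plane

end Vale.Agent.P235.Red
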