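/-
P235-M, reduction, cyclic form (helper934): the sweepable face and the cyclic sweep.
-/
import Vale.Agent.P235.R2.H934.Cyc1

namespace Vale.Agent.P235.Red

open Equiv Vale.Agent.P235.R2.H90

section csweep

variable {V : Type} {G : SimpleGraph V} {σ : Equiv.Perm G.Dart} {h : V → ℝ} {s t : V}

theorem ind_eq_iff {α β : Type} {A : Set α} {B : Set β} {a : α} {b : β} (hab : ind A a = ind B b) :
    a ∈ A ↔ b ∈ B := by
  rcases ind_cases A a with h1 | h1 <;> rcases ind_cases B b with h2 | h2 <;>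
    rw [h1.2, h2.2] at hab
  · exact ⟨fun _ => h2.1, fun _ => h1.1⟩
  · exact absurd hab one_ne_zero
  · exact absurd hab zero_ne_one
  · exact ⟨fun h3 => absurd h3 h1.1, fun h3 => absurd h3 h2.1⟩

/-- if all faces on the right of the front are swept, all faces are swept -/
theorem all_swept [Finite V] [Fintype G.Dart] (hconn : G.Connected) (hP : PlaneMap G σ)
    (hU : UpDown G h s t) {Q : Set G.Dart} (hQ : Flow h s t 1 (ind Q)) {W : Set (Fc σ)}
    (hW : CState h Q W) (hA : ∀ d ∈ CFront h Q W, fc σ d ∈ W) : ∀ g, g ∈ W := by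
  classical
  have hfin : Finite G.Dart := Finite.of_fintype _
  have hs := s_low hU
  have ht := t_high hU
  have hF := flow_xW hP hU hQ hW
  obtain ⟨-, -, -, p4, -, -⟩ := flow_path hF hs ht hU.lt
  have hle : ∀ d : G.Dart, h d.fst < h d.snd → xW Q W d ≤ ind Q d := by
    intro d hd
    by_cases h1 : 0 < xW Q W d
    · have h2 : fc σ d ∈ W := hA d ⟨hd, h1⟩
      unfold xW
      rw [ind_of_mem h2]
      rcases ind_cases W (fc σ d.symm) with h3 | h3 <;> rw [h3.2] <;> linarith
    · have := ind_nn Q d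
      linarith [not_lt.1 h1]
  have hy : Flow h s t 0 (fun d => ind Q d - xW Q W d) := by
    refine ⟨fun d hd => by linarith [hle d hd], fun v hvs hvt => ?_, ?_⟩
    · rw [outS_sub (x := fun d => ind Q d) (y := fun d => xW Q W d),
        inS_sub (x := fun d => ind Q d) (y := fun d => xW Q W d)]
      have h1 := hQ.bal v hvs hvt
      have h2 := hF.bal v hvs hvt
      change outS h (fun d => ind Q d) v = inS h (fun d => ind Q d) v at h1
      change outS h (fun d => xW Q W d) v = inS h (fun d => xW Q W d) v at h2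
      rw [h1, h2]
    · rw [outS_sub (x := fun d => ind Q d) (y := fun d => xW Q W d)]
      have h1 := hQ.src
      have h2 := hF.src
      change outS h (fun d => ind Q d) s = 1 at h1
      change outS h (fun d => xW Q W d) s = 1 at h2
      rw [h1, h2, sub_self]
  have hK1 : ∀ d : G.Dart, h d.fst < h d.snd → (fc σ d.symm ∈ W ↔ fc σ d ∈ W) := by
    intro d hd
    have h1 := flow_zero hy hs ht d hd
    refine ind_eq_iff ?_
    unfold xW at h1
    linarith
  have hK : ∀ d : G.Dart, (fc σ d.symm ∈ W ↔ fc σ d ∈ W) := by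
    intro d
    by_cases hd : h d.fst < h d.snd
    · exact hK1 d hd
    · have h1 := hK1 d.symm ((ndn_iff hU d).1 hd)
      rw [SimpleGraph.Dart.symm_symm] at h1
      exact h1.symm
  have hrot : ∀ d : G.Dart, fc σ d ∈ W → fc σ (σ d) ∈ W := fun d hd => by
    rw [fc_rot, hK]
    exact hd
  have hvert : ∀ d e : G.Dart, d.fst = e.fst → fc σ d ∈ W → fc σ e ∈ W := by
    intro d e hde hd
    by_contra he
    obtain ⟨c, -, h2, h3⟩ := cyc_change σ (fun d : G.Dart => fc σ d ∈ W) (hP.cyc d e hde) hd he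
    exact h3 (hrot c h2)
  have hwalk : ∀ u v : V, G.Reachable u v → (∀ d : G.Dart, d.fst = u → fc σ d ∈ W) →
      ∀ d : G.Dart, d.fst = v → fc σ d ∈ W := by
    intro u v ⟨p⟩
    induction p with
    | nil => exact fun h1 => h1
    | @cons a b c hadj _ ih =>
      intro h1
      refine ih fun d hd => ?_
      have h2 := h1 ⟨(a, b), hadj⟩ rfl
      have h3 := (hK _).2 h2
      exact hvert _ d hd.symm h3
  obtain ⟨d₁, hd₁, hd₁'⟩ := p4
  intro g
  obtain ⟨d, rfl⟩ := Quotient.exists_rep g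
  refine hwalk s d.fst (hconn.preconnected _ _) (fun e he => ?_) d rfl
  exact hvert d₁ e (hd₁'.trans he.symm) (hA d₁ hd₁)

/-- **the sweepable face** -/
theorem csweep [Finite V] [Fintype G.Dart] (hconn : G.Connected) (hP : PlaneMap G σ)
    (hU : UpDown G h s t) {Q : Set G.Dart} (hQ : Flow h s t 1 (ind Q)) {W : Set (Fc σ)}
    (hW : CState h Q W) (hg : ∃ g, g ∉ W) :
    ∃ f, f ∉ W ∧ ∀ d : G.Dart, h d.fst < h d.snd → fc σ d = f → d ∈ Q ∨ fc σ d.symm ∈ W := by
  classical
  have hfin : Finite G.Dart := Finite.of_fintype _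
  obtain ⟨c1, c2, c3, -⟩ := rowC1 V G σ h s t hP hU
  have hs := s_low hU
  have ht := t_high hU
  have hF := flow_xW hP hU hQ hW
  obtain ⟨p1, p2, p3, p4, p5, p6⟩ := flow_path hF hs ht hU.lt
  obtain ⟨q1, q2, q3, q4, q5, q6⟩ := flow_path hQ hs ht hU.lt
  have hdn := fun d : G.Dart => ndn_iff hU d
  -- an inactive front dart lies on `Q` and has swept faces on both sides
  have hinact : ∀ d ∈ CFront h Q W, fc σ d ∈ W → d ∈ Q ∧ fc σ d.symm ∈ W := by
    intro d hd h1
    have h2 := hd.2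
    unfold xW at h2
    rw [ind_of_mem h1] at h2
    rcases ind_cases Q d with h3 | h3 <;> rcases ind_cases W (fc σ d.symm) with h4 | h4 <;>
      rw [h3.2, h4.2] at h2
    · exact ⟨h3.1, h4.1⟩
    · exact absurd h2 (by norm_num)
    · exact absurd h2 (by norm_num)
    · exact absurd h2 (by norm_num)
  -- an up-dart outside the front and outside `Q` has equal sides
  have hside : ∀ d : G.Dart, h d.fst < h d.snd → d ∉ CFront h Q W → d ∉ Q →
      (fc σ d.symm ∈ W ↔ fc σ d ∈ W) := by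
    intro d hd h1 h2
    have h3 : ¬ 0 < xW Q W d := fun h3 => h1 ⟨hd, h3⟩
    have h4 := hF.nonneg d hd
    refine ind_eq_iff ?_
    unfold xW at h3 h4
    rw [ind_of_notMem h2] at h3 h4
    omega
  have hQF : ∀ d ∈ Q, h d.fst < h d.snd → d ∈ FrontF h (ind Q) := fun d hd hd' =>
    ⟨hd', by rw [ind_of_mem hd]; exact one_pos⟩
  -- step 1
  set A : Set G.Dart := {d | d ∈ CFront h Q W ∧ fc σ d ∉ W} with hAdef
  have hA : A.Nonempty := by
    by_contra hcon
    obtain ⟨g, hg⟩ := hg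
    refine hg (all_swept hconn hP hU hQ hW (fun d hd => ?_) g)
    by_contra h1
    exact hcon ⟨d, hd, h1⟩
  -- step 2
  set B : Set G.Dart := {d | d ∈ A ∧ ¬ h (faceNext σ d).fst < h (faceNext σ d).snd} with hBdef
  have hB : B.Nonempty := by
    obtain ⟨e, he, hmax⟩ := Set.exists_max_image A (fun d => h d.snd) (Set.toFinite _) hA
    refine ⟨e, he, fun hup => ?_⟩
    have hfst : (faceNext σ e).fst = e.snd := by
      show (σ e.symm).fst = e.snd
      rw [hP.fst]
      rfl
    have hvs : e.snd ≠ s := fun h1 => absurd (hs e.fst) (not_le.2 (h1 ▸ he.1.1))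
    have hvt : e.snd ≠ t := fun h1 => absurd (ht (faceNext σ e).snd)
      (not_le.2 (by rw [hfst, h1] at hup; exact hup))
    obtain ⟨δ, hδ, hδv⟩ := (p3 e.snd hvs hvt).2 ⟨e, he.1, rfl⟩
    have hδW : fc σ δ ∈ W := by
      by_contra h1
      have h2 := hmax δ ⟨hδ, h1⟩
      have h3 := hδ.1
      rw [hδv] at h3
      exact absurd h2 (not_le.2 h3)
    obtain ⟨hδQ, hδL⟩ := hinact δ hδ hδW
    have hsame : (σ⁻¹).SameCycle δ (faceNext σ e) := by
      rw [Equiv.Perm.sameCycle_inv]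
      exact hP.cyc _ _ (hδv.trans hfst.symm)
    obtain ⟨c, hc1, hc2, hc3⟩ := cyc_change σ⁻¹
      (fun d : G.Dart => h d.fst < h d.snd ∧ fc σ d ∈ W) hsame ⟨hδ.1, hδW⟩
      (fun h1 => he.2 (by have := h1.2; rwa [fc_next] at this))
    have hcv : c.fst = e.snd := by
      rw [fst_of_cycle hP (Equiv.Perm.sameCycle_inv.1 hc1), hδv]
    obtain ⟨b, rfl⟩ : ∃ b, σ b = c := ⟨σ⁻¹ c, by simp⟩
    rw [show σ⁻¹ (σ b) = b by simp] at hc3
    have hbv : b.fst = e.snd := by rw [← hcv, hP.fst]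
    by_cases hb : h b.fst < h b.snd
    · refine hc3 ⟨hb, ?_⟩
      have h1 := hc2.2
      rw [fc_rot] at h1
      by_cases hbδ : b = δ
      · rw [hbδ]; exact hδW
      · refine (hside b hb (fun h2 => hbδ ?_) (fun h2 => hbδ ?_)).1 h1
        · exact p1 b h2 δ hδ (hbv.trans hδv.symm)
        · exact q1 b (hQF b h2 hb) δ (hQF δ hδQ hδ.1) (hbv.trans hδv.symm)
    · have h1 : b = e.symm := by
        refine c2 b e.symm hbv ((hdn b).1 hb) hc2.1 he.1.1 ?_
        exact hup
      have h2 : fc σ (σ b) = fc σ e := by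
        rw [h1, fc_rot, SimpleGraph.Dart.symm_symm]
      exact he.2 (h2 ▸ hc2.2)
  -- step 3
  obtain ⟨e, he, hmin⟩ := Set.exists_min_image B (fun d => h d.snd) (Set.toFinite _) hB
  have hback : ∀ q : G.Dart, h q.fst < h q.snd → faceNext σ q ∈ CFront h Q W →
      fc σ q = fc σ e → h (faceNext σ q).snd ≤ h e.snd → q ∈ CFront h Q W ∧ h q.snd ≤ h e.snd := by
    intro q hq hd hqe hqle
    have hfst : (faceNext σ q).fst = q.snd := by
      show (σ q.symm).fst = q.snd
      rw [hP.fst]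
      rfl
    have hlt : h q.snd < h e.snd := by
      have := hd.1
      rw [hfst] at this
      exact this.trans_le hqle
    have hvs : q.snd ≠ s := fun h1 => absurd (hs q.fst) (not_le.2 (h1 ▸ hq))
    have hvt : q.snd ≠ t := fun h1 => absurd (ht e.snd) (not_le.2 (h1 ▸ hlt))
    obtain ⟨δ, hδ, hδv⟩ := (p3 q.snd hvs hvt).1 ⟨_, hd, hfst⟩
    have hqW : fc σ q ∉ W := hqe ▸ he.1.2
    have hδq : δ = q := by
      by_cases hδW : fc σ δ ∈ W
      · exfalso
        obtain ⟨hδQ, hδL⟩ := hinact δ hδ hδW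
        have hx : δ.symm.fst = q.symm.fst := hδv
        obtain ⟨c, hc1, hc2, hc3⟩ := cyc_change σ
          (fun d : G.Dart => ¬ h d.fst < h d.snd ∧ fc σ d.symm ∈ W) (hP.cyc _ _ hx)
          ⟨not_lt.2 hδ.1.le, by rw [SimpleGraph.Dart.symm_symm]; exact hδW⟩
          (fun h1 => hqW (by have := h1.2; rwa [SimpleGraph.Dart.symm_symm] at this))
        have hcv : c.fst = q.snd := by
          rw [fst_of_cycle hP hc1]
          exact hδv
        by_cases hup : h (σ c).fst < h (σ c).snd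
        · have h1 : c = q.symm := by
            refine c2 c q.symm hcv ((hdn c).1 hc2.1) hup hq ?_
            exact hd.1
          rw [h1, SimpleGraph.Dart.symm_symm] at hc2
          exact hqW hc2.2
        · refine hc3 ⟨hup, ?_⟩
          have h1 : fc σ (σ c) ∈ W := by rw [fc_rot]; exact hc2.2
          have h2 : h (σ c).symm.fst < h (σ c).symm.snd := (hdn _).1 hup
          have hcv' : (σ c).symm.snd = q.snd := by
            show (σ c).fst = q.snd
            rw [hP.fst, hcv]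
          by_cases hcδ : (σ c).symm = δ
          · rw [hcδ]; exact hδW
          · refine (hside _ h2 (fun h3 => hcδ ?_) (fun h3 => hcδ ?_)).1
              (by rw [SimpleGraph.Dart.symm_symm]; exact h1)
            · exact p2 _ h3 δ hδ (hcv'.trans hδv.symm)
            · exact q2 _ (hQF _ h3 h2) δ (hQF δ hδQ hδ.1) (hcv'.trans hδv.symm)
      · have hup : h (faceNext σ δ).fst < h (faceNext σ δ).snd := by
          by_contra h1
          have h2 := hmin δ ⟨⟨hδ, hδW⟩, h1⟩
          rw [hδv] at h2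
          exact absurd h2 (not_le.2 hlt)
        have h1 : δ.symm = q.symm := by
          refine c2 δ.symm q.symm hδv hδ.1 hup hq ?_
          exact hd.1
        exact SimpleGraph.Dart.symm_involutive.injective h1
    exact ⟨hδq ▸ hδ, hlt.le⟩
  -- step 4
  have hall : ∀ d : G.Dart, h d.fst < h d.snd → fc σ d = fc σ e →
      d ∈ CFront h Q W ∧ h d.snd ≤ h e.snd := by
    intro d hd hde
    by_contra hcon
    have hsame : (faceNext σ).SameCycle d e := Quotient.exact hde
    obtain ⟨c, hc1, ⟨hc2, hc2'⟩, hc3⟩ := cyc_change (faceNext σ)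
      (fun d : G.Dart => h d.fst < h d.snd ∧ ¬ (d ∈ CFront h Q W ∧ h d.snd ≤ h e.snd))
      hsame ⟨hd, hcon⟩ (fun h1 => h1.2 ⟨he.1.1, le_rfl⟩)
    have hce : fc σ c = fc σ e := (Quotient.sound hc1 : fc σ d = fc σ c).symm.trans hde
    by_cases hup : h (faceNext σ c).fst < h (faceNext σ c).snd
    · have h1 : faceNext σ c ∈ CFront h Q W ∧ h (faceNext σ c).snd ≤ h e.snd := by
        by_contra h1
        exact hc3 ⟨hup, h1⟩
      exact hc2' (hback c hc2 h1.1 hce h1.2)
    · have h1 : c = e := c3 c e (hc1.symm.trans hsame) hc2 ((hdn _).1 hup) he.1.1.1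
        ((hdn _).1 he.2)
      exact hc2' (by rw [h1]; exact ⟨he.1.1, le_rfl⟩)
  refine ⟨fc σ e, he.1.2, fun d hd hde => ?_⟩
  have h1 := (hall d hd hde).1.2
  unfold xW at h1
  rw [hde, ind_of_notMem he.1.2] at h1
  rcases ind_cases Q d with h3 | h3
  · exact Or.inl h3.1
  · rcases ind_cases W (fc σ d.symm) with h4 | h4
    · exact Or.inr h4.1
    · rw [h3.2, h4.2] at h1
      exact absurd h1 (by norm_num)

/-! ### The sequence of states -/

/-- `f` can be swept in the state `W` -/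
def CSwp (h : V → ℝ) (Q : Set G.Dart) (W : Set (Fc σ)) (f : Fc σ) : Prop :=
  f ∉ W ∧ ∀ d : G.Dart, h d.fst < h d.snd → fc σ d = f → d ∈ Q ∨ fc σ d.symm ∈ W

open Classical in
/-- the next state -/
noncomputable def cnxt (h : V → ℝ) (Q : Set G.Dart) (W : Set (Fc σ)) : Set (Fc σ) :=
  if hx : ∃ f, CSwp h Q W f then insert hx.choose W else W

/-- the states -/
noncomputable def CWs (h : V → ℝ) (Q : Set G.Dart) (k : ℕ) : Set (Fc σ) := (cnxt h Q)^[k] ∅

theorem CWs_succ {Q : Set G.Dart} (k : ℕ) :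
    CWs (σ := σ) h Q (k + 1) = cnxt h Q (CWs h Q k) :=
  Function.iterate_succ_apply' _ _ _

theorem sub_cnxt {Q : Set G.Dart} (W : Set (Fc σ)) : W ⊆ cnxt h Q W := by
  unfold cnxt
  split_ifs
  · exact Set.subset_insert _ _
  · exact subset_rfl

theorem CWs_mono {Q : Set G.Dart} : Monotone (CWs (σ := σ) h Q) :=
  monotone_nat_of_le_succ fun k => by rw [CWs_succ]; exact sub_cnxt _

theorem cstate_cnxt {Q : Set G.Dart} {W : Set (Fc σ)} (hW : CState h Q W) :
    CState h Q (cnxt h Q W) := by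
  unfold cnxt
  split_ifs with hx
  · obtain ⟨h2, h3⟩ := hx.choose_spec
    rintro d hd hdQ (h4 | h4)
    · rcases h3 d hd h4 with h5 | h5
      · exact absurd h5 hdQ
      · exact Set.mem_insert_of_mem _ h5
    · exact Set.mem_insert_of_mem _ (hW d hd hdQ h4)
  · exact hW

theorem cstate_CWs {Q : Set G.Dart} (k : ℕ) : CState (σ := σ) h Q (CWs h Q k) := by
  induction k with
  | zero => exact fun _ _ _ h1 => absurd h1 (fun h2 => h2)
  | succ k ih => rw [CWs_succ]; exact cstate_cnxt ih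

theorem cswp_of_cnxt {Q : Set G.Dart} {W : Set (Fc σ)} {f : Fc σ} (h1 : f ∉ W)
    (h2 : f ∈ cnxt h Q W) : CSwp h Q W f := by
  unfold cnxt at h2
  split_ifs at h2 with hx
  · rcases h2 with h2 | h2
    · rw [h2]; exact hx.choose_spec
    · exact absurd h2 h1
  · exact absurd h2 h1

theorem ncard_CWs [Finite (Fc σ)] {Q : Set G.Dart}
    (hsw : ∀ W, CState (σ := σ) h Q W → (∃ g, g ∉ W) → ∃ f, CSwp h Q W f) (k : ℕ) :
    (∀ g, g ∈ CWs (σ := σ) h Q k) ∨ k ≤ (CWs (σ := σ) h Q k).ncard := by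
  induction k with
  | zero => exact Or.inr (Nat.zero_le _)
  | succ k ih =>
    rcases ih with ih | ih
    · exact Or.inl fun g => CWs_mono (Nat.le_succ k) (ih g)
    · by_cases hc : ∃ g, g ∉ CWs (σ := σ) h Q k
      · right
        have hx := hsw _ (cstate_CWs k) hc
        rw [CWs_succ]
        unfold cnxt
        rw [dif_pos hx, Set.ncard_insert_of_notMem hx.choose_spec.1 (Set.toFinite _)]
        omega
      · left
        push Not at hc
        exact fun g => CWs_mono (Nat.le_succ k) (hc g)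

theorem CWs_all [Finite (Fc σ)] {Q : Set G.Dart}
    (hsw : ∀ W, CState (σ := σ) h Q W → (∃ g, g ∉ W) → ∃ f, CSwp h Q W f) {k : ℕ}
    (hk : Nat.card (Fc σ) ≤ k) : ∀ g, g ∈ CWs (σ := σ) h Q k := by
  rcases ncard_CWs hsw k with h1 | h1
  · exact h1
  · intro g
    by_contra hcon
    have h2 : (insert g (CWs (σ := σ) h Q k)).ncard = (CWs (σ := σ) h Q k).ncard + 1 :=
      Set.ncard_insert_of_notMem hcon (Set.toFinite _)
    have h3 : (insert g (CWs (σ := σ) h Q k)).ncard ≤ Nat.card (Fc σ) := by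
      rw [← Set.ncard_univ]
      exact Set.ncard_le_ncard (Set.subset_univ _) (Set.toFinite _)
    omega

theorem exists_cstage [Finite (Fc σ)] {Q : Set G.Dart}
    (hsw : ∀ W, CState (σ := σ) h Q W → (∃ g, g ∉ W) → ∃ f, CSwp h Q W f) {k : ℕ}
    (hk : Nat.card (Fc σ) ≤ k) (f : Fc σ) : ∃ i ≤ k, CSwp h Q (CWs h Q i) f := by
  classical
  have hex : ∃ j, f ∈ CWs (σ := σ) h Q j := ⟨k, CWs_all hsw hk f⟩
  obtain ⟨i, hi⟩ : ∃ i, Nat.find hex = i + 1 := by
    refine Nat.exists_eq_succ_of_ne_zero fun h0 => ?_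
    have := Nat.find_spec hex
    rw [h0] at this
    exact this
  have h1 : f ∉ CWs (σ := σ) h Q i := Nat.find_min hex (by omega)
  have h2 : f ∈ CWs (σ := σ) h Q (i + 1) := by rw [← hi]; exact Nat.find_spec hex
  have h3 : Nat.find hex ≤ k := Nat.find_min' hex (CWs_all hsw hk f)
  exact ⟨i, by omega, cswp_of_cnxt h1 (by rwa [← CWs_succ])⟩

end csweep

/-- the number of faces -/
theorem card_fc_le' {V : Type} [Finite V] {G : SimpleGraph V} {σ : Equiv.Perm G.Dart}
    (hP : PlaneMap G σ) {s t : V} (hst : s ≠ t) : Nat.card (Fc σ) ≤ Nat.card V ^ 2 := by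
  classical
  have := Fintype.ofFinite V
  have h1 := hP.euler
  have h2 : Nat.card G.edgeSet ≤ (Fintype.card V).choose 2 := by
    have := G.card_edgeFinset_le_card_choose_two
    rwa [Nat.card_eq_fintype_card, ← SimpleGraph.edgeFinset_card]
  have h3 : (Fintype.card V).choose 2 ≤ Fintype.card V ^ 2 := Nat.choose_le_pow _ _
  have h0 : Nat.card V = Fintype.card V := Nat.card_eq_fintype_card
  rw [h0] at h1 ⊢
  have h4 : 1 < Fintype.card V := Fintype.one_lt_card_iff.2 ⟨s, t, hst⟩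
  have h5 : Nat.card (Fc σ) = Nat.card (Quotient (Equiv.Perm.SameCycle.setoid (faceNext σ))) := rfl
  omega

/-- **Cyclic sweep**: every plane map without local extrema besides `s` and `t` has a cyclic
sweep with `|V|²` steps. -/
theorem rowCyc : RowCyc := by
  classical
  intro V _ G σ h s t hconn hmap hU
  have := Fintype.ofFinite V
  have hDfin : Finite G.Dart := Finite.of_fintype _
  have := Fintype.ofFinite G.Dart
  have hFfin : Finite (Fc σ) := Quotient.finite _
  have hs := s_low hU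
  have ht := t_high hU
  obtain ⟨Q, hQ⟩ := exists_path (s := s) hU.high (s_ne_t hU)
  set N := Nat.card V ^ 2 with hN
  have hcard : Nat.card (Fc σ) ≤ N := card_fc_le' hmap (s_ne_t hU)
  have hsw : ∀ W, CState (σ := σ) h Q W → (∃ g, g ∉ W) → ∃ f, CSwp h Q W f :=
    fun W hW hg => csweep hconn hmap hU hQ hW hg
  have hst : ∀ i, CState (σ := σ) h Q (CWs h Q i) := fun i => cstate_CWs i
  have hfl : ∀ i, Flow h s t 1 (xW Q (CWs (σ := σ) h Q i)) := fun i => flow_xW hmap hU hQ (hst i)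
  have hpath := fun i => flow_path (hfl i) hs ht hU.lt
  set D : ℕ → Set G.Dart := fun i => CFront h Q (CWs (σ := σ) h Q i) with hD
  have hup : ∀ i, ∀ d ∈ D i, h d.fst < h d.snd := fun i d hd => hd.1
  have h1 : ∀ i, ∀ d ∈ D i, ∀ e ∈ D i, d.fst = e.fst → d = e := fun i => (hpath i).1
  have h3 : ∀ i, ∀ v, v ≠ s → v ≠ t → ((∃ d ∈ D i, d.fst = v) ↔ ∃ d ∈ D i, d.snd = v) :=
    fun i => (hpath i).2.2.1
  have h4 : ∀ i, ∃ d ∈ D i, d.fst = s := fun i => (hpath i).2.2.2.1
  have h5 : ∀ i, ∃ d ∈ D i, d.snd = t := fun i => (hpath i).2.2.2.2.1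
  have hx0 : ∀ d, xW Q (CWs (σ := σ) h Q 0) d = ind Q d := by
    intro d
    unfold xW
    have h6 : CWs (σ := σ) h Q 0 = ∅ := rfl
    rw [h6, ind_of_notMem (A := (∅ : Set (Fc σ))) (fun h => h),
      ind_of_notMem (A := (∅ : Set (Fc σ))) (fun h => h)]
    ring
  have hxN : ∀ d, xW Q (CWs (σ := σ) h Q N) d = ind Q d := by
    intro d
    unfold xW
    rw [ind_of_mem (CWs_all hsw hcard _), ind_of_mem (CWs_all hsw hcard _)]
    ring
  have hDN : D N = D 0 := by
    ext d
    show (h d.fst < h d.snd ∧ 0 < xW Q (CWs (σ := σ) h Q N) d) ↔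
      (h d.fst < h d.snd ∧ 0 < xW Q (CWs (σ := σ) h Q 0) d)
    rw [hxN, hx0]
  -- every up-dart is on some front
  have hcov : ∀ d : G.Dart, h d.fst < h d.snd → ∃ i ≤ N, d ∈ D i := by
    intro d hd
    by_cases hdQ : d ∈ Q
    · refine ⟨0, Nat.zero_le _, hd, ?_⟩
      rw [hx0, ind_of_mem hdQ]
      exact one_pos
    · obtain ⟨i, hi, h7, h8⟩ := exists_cstage hsw hcard (fc σ d)
      refine ⟨i, hi, hd, ?_⟩
      unfold xW
      rcases h8 d hd rfl with h9 | h9
      · exact absurd h9 hdQ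
      · rw [ind_of_mem h9, ind_of_notMem h7, ind_of_notMem hdQ]
        norm_num
  have hsP : ∀ i, s ∈ FV (D i) := fun i => by
    obtain ⟨d, hd, h7⟩ := h4 i
    exact ⟨d, hd, Or.inl h7⟩
  have htP : ∀ i, t ∈ FV (D i) := fun i => by
    obtain ⟨d, hd, h7⟩ := h5 i
    exact ⟨d, hd, Or.inr h7⟩
  -- the vertices of the front
  have hmem : ∀ v, v ≠ s → v ≠ t → ∃ l r : Fc σ, ∀ i, (v ∈ FV (D i) ↔
      0 < (ind (CWs (σ := σ) h Q i) l - ind (CWs (σ := σ) h Q i) r) + outS h (ind Q) v) ∧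
      (ind (CWs (σ := σ) h Q i) l - ind (CWs (σ := σ) h Q i) r) + outS h (ind Q) v ≤ 1 ∧
      0 ≤ (ind (CWs (σ := σ) h Q i) l - ind (CWs (σ := σ) h Q i) r) + outS h (ind Q) v := by
    intro v hvs hvt
    obtain ⟨l, r, hlr⟩ := telescope hmap hU hvs hvt
    refine ⟨l, r, fun i => ?_⟩
    have h6 : outS h (xW Q (CWs (σ := σ) h Q i)) v =
        (ind (CWs (σ := σ) h Q i) l - ind (CWs (σ := σ) h Q i) r) + outS h (ind Q) v := by
      rw [← hlr (ind (CWs (σ := σ) h Q i))]
      exact outS_add (x := fun d => ind (CWs (σ := σ) h Q i) (fc σ d.symm) -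
        ind (CWs (σ := σ) h Q i) (fc σ d)) (y := ind Q) v
    have h7 : v ∈ FV (D i) ↔ ∃ d ∈ D i, d.fst = v := by
      constructor
      · rintro ⟨d, hd, h8 | h8⟩
        · exact ⟨d, hd, h8⟩
        · exact (h3 i v hvs hvt).2 ⟨d, hd, h8⟩
      · rintro ⟨d, hd, h8⟩
        exact ⟨d, hd, Or.inl h8⟩
    have hlt : h v < h t := by
      obtain ⟨u, -, hu⟩ := hU.high v hvt
      exact hu.trans_le (ht u)
    rw [← h6]
    refine ⟨?_, flow_out_le (hfl i) hs hlt, ?_⟩
    · rw [h7]
      constructor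
      · rintro ⟨d, hd, rfl⟩
        exact lt_of_lt_of_le hd.2 (le_outS (hfl i).nonneg hd.1)
      · intro h8
        obtain ⟨d, hd1, hd2, hd3⟩ := exists_of_outS_pos h8
        exact ⟨d, ⟨hd1, hd2⟩, hd3⟩
    · unfold outS
      refine Finset.sum_nonneg fun d _ => ?_
      split_ifs with h8
      · exact (hfl i).nonneg d h8.2
      · exact le_rfl
  refine ⟨fun i => FV (D i), ?_, ?_, ?_, ?_, ?_, ?_, ?_, ?_, ?_⟩
  · -- every
    intro v
    by_cases hvt : v = t
    · exact ⟨0, Nat.zero_le _, hvt ▸ htP 0⟩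
    · obtain ⟨u, hu, hlt⟩ := hU.high v hvt
      obtain ⟨i, hi, h7⟩ := hcov ⟨(v, u), hu⟩ hlt
      exact ⟨i, hi, _, h7, Or.inl rfl⟩
  · -- cover
    intro u v huv hlt
    obtain ⟨i, hi, h7⟩ := hcov ⟨(u, v), huv⟩ hlt
    refine ⟨i, hi, ⟨_, h7, Or.inl rfl⟩, ⟨_, h7, Or.inr rfl⟩, fun w hw hcon => ?_⟩
    have h8 := fstep_of_le (hup i) (h1 i) (h3 i) (h5 i) (u := u) (v := w)
      ⟨_, h7, Or.inl rfl⟩ hw hcon.1.le
    rcases Relation.ReflTransGen.cases_head h8 with h9 | ⟨x, ⟨e, he, h10, h11⟩, h12⟩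
    · rw [h9] at hcon; exact lt_irrefl _ hcon.1
    · have h13 := h1 i e he _ h7 h10
      rw [h13] at h11
      have h14 : v = x := h11
      rw [← h14] at h12
      rcases fstep_mono (hup i) h12 with h15 | h15
      · rw [h15] at hcon; exact lt_irrefl _ hcon.2
      · exact lt_asymm h15 hcon.2
  · -- inj
    intro i _ u hu v hv huv
    have h8 := fstep_of_le (hup i) (h1 i) (h3 i) (h5 i) hu hv huv.le
    rcases fstep_mono (hup i) h8 with h9 | h9
    · exact h9
    · exact absurd huv h9.ne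
  · -- conn
    intro i _ u hu v hv huv hno
    have h8 := fstep_of_le (hup i) (h1 i) (h3 i) (h5 i) hu hv huv.le
    rcases Relation.ReflTransGen.cases_head h8 with h9 | ⟨x, ⟨e, he, h10, h11⟩, h12⟩
    · rw [h9] at huv; exact absurd huv (lt_irrefl _)
    · rcases fstep_mono (hup i) h12 with h15 | h15
      · rw [← h10, ← h15, ← h11]; exact e.adj
      · refine absurd ⟨?_, h15⟩ (hno x ⟨e, he, Or.inr h11⟩)
        rw [← h10, ← h11]; exact hup i e he
  · exact ⟨s, fun i _ => hsP i, hs⟩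
  · exact ⟨t, fun i _ => htP i, ht⟩
  · show FV (D N) = FV (D 0)
    rw [hDN]
  · -- conv_out
    intro v hv0 i j k hij hjk _ hvi hvk
    have hvs : v ≠ s := fun h6 => hv0 (h6 ▸ hsP 0)
    have hvt : v ≠ t := fun h6 => hv0 (h6 ▸ htP 0)
    obtain ⟨l, r, hlr⟩ := hmem v hvs hvt
    have e0 : ∀ f : Fc σ, ind (CWs (σ := σ) h Q 0) f = 0 := fun f => ind_of_notMem (fun h => h)
    have hc : outS h (ind Q) v = 0 := by
      have h6 := hlr 0
      rw [e0, e0, sub_self, zero_add] at h6
      have h7 : ¬ 0 < outS h (ind Q) v := fun h7 => hv0 (h6.1.2 h7)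
      have h8 := h6.2.2
      omega
    have hi := (hlr i).1.1 hvi
    have hk := (hlr k).1.1 hvk
    refine (hlr j).1.2 ?_
    rw [hc, add_zero] at hi hk ⊢
    have m1 : l ∈ CWs (σ := σ) h Q i := by
      by_contra h6
      rw [ind_of_notMem h6] at hi
      have := ind_nn (CWs (σ := σ) h Q i) r
      omega
    have m2 : r ∉ CWs (σ := σ) h Q k := by
      intro h6
      rw [ind_of_mem h6] at hk
      rcases ind_cases (CWs (σ := σ) h Q k) l with h7 | h7 <;> rw [h7.2] at hk <;> omega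
    rw [ind_of_mem (CWs_mono hij m1), ind_of_notMem (fun h6 => m2 (CWs_mono hjk h6))]
    norm_num
  · -- conv_in
    intro v hv0 i j k hij hjk _ hvi hvk hvj
    have hvs : v ≠ s := fun h6 => hvi (h6 ▸ hsP i)
    have hvt : v ≠ t := fun h6 => hvi (h6 ▸ htP i)
    obtain ⟨l, r, hlr⟩ := hmem v hvs hvt
    have e0 : ∀ f : Fc σ, ind (CWs (σ := σ) h Q 0) f = 0 := fun f => ind_of_notMem (fun h => h)
    have hc : outS h (ind Q) v = 1 := by
      have h6 := hlr 0
      rw [e0, e0, sub_self, zero_add] at h6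
      have h7 := h6.1.1 hv0
      have h8 := h6.2.1
      omega
    have hi : ¬ _ := fun h6 => hvi ((hlr i).1.2 h6)
    have hk : ¬ _ := fun h6 => hvk ((hlr k).1.2 h6)
    have hj := (hlr j).1.1 hvj
    rw [hc] at hi hk hj
    have m1 : r ∈ CWs (σ := σ) h Q i := by
      by_contra h6
      rw [ind_of_notMem h6] at hi
      have := ind_nn (CWs (σ := σ) h Q i) l
      omega
    have m2 : l ∉ CWs (σ := σ) h Q k := by
      intro h6
      rw [ind_of_mem h6] at hk
      rcases ind_cases (CWs (σ := σ) h Q k) r with h7 | h7 <;> rw [h7.2] at hk <;> omega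
    rw [ind_of_mem (CWs_mono hij m1), ind_of_notMem (fun h6 => m2 (CWs_mono hjk h6))] at hj
    norm_num at hj

end Vale.Agent.P235.Red
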