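/-
P235-M, row W3 (helper934): one local minimum, all local maxima on one face.  The metric side of
the insertion of one vertex in this face.
-/
import Vale.Agent.P235.R2.RED.Final2
import Vale.Agent.P235.R2.H341.CapDefs

namespace Vale.Agent.P235.Red.W3

open Vale.Agent.P235 Vale.Agent.P235.Red Vale.Agent.P235.H341W

variable {V : Type} {G : SimpleGraph V}

/-- the height of the new vertex is `H` -/
def capH (h : V → ℝ) (H : ℝ) : Option V → ℝ
  | none => H
  | some v => h v

/-- lengths: the old ones, and differences of the heights at the new vertex -/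
noncomputable def capL (ℓ : Sym2 V → ℝ) (h : V → ℝ) (H : ℝ) : Sym2 (Option V) → ℝ :=
  Sym2.lift ⟨fun a b => match a, b with
    | some u, some v => ℓ s(u, v)
    | none, some v => |H - h v|
    | some u, none => |H - h u|
    | none, none => 0, by
      rintro (_ | a) (_ | b)
      · rfl
      · rfl
      · rfl
      · simp only [Sym2.eq_swap]⟩

@[simp] theorem capL_some (ℓ : Sym2 V → ℝ) (h : V → ℝ) (H : ℝ) (u v : V) :
    capL ℓ h H s(some u, some v) = ℓ s(u, v) := rfl

@[simp] theorem capL_ns (ℓ : Sym2 V → ℝ) (h : V → ℝ) (H : ℝ) (v : V) :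
    capL ℓ h H s(none, some v) = |H - h v| := rfl

@[simp] theorem capL_sn (ℓ : Sym2 V → ℝ) (h : V → ℝ) (H : ℝ) (v : V) :
    capL ℓ h H s(some v, none) = |H - h v| := rfl

theorem cap_connected {T : Set V} (hc : G.Connected) (hT : T.Nonempty) :
    (capG G T).Connected := by
  have hs : ∀ u v : V, G.Walk u v → (capG G T).Reachable (some u) (some v) := by
    intro u v w
    induction w with
    | nil => exact SimpleGraph.Reachable.refl _
    | @cons a b c hab _ ih =>
      have h1 : (capG G T).Adj (some a) (some b) := hab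
      exact h1.reachable.trans ih
  obtain ⟨x, hx⟩ := hT
  have hn : ∀ v : V, (capG G T).Reachable none (some v) := by
    intro v
    obtain ⟨w⟩ := hc x v
    have h1 : (capG G T).Adj none (some x) := hx
    exact h1.reachable.trans (hs x v w)
  refine ⟨?_⟩
  rintro (_ | u) (_ | v)
  · exact SimpleGraph.Reachable.refl _
  · exact hn v
  · exact (hn u).symm
  · obtain ⟨w⟩ := hc u v
    exact hs u v w

/-- the distances between the old vertices do not change -/
theorem cap_dist {T : Set V} {ℓ : Sym2 V → ℝ} {h : V → ℝ} {H M : ℝ} (hc : G.Connected)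
    (hℓ : ∀ e ∈ G.edgeSet, 0 < ℓ e) (hT : T.Nonempty) (hM : ∀ x y, pathDist G ℓ x y ≤ M)
    (hH : ∀ v, M < H - h v) (x y : V) :
    pathDist (capG G T) (capL ℓ h H) (some x) (some y) = pathDist G ℓ x y := by
  have hM0 : 0 ≤ M := (pd_nonneg hℓ x x).trans (hM x x)
  have hℓ' : ∀ e ∈ (capG G T).edgeSet, 0 < capL ℓ h H e := by
    intro e he
    induction e with
    | _ a b =>
      rcases a with _ | a <;> rcases b with _ | b
      · exact absurd he (by simp [capG])
      · rw [capL_ns]; exact abs_pos.2 (by linarith [hH b])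
      · rw [capL_sn]; exact abs_pos.2 (by linarith [hH a])
      · rw [capL_some]; exact hℓ _ he
  have hc' := cap_connected (T := T) hc hT
  apply le_antisymm
  · have h1 : Nonempty (G.Walk x y) := hc x y
    refine le_ciInf fun w => ?_
    have key : ∀ {a b : V} (w : G.Walk a b),
        pathDist (capG G T) (capL ℓ h H) (some a) (some b) ≤ (w.edges.map ℓ).sum := by
      intro a b w
      induction w with
      | nil => rw [pd_self hℓ']; simp
      | @cons a b c hab p ih =>
        have h2 : (capG G T).Adj (some a) (some b) := hab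
        have h3 := pd_tri hc' hℓ' (some a) (some b) (some c)
        have h4 := pd_adj hℓ' h2
        rw [capL_some] at h4
        simp only [SimpleGraph.Walk.edges_cons, List.map_cons, List.sum_cons]
        linarith
    exact key w
  · let F : Option V → ℝ := fun o => match o with
      | none => 0
      | some v => pathDist G ℓ x v
    have h1 : |F (some x) - F (some y)| ≤
        1 * pathDist (capG G T) (capL ℓ h H) (some x) (some y) := by
      refine pd_semi (ρ := fun a b => |F a - F b|) hc' one_pos (fun a => by simp)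
        (fun a b c => abs_sub_le _ _ _) ?_ (some x) (some y)
      intro a b hab
      rw [one_mul]
      rcases a with _ | a <;> rcases b with _ | b
      · exact absurd hab (fun h => h)
      · show |(0 : ℝ) - pathDist G ℓ x b| ≤ capL ℓ h H s(none, some b)
        rw [capL_ns, zero_sub, abs_neg, abs_of_nonneg (pd_nonneg hℓ x b)]
        exact (hM x b).trans ((hH b).le.trans (le_abs_self _))
      · show |pathDist G ℓ x a - (0 : ℝ)| ≤ capL ℓ h H s(some a, none)
        rw [capL_sn, sub_zero, abs_of_nonneg (pd_nonneg hℓ x a)]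
        exact (hM x a).trans ((hH a).le.trans (le_abs_self _))
      · show |pathDist G ℓ x a - pathDist G ℓ x b| ≤ capL ℓ h H s(some a, some b)
        have hab' : G.Adj a b := hab
        rw [capL_some, abs_le]
        have h2 := pd_tri hc hℓ x a b
        have h3 := pd_tri hc hℓ x b a
        have h4 := pd_adj hℓ hab'
        have h5 := pd_adj hℓ hab'.symm
        rw [Sym2.eq_swap] at h5
        constructor <;> linarith
    have h2 : F (some x) = 0 := pd_self hℓ x
    have h3 : F (some y) = pathDist G ℓ x y := rfl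
    rw [h2, h3, zero_sub, abs_neg, abs_of_nonneg (pd_nonneg hℓ x y), one_mul] at h1
    exact h1

theorem ll_succ_le {n : ℕ} (hn : 2 ≤ n) : ll (n + 1) ≤ ll n + 1 := by
  refine le_trans ?_ (ll_sq n)
  unfold ll
  refine Nat.log_mono_right (Nat.add_le_add_right (Nat.log_mono_right ?_) 1)
  nlinarith

/-- **W3 with slopes.**  A plane graph with a height of slopes in `[1/D, 1]`, one local minimum,
and no local maximum outside the boundary of one face. -/
theorem plane_slope_face {C : ℝ} (hC : 1 ≤ C) (hM : MStarLL C) (hCap : RowCap) (V : Type)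
    [Finite V] (G : SimpleGraph V) (σ : Equiv.Perm G.Dart) (d₀ : G.Dart) (ℓ : Sym2 V → ℝ)
    (h : V → ℝ) (s : V) (D : ℝ) (hc : G.Connected) (hP : PlaneMap G σ)
    (hℓ : ∀ e ∈ G.edgeSet, 0 < ℓ e)
    (h1 : ∀ u v, G.Adj u v → |h u - h v| ≤ ℓ s(u, v))
    (h2 : ∀ u v, G.Adj u v → ℓ s(u, v) ≤ D * |h u - h v|)
    (hlow : ∀ v, v ≠ s → ∃ u, G.Adj v u ∧ h u < h v)
    (hhigh : ∀ v, v ∉ onFace σ d₀ → ∃ u, G.Adj v u ∧ h v < h u) :
    EmbedsL1 (pathDist G ℓ) (219073 * 32 * C * D * ((ll (Nat.card V) : ℝ) + 2)) := by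
  classical
  have hne0 : Nonempty V := hc.nonempty
  set T : Set V := {v | ∀ u, G.Adj v u → ¬ h v < h u} with hTdef
  have hT : T.Nonempty := by
    obtain ⟨m, hm⟩ := Finite.exists_max h
    exact ⟨m, fun u _ => not_lt.2 (hm u)⟩
  have hTf : T ⊆ onFace σ d₀ := by
    intro v hv
    by_contra hcon
    obtain ⟨u, hu, hlt⟩ := hhigh v hcon
    exact hv u hu hlt
  obtain ⟨σ', hP'⟩ := hCap V G σ d₀ T hc hP hT hTf
  obtain ⟨M, hMd⟩ : ∃ M, ∀ x y, pathDist G ℓ x y ≤ M := by
    obtain ⟨p, hp⟩ := Finite.exists_max fun p : V × V => pathDist G ℓ p.1 p.2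
    exact ⟨_, fun x y => hp (x, y)⟩
  obtain ⟨m, hm⟩ := Finite.exists_max h
  set H : ℝ := h m + M + 1 with hHdef
  have hH : ∀ v, M < H - h v := fun v => by linarith [hm v]
  have hM0 : 0 ≤ M := (pd_nonneg hℓ m m).trans (hMd m m)
  obtain ⟨a, b, hab⟩ := planeMap_adj hc hP
  have hne : ∀ u v, G.Adj u v → h u ≠ h v := by
    intro u v ha he
    have h3 := h2 u v ha
    have h4 := hℓ _ ((G.mem_edgeSet).2 ha)
    rw [he, sub_self, abs_zero, mul_zero] at h3
    linarith
  have hD : 1 ≤ D := by
    by_contra hD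
    push Not at hD
    have h3 := h2 a b hab
    have h4 := h1 a b hab
    have h5 : 0 < |h a - h b| := abs_pos.2 (sub_ne_zero.2 (hne a b hab))
    nlinarith
  have hℓ' : ∀ e ∈ (capG G T).edgeSet, 0 < capL ℓ h H e := by
    intro e he
    induction e with
    | _ a b =>
      rcases a with _ | a <;> rcases b with _ | b
      · exact absurd he (by simp [capG])
      · rw [capL_ns]; exact abs_pos.2 (by linarith [hH b])
      · rw [capL_sn]; exact abs_pos.2 (by linarith [hH a])
      · rw [capL_some]; exact hℓ _ he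
  have hcard : 2 ≤ Nat.card V := by
    have := Fintype.ofFinite V
    rw [Nat.card_eq_fintype_card]
    exact Fintype.one_lt_card_iff.2 ⟨a, b, hab.ne⟩
  have hE := plane_slope_any hC hM (Option V) (capG G T) σ' (capL ℓ h H) (capH h H) (some s) none D
    (cap_connected hc hT) hP' hℓ' ?_ ?_ ?_ ?_
  · obtain ⟨Ω, mΩ, μ, g, hg⟩ := hE
    refine ⟨Ω, mΩ, μ, fun x => g (some x), fun x y => ?_⟩
    have h3 := hg (some x) (some y)
    rw [cap_dist hc hℓ hT hMd hH x y] at h3
    refine ⟨h3.1, h3.2.trans ?_⟩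
    refine mul_le_mul_of_nonneg_right ?_ (pd_nonneg hℓ x y)
    have h4 : Nat.card (Option V) = Nat.card V + 1 := by
      have := Fintype.ofFinite V
      simp [Nat.card_eq_fintype_card]
    have h5 : (ll (Nat.card (Option V)) : ℝ) ≤ (ll (Nat.card V) : ℝ) + 1 := by
      rw [h4]; exact_mod_cast ll_succ_le hcard
    have h6 : (0 : ℝ) ≤ 219073 * 32 * C * D := by positivity
    have := mul_le_mul_of_nonneg_left (add_le_add_left h5 1) h6
    refine le_trans (mul_le_mul_of_nonneg_left ?_ h6) le_rfl
    linarith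
  · rintro (_ | u) (_ | v) ha
    · exact absurd ha (fun h => h)
    · exact le_of_eq rfl
    · show |h u - H| ≤ |H - h u|
      rw [abs_sub_comm]
    · exact h1 u v ha
  · rintro (_ | u) (_ | v) ha
    · exact absurd ha (fun h => h)
    · show |H - h v| ≤ D * |H - h v|
      exact le_mul_of_one_le_left (abs_nonneg _) hD
    · show |H - h u| ≤ D * |h u - H|
      rw [abs_sub_comm (h u) H]
      exact le_mul_of_one_le_left (abs_nonneg _) hD
    · exact h2 u v ha
  · rintro (_ | v) hv
    · obtain ⟨x, hx⟩ := hT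
      exact ⟨some x, hx, show h x < H by linarith [hH x]⟩
    · obtain ⟨u, hu, hlt⟩ := hlow v (fun h3 => hv (by rw [h3]))
      exact ⟨some u, hu, hlt⟩
  · rintro (_ | v) hv
    · exact absurd rfl hv
    · by_cases hvT : v ∈ T
      · exact ⟨none, hvT, show h v < H by linarith [hH v]⟩
      · have h3 : ∃ u, G.Adj v u ∧ h v < h u := by
          by_contra hcon
          push Not at hcon
          exact hvT fun u hu => not_lt.2 (hcon u hu)
        obtain ⟨u, hu, hlt⟩ := h3
        exact ⟨some u, hu, hlt⟩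

/-- **W3, tight form.**  Every edge lies on a shortest path from `r` to a vertex of one face. -/
theorem plane_tight_face {C : ℝ} (hC : 1 ≤ C) (hM : MStarLL C) (hCap : RowCap) (V : Type)
    [Finite V] (G : SimpleGraph V) (σ : Equiv.Perm G.Dart) (d₀ : G.Dart) (ℓ : Sym2 V → ℝ)
    (r : V) (hc : G.Connected) (hP : PlaneMap G σ) (hℓ : ∀ e ∈ G.edgeSet, 0 < ℓ e)
    (htight : ∀ u v, G.Adj u v → ∃ w ∈ onFace σ d₀,
      pathDist G ℓ r u + ℓ s(u, v) + pathDist G ℓ v w = pathDist G ℓ r w ∨
      pathDist G ℓ r v + ℓ s(u, v) + pathDist G ℓ u w = pathDist G ℓ r w) :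
    EmbedsL1 (pathDist G ℓ) (219073 * 32 * C * ((ll (Nat.card V) : ℝ) + 2)) := by
  have pos : ∀ u v, G.Adj u v → 0 < ℓ s(u, v) := fun u v ha => hℓ _ (G.mem_edgeSet.2 ha)
  have tri := pd_tri hc hℓ
  have key : ∀ u v w, G.Adj u v →
      pathDist G ℓ r u + ℓ s(u, v) + pathDist G ℓ v w = pathDist G ℓ r w →
      pathDist G ℓ r v = pathDist G ℓ r u + ℓ s(u, v) := by
    intro u v w ha hw
    have h1 := tri r u v
    have h2 := tri r v w
    have h3 := pd_adj hℓ ha
    linarith
  have hl : ∀ u v, G.Adj u v → ℓ s(u, v) = |pathDist G ℓ r u - pathDist G ℓ r v| := by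
    intro u v ha
    obtain ⟨w, -, hw | hw⟩ := htight u v ha
    · have h1 := key u v w ha hw
      rw [h1, show pathDist G ℓ r u - (pathDist G ℓ r u + ℓ s(u, v)) = - ℓ s(u, v) by ring, abs_neg,
        abs_of_pos (pos u v ha)]
    · have h1 := key v u w ha.symm (by rw [Sym2.eq_swap]; exact hw)
      rw [Sym2.eq_swap] at h1
      rw [h1, show pathDist G ℓ r v + ℓ s(u, v) - pathDist G ℓ r v = ℓ s(u, v) by ring,
        abs_of_pos (pos u v ha)]
  obtain ⟨a, b, hab⟩ := planeMap_adj hc hP
  have hnb : ∀ v, ∃ u, G.Adj v u := by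
    intro v
    have : ∃ u, u ≠ v := by
      by_cases h : a = v
      · exact ⟨b, fun h' => hab.ne (h.trans h'.symm)⟩
      · exact ⟨a, h⟩
    obtain ⟨u, hu⟩ := this
    obtain ⟨w⟩ := hc v u
    cases w with
    | nil => exact absurd rfl hu
    | cons h p => exact ⟨_, h⟩
  have hmain := plane_slope_face hC hM hCap V G σ d₀ ℓ (pathDist G ℓ r) r 1 hc hP hℓ
    (fun u v ha => (hl u v ha).ge) (fun u v ha => by rw [one_mul]; exact (hl u v ha).le) ?_ ?_
  · rwa [mul_one] at hmain
  · intro v hv
    obtain ⟨u, hu, hlt⟩ := F0.exists_closer hc hℓ hv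
    exact ⟨u, hu, by rwa [pd_comm hc hℓ r u, pd_comm hc hℓ r v]⟩
  · intro v hv
    obtain ⟨x, hx⟩ := hnb v
    obtain ⟨w, hw, h1 | h1⟩ := htight v x hx
    · have h2 := key v x w hx h1
      exact ⟨x, hx, by linarith [pos v x hx]⟩
    · have h2 := key x v w hx.symm (by rw [Sym2.eq_swap]; exact h1)
      rw [Sym2.eq_swap] at h2
      have hvw : v ≠ w := fun h3 => hv (h3 ▸ hw)
      obtain ⟨u, hu, hlt⟩ := F0.exists_closer hc hℓ hvw
      refine ⟨u, hu, ?_⟩
      have h3 := tri r u w
      linarith

end Vale.Agent.P235.Red.W3
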