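/-
P235-M, row W3, wide form (helper934): plane graphs with a nonexpansive function `h`; the vertices
without steep edge downwards lie on one face (or are one vertex), the same upwards.
-/
import Vale.Agent.P235.R2.H611.W1Any
import Vale.Agent.P235.R2.H582.Cap2
import Vale.Agent.P235.R2.H934.Cap

namespace Vale.Agent.P235.Red.W3

open Vale.Agent.P235 Vale.Agent.P235.Red Vale.Agent.P235.H341W Vale.Agent.P235.Tight

/-- `h` is nonexpansive on the edges; every vertex outside `B₁` has a steep edge downwards, every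
vertex outside `B₂` a steep edge upwards -/
structure Wide {V : Type} (G : SimpleGraph V) (ℓ : Sym2 V → ℝ) (h : V → ℝ) (D : ℝ)
    (B₁ B₂ : Set V) : Prop where
  conn : G.Connected
  pos : ∀ e ∈ G.edgeSet, 0 < ℓ e
  lip : ∀ u v, G.Adj u v → |h u - h v| ≤ ℓ s(u, v)
  low : ∀ v, v ∉ B₁ → ∃ u, G.Adj v u ∧ ℓ s(v, u) ≤ D * (h v - h u)
  high : ∀ v, v ∉ B₂ → ∃ u, G.Adj v u ∧ ℓ s(v, u) ≤ D * (h u - h v)

variable {V : Type} {G : SimpleGraph V} {ℓ : Sym2 V → ℝ} {h : V → ℝ} {D : ℝ} {B₁ B₂ : Set V}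

theorem Wide.neg (hW : Wide G ℓ h D B₁ B₂) : Wide G ℓ (fun v => - h v) D B₂ B₁ where
  conn := hW.conn
  pos := hW.pos
  lip := fun u v ha => by
    have h1 := hW.lip u v ha
    rwa [show - h u - - h v = -(h u - h v) by ring, abs_neg]
  low := fun v hv => by
    obtain ⟨w, hw, h1⟩ := hW.high v hv
    exact ⟨w, hw, by rwa [show - h v - - h w = h w - h v by ring]⟩
  high := fun v hv => by
    obtain ⟨w, hw, h1⟩ := hW.low v hv
    exact ⟨w, hw, by rwa [show - h w - - h v = h v - h w by ring]⟩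

/-- a number larger than all distances, and the height of a new top -/
theorem exists_height [Finite V] [Nonempty V] (G : SimpleGraph V) (ℓ : Sym2 V → ℝ) (h : V → ℝ) :
    ∃ M H, (∀ x y, pathDist G ℓ x y ≤ M) ∧ ∀ v, M < H - h v := by
  obtain ⟨p, hp⟩ := Finite.exists_max fun p : V × V => pathDist G ℓ p.1 p.2
  obtain ⟨m, hm⟩ := Finite.exists_max h
  exact ⟨_, h m + pathDist G ℓ p.1 p.2 + 1, fun x y => hp (x, y), fun v => by linarith [hm v]⟩

/-- one new top joined to the vertices of `B₂` -/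
theorem Wide.cap (hW : Wide G ℓ h D B₁ B₂) (hD : 1 ≤ D) (hT : B₂.Nonempty) {M H : ℝ}
    (hM : ∀ x y, pathDist G ℓ x y ≤ M) (hH : ∀ v, M < H - h v) :
    Wide (capG G B₂) (capL ℓ h H) (capH h H) D (some '' B₁) {none} := by
  obtain ⟨x, hx⟩ := hT
  have hM0 : 0 ≤ M := (pd_nonneg hW.pos x x).trans (hM x x)
  refine ⟨cap_connected hW.conn ⟨x, hx⟩, ?_, ?_, ?_, ?_⟩
  · intro e he
    induction e with
    | _ a b =>
      rcases a with _ | a <;> rcases b with _ | b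
      · exact absurd he (by simp [capG])
      · rw [capL_ns]; exact abs_pos.2 (by linarith [hH b])
      · rw [capL_sn]; exact abs_pos.2 (by linarith [hH a])
      · rw [capL_some]; exact hW.pos _ he
  · rintro (_ | u) (_ | v) ha
    · exact absurd ha (fun h => h)
    · exact le_of_eq rfl
    · show |h u - H| ≤ |H - h u|
      rw [abs_sub_comm]
    · exact hW.lip u v ha
  · rintro (_ | v) hv
    · refine ⟨some x, hx, ?_⟩
      show |H - h x| ≤ D * (H - h x)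
      rw [abs_of_nonneg (by linarith [hH x])]
      exact le_mul_of_one_le_left (by linarith [hH x]) hD
    · obtain ⟨u, hu, h1⟩ := hW.low v (fun h3 => hv ⟨v, h3, rfl⟩)
      exact ⟨some u, hu, h1⟩
  · rintro (_ | v) hv
    · exact absurd rfl hv
    · by_cases hvT : v ∈ B₂
      · refine ⟨none, hvT, ?_⟩
        show |H - h v| ≤ D * (H - h v)
        rw [abs_of_nonneg (by linarith [hH v])]
        exact le_mul_of_one_le_left (by linarith [hH v]) hD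
      · obtain ⟨u, hu, h1⟩ := hW.high v hvT
        exact ⟨some u, hu, h1⟩

theorem ll_mono {m n : ℕ} (h : m ≤ n) : ll m ≤ ll n :=
  Nat.log_mono_right (Nat.add_le_add_right (Nat.log_mono_right h) 1)

/-- both ends are vertices -/
theorem wide_vv {C : ℝ} (hC : 1 ≤ C) (hM : MStarLL C) [Finite V] (hD : 1 ≤ D)
    {σ : Equiv.Perm G.Dart} (hP : PlaneMap G σ) {s t : V} (hW : Wide G ℓ h D {s} {t}) :
    EmbedsL1 (pathDist G ℓ) (219073 * 96 * C * D * ((ll (Nat.card V) : ℝ) + 1)) :=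
  plane_wide_any hC hM V G σ ℓ h s t D hD hW.conn hP hW.pos hW.lip
    (fun v hv => hW.low v hv) (fun v hv => hW.high v hv)

/-- the lower end is a vertex, the upper end on a face -/
theorem wide_vf {C : ℝ} (hC : 1 ≤ C) (hM : MStarLL C) [Finite V] (hD : 1 ≤ D)
    {σ : Equiv.Perm G.Dart} (hP : PlaneMap G σ) {s : V} {d₀ : G.Dart} {T : Set V}
    (hT : T.Nonempty) (hTf : T ⊆ onFace σ d₀) (hW : Wide G ℓ h D {s} T) :
    EmbedsL1 (pathDist G ℓ) (219073 * 96 * C * D * ((ll (Nat.card V + 1) : ℝ) + 1)) := by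
  have hne : Nonempty V := ⟨s⟩
  obtain ⟨σ', hP', -⟩ := R2.H582.rowCap2 V G σ d₀ T hW.conn hP hT hTf
  obtain ⟨M, H, h1, h2⟩ := exists_height G ℓ h
  have hW' := hW.cap hD hT h1 h2
  rw [Set.image_singleton] at hW'
  have hE := wide_vv hC hM hD hP' hW'
  rw [Finite.card_option] at hE
  exact embeds_restrict some (fun x y => cap_dist hW.conn hW.pos hT h1 h2 x y) hE

/-- both ends on (different) faces -/
theorem wide_ff {C : ℝ} (hC : 1 ≤ C) (hM : MStarLL C) [Finite V] (hD : 1 ≤ D)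
    {σ : Equiv.Perm G.Dart} (hP : PlaneMap G σ) {d₁ d₂ : G.Dart}
    (hd : ¬ (faceNext σ).SameCycle d₁ d₂) (hW : Wide G ℓ h D (onFace σ d₁) (onFace σ d₂)) :
    EmbedsL1 (pathDist G ℓ) (219073 * 96 * C * D * ((ll (Nat.card V + 1 + 1) : ℝ) + 1)) := by
  have hne : Nonempty V := ⟨d₁.fst⟩
  have hT₁ : (onFace σ d₁).Nonempty := ⟨d₁.fst, d₁, Equiv.Perm.SameCycle.refl _ _, rfl⟩
  have hT₂ : (onFace σ d₂).Nonempty := ⟨d₂.fst, d₂, Equiv.Perm.SameCycle.refl _ _, rfl⟩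
  obtain ⟨σ', hP', h0⟩ := R2.H582.rowCap2 V G σ d₁ (onFace σ d₁) hW.conn hP hT₁ subset_rfl
  obtain ⟨d', hd'⟩ := h0 d₂ hd
  obtain ⟨M, H, h1, h2⟩ := exists_height G ℓ (fun v => - h v)
  have hW' := (hW.neg.cap hD hT₁ h1 h2).neg
  have hE := wide_vf hC hM hD hP' (T := some '' onFace σ d₂) (hT₂.image _)
    (by rintro _ ⟨v, hv, rfl⟩; exact hd' v hv) hW'
  rw [Finite.card_option] at hE
  exact embeds_restrict some (fun x y => cap_dist hW.conn hW.pos hT₁ h1 h2 x y) hE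

/-- the two ends: a vertex or a face each, not the same face -/
def Ends (σ : Equiv.Perm G.Dart) (B₁ B₂ : Set V) : Prop :=
  ((∃ s, B₁ = {s}) ∨ ∃ d₁, B₁ = onFace σ d₁) ∧ ((∃ t, B₂ = {t}) ∨ ∃ d₂, B₂ = onFace σ d₂) ∧
    ((∃ s, B₁ = {s}) ∨ (∃ t, B₂ = {t}) ∨
      ∃ d₁ d₂, ¬ (faceNext σ).SameCycle d₁ d₂ ∧ B₁ = onFace σ d₁ ∧ B₂ = onFace σ d₂)

/-- **W3, wide form.**  Plane graph, `h` nonexpansive; every vertex outside `B₁` has a steep edge
downwards, every vertex outside `B₂` a steep edge upwards; each of `B₁`, `B₂` is one vertex or the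
vertices of one face, and they are not both faces with the same darts. -/
theorem plane_ends {C : ℝ} (hC : 1 ≤ C) (hM : MStarLL C) (V : Type) [Finite V]
    (G : SimpleGraph V) (σ : Equiv.Perm G.Dart) (ℓ : Sym2 V → ℝ) (h : V → ℝ) (B₁ B₂ : Set V)
    (D : ℝ) (hD : 1 ≤ D) (hc : G.Connected) (hP : PlaneMap G σ) (hℓ : ∀ e ∈ G.edgeSet, 0 < ℓ e)
    (hB : Ends σ B₁ B₂)
    (h1 : ∀ u v, G.Adj u v → |h u - h v| ≤ ℓ s(u, v))
    (hlow : ∀ v, v ∉ B₁ → ∃ u, G.Adj v u ∧ ℓ s(v, u) ≤ D * (h v - h u))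
    (hhigh : ∀ v, v ∉ B₂ → ∃ u, G.Adj v u ∧ ℓ s(v, u) ≤ D * (h u - h v)) :
    EmbedsL1 (pathDist G ℓ) (219073 * 96 * C * D * ((ll (Nat.card V) : ℝ) + 3)) := by
  have hW : Wide G ℓ h D B₁ B₂ := ⟨hc, hℓ, h1, hlow, hhigh⟩
  have hne : Nonempty V := hc.nonempty
  have hm : 1 ≤ Nat.card V := Nat.card_pos
  obtain ⟨a, b, hab⟩ := planeMap_adj hc hP
  have hm2 : 2 ≤ Nat.card V := by
    have := Fintype.ofFinite V
    rw [Nat.card_eq_fintype_card]
    exact Fintype.one_lt_card_iff.2 ⟨a, b, hab.ne⟩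
  have key : ∀ n : ℕ, n ≤ Nat.card V + 2 → (EmbedsL1 (pathDist G ℓ)
      (219073 * 96 * C * D * ((ll n : ℝ) + 1))) →
      EmbedsL1 (pathDist G ℓ) (219073 * 96 * C * D * ((ll (Nat.card V) : ℝ) + 3)) := by
    intro n hn hE
    obtain ⟨Ω, m, μ, g, hg⟩ := hE
    refine ⟨Ω, m, μ, g, fun x y => ⟨(hg x y).1, (hg x y).2.trans ?_⟩⟩
    refine mul_le_mul_of_nonneg_right ?_ (pd_nonneg hℓ x y)
    have h2 : (ll n : ℝ) ≤ (ll (Nat.card V) : ℝ) + 2 := by
      exact_mod_cast ll_add_sq _ hm (by nlinarith)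
    have h3 : (0 : ℝ) ≤ 219073 * 96 * C * D := by positivity
    exact mul_le_mul_of_nonneg_left (by linarith) h3
  obtain ⟨e1, e2, e3⟩ := hB
  have hcases : ((∃ s, B₁ = {s}) ∧ ∃ t, B₂ = {t}) ∨ ((∃ s, B₁ = {s}) ∧ ∃ d₂, B₂ = onFace σ d₂) ∨
      ((∃ d₁, B₁ = onFace σ d₁) ∧ ∃ t, B₂ = {t}) ∨
      ∃ d₁ d₂, ¬ (faceNext σ).SameCycle d₁ d₂ ∧ B₁ = onFace σ d₁ ∧ B₂ = onFace σ d₂ := by
    rcases e3 with h3 | h3 | h3
    · rcases e2 with h4 | h4
      · exact Or.inl ⟨h3, h4⟩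
      · exact Or.inr (Or.inl ⟨h3, h4⟩)
    · rcases e1 with h4 | h4
      · exact Or.inl ⟨h4, h3⟩
      · exact Or.inr (Or.inr (Or.inl ⟨h4, h3⟩))
    · exact Or.inr (Or.inr (Or.inr h3))
  rcases hcases with ⟨⟨s, rfl⟩, t, rfl⟩ | ⟨⟨s, rfl⟩, d₂, rfl⟩ | ⟨⟨d₁, rfl⟩, t, rfl⟩ |
    ⟨d₁, d₂, hd, rfl, rfl⟩
  · exact key _ (by omega) (wide_vv hC hM hD hP hW)
  · refine key _ (by omega) (wide_vf hC hM hD hP (d₀ := d₂) (T := onFace σ d₂)
      ⟨d₂.fst, d₂, Equiv.Perm.SameCycle.refl _ _, rfl⟩ subset_rfl hW)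
  · refine key _ (by omega) (wide_vf hC hM hD hP (d₀ := d₁) (T := onFace σ d₁)
      ⟨d₁.fst, d₁, Equiv.Perm.SameCycle.refl _ _, rfl⟩ subset_rfl hW.neg)
  · exact key _ (by omega) (wide_ff hC hM hD hP hd hW)

/-- **Metric form.**  `B₁`, `B₂` two ends; every vertex `v` lies on a shortest path from the end
`B₁` to some vertex `w` of the end `B₂`: `d(B₁, w) = d(B₁, v) + d(v, w)`. -/
theorem plane_ends_metric {C : ℝ} (hC : 1 ≤ C) (hM : MStarLL C) (V : Type) [Finite V]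
    (G : SimpleGraph V) (σ : Equiv.Perm G.Dart) (ℓ : Sym2 V → ℝ) (B₁ B₂ : Set V)
    (hc : G.Connected) (hP : PlaneMap G σ) (hℓ : ∀ e ∈ G.edgeSet, 0 < ℓ e)
    (hB : Ends σ B₁ B₂) (δ : V → ℝ)
    (hδ : ∀ v, (∀ b ∈ B₁, δ v ≤ pathDist G ℓ b v) ∧ ∃ b ∈ B₁, δ v = pathDist G ℓ b v)
    (hgeo : ∀ v, ∃ w ∈ B₂, δ w = δ v + pathDist G ℓ v w) :
    EmbedsL1 (pathDist G ℓ) (219073 * 96 * C * ((ll (Nat.card V) : ℝ) + 3)) := by
  have tri := pd_tri hc hℓ
  have hlip : ∀ u v, δ v ≤ δ u + pathDist G ℓ u v := by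
    intro u v
    obtain ⟨b, hb, h1⟩ := (hδ u).2
    have h2 := (hδ v).1 b hb
    have h3 := tri b u v
    linarith
  have hmain := plane_ends hC hM V G σ ℓ δ B₁ B₂ 1 le_rfl hc hP hℓ hB ?_ ?_ ?_
  · rwa [mul_one] at hmain
  · intro u v ha
    have h1 := hlip u v
    have h2 := hlip v u
    have h3 := pd_adj hℓ ha
    rw [pd_comm hc hℓ v u] at h2
    rw [abs_le]
    constructor <;> linarith
  · intro v hv
    obtain ⟨b, hb, h1⟩ := (hδ v).2
    have hvb : v ≠ b := fun h2 => hv (h2 ▸ hb)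
    obtain ⟨u, hu, h2⟩ := exists_first hc hℓ hvb
    refine ⟨u, hu, ?_⟩
    have h3 := (hδ u).1 b hb
    rw [pd_comm hc hℓ b u] at h3
    rw [pd_comm hc hℓ b v] at h1
    rw [one_mul]
    linarith
  · intro v hv
    obtain ⟨w, hw, h1⟩ := hgeo v
    have hvw : v ≠ w := fun h2 => hv (h2 ▸ hw)
    obtain ⟨u, hu, h2⟩ := exists_first hc hℓ hvw
    refine ⟨u, hu, ?_⟩
    have h3 := hlip u w
    rw [one_mul]
    linarith

end Vale.Agent.P235.Red.W3
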