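import Vale.Agent.P235.R2.H341.KrSpec
import Vale.Agent.P235.R2.H90.KprDiam

/-!
P235-M (helper934), row K2 of `KrSpec`: the diameter of the clusters.
-/

set_option autoImplicit false
set_option linter.all false

namespace Vale.Agent.P235.Kr

open SimpleGraph Vale.Agent.P235 Vale.Agent.P235.Kpr

theorem conn_union {V : Type} {G : SimpleGraph V} {A B : Set V} (hA : (G.induce A).Connected)
    (hB : (G.induce B).Connected) (h : ∃ a ∈ A, ∃ b ∈ B, G.Adj a b) :
    (G.induce (A ∪ B)).Connected := by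
  obtain ⟨a, ha, b, hb, hab⟩ := h
  have h0 : (G.induce (A ∪ B)).Adj ⟨a, Or.inl ha⟩ ⟨b, Or.inr hb⟩ := hab
  have h1 : ∀ v (hv : v ∈ A ∪ B), (G.induce (A ∪ B)).Reachable ⟨a, Or.inl ha⟩ ⟨v, hv⟩ := by
    rintro v (hv | hv)
    · exact (hA.preconnected ⟨a, ha⟩ ⟨v, hv⟩).map
        (SimpleGraph.induceHomOfLE G (Set.subset_union_left : A ⊆ A ∪ B)).toHom
    · exact h0.reachable.trans ((hB.preconnected ⟨b, hb⟩ ⟨v, hv⟩).map
        (SimpleGraph.induceHomOfLE G (Set.subset_union_right : B ⊆ A ∪ B)).toHom)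
  have : Nonempty (A ∪ B : Set V) := ⟨⟨a, Or.inl ha⟩⟩
  exact ⟨fun u v => (h1 u.1 u.2).symm.trans (h1 v.1 v.2)⟩

theorem Chopped.le {V : Type} {ℓ : Sym2 V → ℝ} {Δ : ℝ} {n : ℕ} {H H' : SimpleGraph V}
    (h : Chopped ℓ Δ n H H') : H' ≤ H := by
  induction h with
  | zero H => exact le_rfl
  | succ f r θ _ _ ih => exact ih.trans (Kpr.chop_le _ _ _ _)

theorem stage_up (hK : RowK1) {V : Type} [Finite V] {G : SimpleGraph V} {ℓ : Sym2 V → ℝ} {Δ : ℝ}
    (hc : G.Connected) (hℓ : ∀ e ∈ G.edgeSet, 0 < ℓ e) (hΔ : 0 < Δ) {s n : ℕ}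
    {H H' : SimpleGraph V} (hC : Chopped ℓ Δ n H H') :
    H ≤ G → (∀ u v, H.Adj u v → ℓ s(u, v) ≤ Δ) → ∀ (x : Fin (s + 2) → V),
      (∀ k l, k ≠ l → 2 * (4 * n * Δ) < pathDist G ℓ (x k) (x l)) →
      StageR G ℓ Δ x H' 0 (fun _ => ∅) (fun k => {x k}) x 0 →
      ∃ A X y, StageR G ℓ Δ x H n A X y (4 * n * Δ) := by
  induction hC with
  | zero H =>
    intro _ _ x _ h0
    refine ⟨fun _ => ∅, fun k => {x k}, x, ?_⟩
    rw [Nat.cast_zero, mul_zero, zero_mul]
    exact h0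
  | @succ n H H' f r θ hP _ ih =>
    intro hH hs x hx h0
    have hn : (0 : ℝ) ≤ n := Nat.cast_nonneg _
    obtain ⟨A, X, y, hS⟩ := ih ((Kpr.chop_le _ _ _ _).trans hH)
      (fun u v huv => hs u v huv.1) x (fun k l hkl => by
        have h1 := hx k l hkl
        push_cast at h1
        nlinarith) h0
    obtain ⟨A', X', y', hS'⟩ := hK V G H ℓ Δ θ (4 * n * Δ) s x n A X y f r hc hℓ hH hΔ
      (by positivity) hs hP (fun k l hkl => by
        have h1 := hx k l hkl
        push_cast at h1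
        linarith) hS
    refine ⟨A', X', y', ?_⟩
    have e : 4 * ((n + 1 : ℕ) : ℝ) * Δ = 4 * n * Δ + 4 * Δ := by
      push_cast
      ring
    rw [e]
    exact hS'

/-- **(K2)** -/
theorem rowK2 (hK : RowK1) : RowK2 := by
  intro V _ G H H' ℓ Δ r hc hno hℓ hHG hΔ hshort hC x y hxy
  by_contra hcon
  have hfar : 8 * ((r : ℝ) + 2) ^ 2 * Δ < pathDist G ℓ x y := not_le.1 hcon
  have hr : (0 : ℝ) ≤ r := Nat.cast_nonneg _
  have hd0 := Red.pd_self hℓ
  have hdc := Red.pd_comm hc hℓ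
  have htri := Red.pd_tri hc hℓ
  have hstep : ∀ u v, H'.Adj u v → pathDist G ℓ x v ≤ pathDist G ℓ x u + Δ := by
    intro u v huv
    have h1 : H.Adj u v := hC.le huv
    have h2 := Red.pd_adj hℓ (hHG h1)
    have h3 := htri x u v
    have h4 := hshort u v h1
    linarith
  obtain ⟨w⟩ := hxy
  set R : ℝ := (8 * ((r : ℝ) + 2) + 1) * Δ with hR
  have hR0 : 0 < R := by positivity
  have hpt : ∀ k : Fin (r + 2), ∃ z, H'.Reachable x z ∧ (k : ℕ) * R ≤ pathDist G ℓ x z ∧
      pathDist G ℓ x z ≤ (k : ℕ) * R + Δ ∧ (0 < (k : ℕ) → (k : ℕ) * R < pathDist G ℓ x z) := by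
    intro k
    by_cases hk : (k : ℕ) = 0
    · refine ⟨x, Reachable.refl _, ?_, ?_, fun h => absurd hk h.ne'⟩
      · rw [hk, hd0]; simp
      · rw [hk, hd0]; simpa using hΔ.le
    · have hk1 : ((k : ℕ) : ℝ) ≤ r + 1 := by
        have := k.2
        have h2 : (k : ℕ) ≤ r + 1 := by omega
        exact_mod_cast h2
      have h1 : (k : ℕ) * R ≤ 8 * ((r : ℝ) + 2) ^ 2 * Δ := by
        have h2 : (k : ℕ) * R ≤ (r + 1) * R := mul_le_mul_of_nonneg_right hk1 hR0.le
        refine h2.trans ?_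
        rw [hR, ← mul_assoc]
        refine mul_le_mul_of_nonneg_right ?_ hΔ.le
        nlinarith
      obtain ⟨z, h2, h3, h4⟩ := exists_far (d := pathDist G ℓ x) (R := (k : ℕ) * R) hstep w
        (by rw [hd0]; positivity) (lt_of_le_of_lt h1 hfar)
      exact ⟨z, h2, h3.le, h4, fun _ => h3⟩
  choose z hz1 hz2 hz3 hz4 using hpt
  have hlt : ∀ k l : Fin (r + 2), k < l →
      2 * (4 * ((r + 2 : ℕ) : ℝ) * Δ) < pathDist G ℓ (z k) (z l) := by
    intro k l hkl
    have h0 : (k : ℕ) < l := hkl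
    have h1 := hz3 k
    have h2 := hz4 l (by omega)
    have h3 := htri x (z k) (z l)
    have h4 : ((k : ℕ) : ℝ) + 1 ≤ (l : ℕ) := by exact_mod_cast h0
    have h5 : (((k : ℕ) : ℝ) + 1) * R ≤ (l : ℕ) * R := mul_le_mul_of_nonneg_right h4 hR0.le
    have h6 : R = 2 * (4 * ((r + 2 : ℕ) : ℝ) * Δ) + Δ := by
      rw [hR]
      push_cast
      ring
    linarith
  have hsep : ∀ k l : Fin (r + 2), k ≠ l →
      2 * (4 * ((r + 2 : ℕ) : ℝ) * Δ) < pathDist G ℓ (z k) (z l) := by
    intro k l hkl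
    rcases lt_or_gt_of_ne hkl with h | h
    · exact hlt k l h
    · rw [hdc]
      exact hlt l k h
  have hz0 : ∀ k, H'.Reachable (z 0) (z k) := fun k => (hz1 0).symm.trans (hz1 k)
  have S0 : StageR G ℓ Δ z H' 0 (fun _ => ∅) (fun k => {z k}) z 0 :=
    { aconn := fun j hj => absurd hj (Nat.not_lt_zero _)
      adisj := fun j hj => absurd hj (Nat.not_lt_zero _)
      xconn := fun k => conn_singleton G (z k)
      ax := fun j hj => absurd hj (Nat.not_lt_zero _)
      adj := fun j hj => absurd hj (Nat.not_lt_zero _)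
      xmem := fun k => rfl
      ymem := fun k => rfl
      ball := fun k v hv => by
        have : v = z k := hv
        rw [this, hd0]
      areach := fun j hj => absurd hj (Nat.not_lt_zero _)
      xreach := fun k v hv => by
        have : v = z k := hv
        rw [this]
        exact hz0 k
      far := fun j hj => absurd hj (Nat.not_lt_zero _) }
  obtain ⟨A, X, y', hS⟩ := stage_up hK hc hℓ hΔ hC hHG hshort z hsep S0
  let c : Fin r → Fin (r + 2) := Fin.castLE (by omega)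
  have hX : ∀ k l, k ≠ l → Disjoint (X k) (X l) := by
    intro k l hkl
    refine Set.disjoint_left.2 fun v h1 h2 => ?_
    have h3 := hS.ball k v h1
    have h4 := hS.ball l v h2
    have h5 := htri (z k) v (z l)
    have h6 := hsep k l hkl
    rw [hdc v (z l)] at h5
    linarith
  refine hno ⟨fun i => A i ∪ X (c i), fun i => ?_, fun i j hij => ?_, fun i j hij => ?_⟩
  · exact conn_union (hS.aconn i (by omega)) (hS.xconn _) (hS.adj i (by omega) _)
  · have hij' : (i : ℕ) ≠ j := fun h => hij (Fin.ext h)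
    have hc' : c i ≠ c j := fun h => hij' (congrArg (fun k : Fin (r + 2) => (k : ℕ)) h)
    rw [Set.disjoint_union_left, Set.disjoint_union_right, Set.disjoint_union_right]
    exact ⟨⟨hS.adisj i (by omega) j (by omega) hij', hS.ax i (by omega) _⟩,
      (hS.ax j (by omega) _).symm, hX _ _ hc'⟩
  · obtain ⟨a, ha, b, hb, hab⟩ := hS.adj i (by omega) (c j)
    exact ⟨a, Or.inl ha, b, Or.inr hb, hab⟩

end Vale.Agent.P235.Kr

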