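import Vale.Agent.P235.R2.H934.Multi3

/-!
P235-M (helper934): many local maxima and minima, arbitrary slack edges.  Part 4: vertices and
faces.
-/

set_option autoImplicit false
set_option linter.all false

namespace Vale.Agent.P235.R2.H934

open Relation SimpleGraph
open Vale.Agent.P235 Vale.Agent.P235.Red Vale.Agent.P235.H341W Vale.Agent.P235.Red.W3
open Vale.Agent.P235.R2.H582 (embeds_mono cD cD_fst cD_inj cap_aux2)

/-- the vertices outside `A` and the faces of `MA` have a steep edge downwards, those outside `B`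
and the faces of `MB` have a steep edge upwards -/
structure MF {V : Type} (G : SimpleGraph V) (σ : Equiv.Perm G.Dart) (ℓ : Sym2 V → ℝ) (h : V → ℝ)
    (D : ℝ) (A B : Finset V) (MA MB : Finset G.Dart) : Prop where
  conn : G.Connected
  plane : PlaneMap G σ
  pos : ∀ e ∈ G.edgeSet, 0 < ℓ e
  lip : ∀ u v, G.Adj u v → |h u - h v| ≤ ℓ s(u, v)
  low : ∀ v, v ∉ A → (∀ m ∈ MA, v ∉ onFace σ m) → ∃ u, G.Adj v u ∧ ℓ s(v, u) ≤ D * (h v - h u)
  high : ∀ v, v ∉ B → (∀ m ∈ MB, v ∉ onFace σ m) → ∃ u, G.Adj v u ∧ ℓ s(v, u) ≤ D * (h u - h v)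
  sep : ∀ m ∈ MA, ∀ m' ∈ MB, ¬ (faceNext σ).SameCycle m m'

section

variable {V : Type} {G : SimpleGraph V} {σ : Equiv.Perm G.Dart} {ℓ : Sym2 V → ℝ} {h : V → ℝ}
  {D : ℝ} {A B : Finset V} {MA MB : Finset G.Dart}

theorem MF.neg (hW : MF G σ ℓ h D A B MA MB) : MF G σ ℓ (fun v => - h v) D B A MB MA where
  conn := hW.conn
  plane := hW.plane
  pos := hW.pos
  lip := fun u v ha => by
    have h1 := hW.lip u v ha
    rwa [show - h u - - h v = -(h u - h v) by ring, abs_neg]
  low := fun v hv hv' => by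
    obtain ⟨w, hw, h1⟩ := hW.high v hv hv'
    exact ⟨w, hw, by rwa [show - h v - - h w = h w - h v by ring]⟩
  high := fun v hv hv' => by
    obtain ⟨w, hw, h1⟩ := hW.low v hv hv'
    exact ⟨w, hw, by rwa [show - h w - - h v = h v - h w by ring]⟩
  sep := fun m hm m' hm' k => hW.sep m' hm' m hm k.symm

/-- the faces after the cap of one face -/
theorem cap_faces [Finite V] (hP : PlaneMap G σ) (d₀ : G.Dart) :
    ∃ σ' : Equiv.Perm (capG G (onFace σ d₀)).Dart, PlaneMap (capG G (onFace σ d₀)) σ' ∧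
      ∀ d, ¬ (faceNext σ).SameCycle d₀ d →
        (∀ v, v ∈ onFace σ d ↔ some v ∈ onFace σ' (cD G (onFace σ d₀) d)) ∧
        ∀ d', (faceNext σ').SameCycle (cD G (onFace σ d₀) d) (cD G (onFace σ d₀) d') →
          (faceNext σ).SameCycle d d' := by
  classical
  have hfin : (onFace σ d₀).Finite := Set.toFinite _
  have hne : (onFace σ d₀).Nonempty := ⟨d₀.fst, d₀, Equiv.Perm.SameCycle.refl _ _, rfl⟩
  obtain ⟨σ', h1, h2, h3⟩ := cap_aux2 (d₀ := d₀) hP hfin.toFinset (by simpa using hne)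
    (by simp) (onFace σ d₀) (by simp)
  refine ⟨σ', h1, fun d hd => ?_⟩
  obtain ⟨a1, a2⟩ := h3 d hd
  refine ⟨fun v => ⟨?_, ?_⟩, ?_⟩
  · rintro ⟨d', k1, k2⟩
    exact ⟨cD G _ d', a1 d' k1, by rw [cD_fst, k2]⟩
  · rintro ⟨y, k1, k2⟩
    obtain ⟨d', e1, h4⟩ := a2 y k1
    rw [e1, cD_fst] at k2
    exact ⟨d', h4, Option.some.inj k2⟩
  · intro d' k
    obtain ⟨d'', e1, h4⟩ := a2 _ k
    rwa [cD_inj G _ e1]

open Classical in
/-- one new top in a face of `MB` -/
theorem MF.cap [Finite V] (hW : MF G σ ℓ h D A B MA MB) (hD : 1 ≤ D) {d₀ : G.Dart}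
    (hd₀ : d₀ ∈ MB) {M H : ℝ} (hM : ∀ x y, pathDist G ℓ x y ≤ M) (hH : ∀ v, M < H - h v) :
    ∃ (σ' : Equiv.Perm (capG G (onFace σ d₀)).Dart) (A' B' : Finset (Option V))
      (MA' MB' : Finset (capG G (onFace σ d₀)).Dart),
      MF (capG G (onFace σ d₀)) σ' (capL ℓ h H) (capH h H) D A' B' MA' MB' ∧
      A'.card ≤ A.card ∧ B'.card ≤ B.card + 1 ∧ MA'.card ≤ MA.card ∧ MB'.card < MB.card := by
  have hTne : (onFace σ d₀).Nonempty := ⟨d₀.fst, d₀, Equiv.Perm.SameCycle.refl _ _, rfl⟩
  obtain ⟨x, hx⟩ := hTne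
  have hM0 : 0 ≤ M := (pd_nonneg hW.pos x x).trans (hM x x)
  obtain ⟨σ', hP', hF⟩ := cap_faces hW.plane d₀
  have hsame : ∀ m, (faceNext σ).SameCycle d₀ m → onFace σ m ⊆ onFace σ d₀ := by
    rintro m hm v ⟨d', k1, k2⟩
    exact ⟨d', hm.trans k1, k2⟩
  refine ⟨σ', A.image some, insert none (B.image some), MA.image (cD G (onFace σ d₀)),
    (MB.filter fun m => ¬ (faceNext σ).SameCycle d₀ m).image (cD G (onFace σ d₀)),
    ⟨cap_connected hW.conn ⟨x, hx⟩, hP', ?_, ?_, ?_, ?_, ?_⟩, Finset.card_image_le, ?_,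
    Finset.card_image_le, ?_⟩
  · intro e he
    induction e with
    | _ a b =>
      rcases a with _ | a <;> rcases b with _ | b
      · exact absurd he (by simp [capG])
      · rw [capL_ns]; exact abs_pos.2 (by linarith [hH b])
      · rw [capL_sn]; exact abs_pos.2 (by linarith [hH a])
      · rw [capL_some]; exact hW.pos _ he
  · rintro (_ | u) (_ | v) ha
    · exact absurd ha (fun h => h)
    · exact le_of_eq rfl
    · show |h u - H| ≤ |H - h u|
      rw [abs_sub_comm]
    · exact hW.lip u v ha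
  · rintro (_ | v) hv hv'
    · refine ⟨some x, hx, ?_⟩
      show |H - h x| ≤ D * (H - h x)
      rw [abs_of_nonneg (by linarith [hH x])]
      exact le_mul_of_one_le_left (by linarith [hH x]) hD
    · obtain ⟨u, hu, h1⟩ := hW.low v (fun h3 => hv (Finset.mem_image_of_mem _ h3)) (by
        intro m hm h3
        have h4 : ¬ (faceNext σ).SameCycle d₀ m := fun k => hW.sep m hm d₀ hd₀ k.symm
        exact hv' _ (Finset.mem_image_of_mem _ hm) (((hF m h4).1 v).1 h3))
      exact ⟨some u, hu, h1⟩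
  · rintro (_ | v) hv hv'
    · exact absurd (Finset.mem_insert_self _ _) hv
    · by_cases hvT : v ∈ onFace σ d₀
      · refine ⟨none, hvT, ?_⟩
        show |H - h v| ≤ D * (H - h v)
        rw [abs_of_nonneg (by linarith [hH v])]
        exact le_mul_of_one_le_left (by linarith [hH v]) hD
      · obtain ⟨u, hu, h1⟩ := hW.high v
          (fun h3 => hv (Finset.mem_insert_of_mem (Finset.mem_image_of_mem _ h3))) (by
          intro m hm h3
          by_cases h4 : (faceNext σ).SameCycle d₀ m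
          · exact hvT (hsame m h4 h3)
          · exact hv' _ (Finset.mem_image_of_mem _ (Finset.mem_filter.2 ⟨hm, h4⟩))
              (((hF m h4).1 v).1 h3))
        exact ⟨some u, hu, h1⟩
  · intro y hy z hz k
    obtain ⟨m, hm, e1⟩ := Finset.mem_image.1 hy
    obtain ⟨m', hm', e2⟩ := Finset.mem_image.1 hz
    rw [← e1, ← e2] at k
    have h4 : ¬ (faceNext σ).SameCycle d₀ m := fun k => hW.sep m hm d₀ hd₀ k.symm
    exact hW.sep m hm m' (Finset.mem_filter.1 hm').1 ((hF m h4).2 m' k)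
  · refine (Finset.card_insert_le _ _).trans ?_
    exact Nat.add_le_add_right Finset.card_image_le 1
  · refine Finset.card_image_le.trans_lt (Finset.card_lt_card ⟨Finset.filter_subset _ _, ?_⟩)
    intro hsub
    exact (Finset.mem_filter.1 (hsub hd₀)).2 (Equiv.Perm.SameCycle.refl _ _)

end

theorem ll_mono' {m n : ℕ} (h : m ≤ n) : (ll m : ℝ) ≤ ll n := by
  exact_mod_cast R2.H582.ll_mono h

/-- vertices and faces, with the number of faces in the count -/
theorem mf_embeds {C : ℝ} (hC : 1 ≤ C) (hMS : MStarLL C) {D : ℝ} (hD : 1 ≤ D) : ∀ (n : ℕ)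
    (V : Type) [Finite V] (G : SimpleGraph V) (σ : Equiv.Perm G.Dart) (ℓ : Sym2 V → ℝ)
    (h : V → ℝ) (A B : Finset V) (MA MB : Finset G.Dart), MF G σ ℓ h D A B MA MB →
    MA.card + MB.card ≤ n →
    EmbedsL1 (pathDist G ℓ) (105200000000000 * C * D *
      ((ll (Nat.card V + n) : ℝ) + 1 + Real.log (A.card + B.card + n + 2))) := by
  classical
  have hK : (0 : ℝ) ≤ 105200000000000 * C * D := by positivity
  have mono : ∀ {V : Type} {G : SimpleGraph V} {ℓ : Sym2 V → ℝ} (hℓ : ∀ e ∈ G.edgeSet, 0 < ℓ e)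
      {a b : ℕ} {x y : ℝ}, a ≤ b → 0 < x → x ≤ y →
      EmbedsL1 (pathDist G ℓ) (105200000000000 * C * D * ((ll a : ℝ) + 1 + Real.log x)) →
      EmbedsL1 (pathDist G ℓ) (105200000000000 * C * D * ((ll b : ℝ) + 1 + Real.log y)) := by
    intro V G ℓ hℓ a b x y hab hx hxy hE
    refine embeds_mono (pd_nonneg hℓ) (mul_le_mul_of_nonneg_left ?_ hK) hE
    have h1 := ll_mono' hab
    have h2 := Real.log_le_log hx hxy
    linarith
  intro n
  induction n with
  | zero =>
    intro V _ G σ ℓ h A B MA MB hW hn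
    have hA : MA = ∅ := Finset.card_eq_zero.1 (by omega)
    have hB : MB = ∅ := Finset.card_eq_zero.1 (by omega)
    subst hA
    subst hB
    have h1 := multi_vertices hC hMS V G σ ℓ h A B D hD hW.conn hW.plane hW.pos hW.lip
      (fun v hv => hW.low v hv (by simp)) (fun v hv => hW.high v hv (by simp))
    refine mono hW.pos (by omega) (by positivity) ?_ h1
    simp
  | succ n ih =>
    have step : ∀ (V : Type) [Finite V] (G : SimpleGraph V) (σ : Equiv.Perm G.Dart)
        (ℓ : Sym2 V → ℝ) (h : V → ℝ) (A B : Finset V) (MA MB : Finset G.Dart),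
        MF G σ ℓ h D A B MA MB → MA.card + MB.card ≤ n + 1 → MB.Nonempty →
        EmbedsL1 (pathDist G ℓ) (105200000000000 * C * D *
          ((ll (Nat.card V + (n + 1)) : ℝ) + 1 +
            Real.log (A.card + B.card + (n + 1 : ℕ) + 2))) := by
      intro V _ G σ ℓ h A B MA MB hW hn hne
      obtain ⟨d₀, hd₀⟩ := hne
      have hVne : Nonempty V := ⟨d₀.fst⟩
      have hT : (onFace σ d₀).Nonempty := ⟨d₀.fst, d₀, Equiv.Perm.SameCycle.refl _ _, rfl⟩
      obtain ⟨M, H, h1, h2⟩ := exists_height G ℓ h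
      obtain ⟨σ', A', B', MA', MB', hW', c1, c2, c3, c4⟩ := hW.cap hD hd₀ h1 h2
      have hE := ih (Option V) _ σ' _ _ A' B' MA' MB' hW' (by omega)
      have hE' := Tight.embeds_restrict some (fun x y => cap_dist hW.conn hW.pos hT h1 h2 x y) hE
      rw [Finite.card_option] at hE'
      refine mono hW.pos (by omega) (by positivity) ?_ hE'
      have c1' : (A'.card : ℝ) ≤ A.card := by exact_mod_cast c1
      have c2' : (B'.card : ℝ) ≤ B.card + 1 := by exact_mod_cast c2
      push_cast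
      linarith
    intro V _ G σ ℓ h A B MA MB hW hn
    by_cases hB : MB.Nonempty
    · exact step V G σ ℓ h A B MA MB hW hn hB
    · by_cases hA : MA.Nonempty
      · have h1 := step V G σ ℓ _ B A MB MA hW.neg (by omega) hA
        refine mono hW.pos le_rfl (by positivity) (le_of_eq ?_) h1
        push_cast
        ring
      · rw [Finset.not_nonempty_iff_eq_empty] at hA hB
        have h1 := ih V G σ ℓ h A B MA MB hW (by rw [hA, hB]; simp)
        refine mono hW.pos (by omega) (by positivity) ?_ h1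
        push_cast
        linarith

/-- `ll (a + b) ≤ ll a + ll b + 2` -/
theorem ll_add (a b : ℕ) : ll (a + b) ≤ ll a + ll b + 2 := by
  have key : ∀ m : ℕ, ll (2 * m) ≤ ll m + 1 := by
    intro m
    unfold ll
    rcases Nat.eq_zero_or_pos m with rfl | hm
    · simp
    calc Nat.log 2 (Nat.log 2 (2 * m) + 1) ≤ Nat.log 2 ((Nat.log 2 m + 1) * 2) := by
          refine Nat.log_mono_right ?_
          rw [mul_comm 2 m, Nat.log_mul_base (by norm_num) (by omega)]
          omega
      _ = Nat.log 2 (Nat.log 2 m + 1) + 1 := by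
          rw [Nat.log_mul_base (by norm_num) (by omega)]
  rcases le_total a b with h | h
  · have h1 := R2.H582.ll_mono (show a + b ≤ 2 * b by omega)
    have h2 := key b
    omega
  · have h1 := R2.H582.ll_mono (show a + b ≤ 2 * a by omega)
    have h2 := key a
    omega

theorem ll_le_log (m : ℕ) : (ll m : ℝ) ≤ 2 * Real.log (m + 2) := by
  rcases Nat.eq_zero_or_pos m with rfl | hm
  · unfold ll
    simp
    positivity
  have h1 : ll m ≤ Nat.log 2 m := by
    unfold ll
    generalize Nat.log 2 m = k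
    have h2 : Nat.log 2 (k + 1) < k + 1 := Nat.log_lt_of_lt_pow (by omega) Nat.lt_two_pow_self
    omega
  have h2 : ((Nat.log 2 m : ℕ) : ℝ) * Real.log 2 ≤ Real.log m := by
    have h3 : (2 : ℝ) ^ (Nat.log 2 m) ≤ m := by
      exact_mod_cast Nat.pow_log_le_self 2 (by omega)
    have h4 := Real.log_le_log (by positivity) h3
    rwa [Real.log_pow] at h4
  have h3 := Real.log_two_gt_d9
  have h4 : Real.log m ≤ Real.log (m + 2) := by
    refine Real.log_le_log (by exact_mod_cast hm) (by linarith)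
  have h5 : (ll m : ℝ) ≤ (Nat.log 2 m : ℕ) := by exact_mod_cast h1
  have h6 : (0 : ℝ) ≤ (Nat.log 2 m : ℕ) := Nat.cast_nonneg _
  nlinarith

/-- **The general theorem for plane graphs.**  `G` is a plane graph with any lengths, `h` is
nonexpansive.  `A`, `B` are vertices and `MA`, `MB` are faces; every vertex which is not in `A` and
not on a face of `MA` has an edge downwards with slope at least `1/D`, every vertex which is not in
`B` and not on a face of `MB` has an edge upwards with slope at least `1/D`; no face is in `MA` and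
in `MB`.  Nothing is assumed about the other edges. -/
theorem multi_faces {C : ℝ} (hC : 1 ≤ C) (hMS : MStarLL C) (V : Type) [Finite V]
    (G : SimpleGraph V) (σ : Equiv.Perm G.Dart) (ℓ : Sym2 V → ℝ) (h : V → ℝ) (A B : Finset V)
    (MA MB : Finset G.Dart) (D : ℝ) (hD : 1 ≤ D) (hc : G.Connected) (hP : PlaneMap G σ)
    (hℓ : ∀ e ∈ G.edgeSet, 0 < ℓ e)
    (h1 : ∀ u v, G.Adj u v → |h u - h v| ≤ ℓ s(u, v))
    (hsep : ∀ m ∈ MA, ∀ m' ∈ MB, ¬ (faceNext σ).SameCycle m m')
    (hlow : ∀ v, v ∉ A → (∀ m ∈ MA, v ∉ onFace σ m) →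
      ∃ u, G.Adj v u ∧ ℓ s(v, u) ≤ D * (h v - h u))
    (hhigh : ∀ v, v ∉ B → (∀ m ∈ MB, v ∉ onFace σ m) →
      ∃ u, G.Adj v u ∧ ℓ s(v, u) ≤ D * (h u - h v)) :
    EmbedsL1 (pathDist G ℓ) (320000000000000 * C * D *
      ((ll (Nat.card V) : ℝ) + 1 + Real.log (A.card + B.card + MA.card + MB.card + 2))) := by
  have hE := mf_embeds hC hMS hD (MA.card + MB.card) V G σ ℓ h A B MA MB
    ⟨hc, hP, hℓ, h1, hlow, hhigh, hsep⟩ le_rfl
  refine embeds_mono (pd_nonneg hℓ) ?_ hE
  have h2 : (ll (Nat.card V + (MA.card + MB.card)) : ℝ) ≤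
      ll (Nat.card V) + ll (MA.card + MB.card) + 2 := by
    exact_mod_cast ll_add _ _
  have h3 := ll_le_log (MA.card + MB.card)
  have h0 : (0 : ℝ) ≤ ll (Nat.card V) := Nat.cast_nonneg _
  have hm : (0 : ℝ) ≤ (A.card : ℝ) + B.card := by positivity
  have hm' : (0 : ℝ) ≤ (MA.card : ℝ) + MB.card := by positivity
  have h4 : Real.log (((MA.card + MB.card : ℕ) : ℝ) + 2) ≤
      Real.log ((A.card : ℝ) + B.card + MA.card + MB.card + 2) := by
    refine Real.log_le_log (by positivity) ?_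
    push_cast
    linarith
  have h5 : Real.log ((A.card : ℝ) + B.card + ((MA.card + MB.card : ℕ) : ℝ) + 2) =
      Real.log ((A.card : ℝ) + B.card + MA.card + MB.card + 2) := by
    congr 1
    push_cast
    ring
  have h6 : 0 ≤ Real.log ((A.card : ℝ) + B.card + MA.card + MB.card + 2) :=
    Real.log_nonneg (by linarith)
  have hK : (0 : ℝ) ≤ C * D := by positivity
  rw [h5]
  have h7 : (ll (Nat.card V + (MA.card + MB.card)) : ℝ) + 1 +
      Real.log ((A.card : ℝ) + B.card + MA.card + MB.card + 2) ≤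
      3 * ((ll (Nat.card V) : ℝ) + 1 +
        Real.log ((A.card : ℝ) + B.card + MA.card + MB.card + 2)) := by
    linarith
  calc 105200000000000 * C * D * ((ll (Nat.card V + (MA.card + MB.card)) : ℝ) + 1 +
        Real.log ((A.card : ℝ) + B.card + MA.card + MB.card + 2)) =
      105200000000000 * (C * D) * ((ll (Nat.card V + (MA.card + MB.card)) : ℝ) + 1 +
        Real.log ((A.card : ℝ) + B.card + MA.card + MB.card + 2)) := by ring
    _ ≤ 105200000000000 * (C * D) * (3 * ((ll (Nat.card V) : ℝ) + 1 +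
        Real.log ((A.card : ℝ) + B.card + MA.card + MB.card + 2))) :=
      mul_le_mul_of_nonneg_left h7 (by positivity)
    _ ≤ _ := by
      have h8 : (0 : ℝ) ≤ (C * D) * ((ll (Nat.card V) : ℝ) + 1 +
        Real.log ((A.card : ℝ) + B.card + MA.card + MB.card + 2)) := by positivity
      nlinarith

end Vale.Agent.P235.R2.H934
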