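import Vale.Agent.P235.R2.H718.UlgSpec
import Vale.Agent.P235.R2.H718.Desc

/-!
P235-M (helper934), row D of `UlgSpec`: the square metric for growth.
-/

set_option autoImplicit false
set_option linter.all false

namespace Vale.Agent.P235.Ulg

open Vale.Agent.P235

/-- **(D)** -/
theorem rowD : RowD := by
  intro V _ G ℓ hc hℓ T hT hV ι _ _ D hD0 hD
  classical
  by_cases hn0 : Fintype.card ι = 0
  · refine ⟨fun _ _ => 0, IsSq.zero, fun u v huv => ?_, fun x y _ A Q _ _ h => ?_⟩
    · have h1 : 0 ≤ Real.log ((Fintype.card ι : ℝ) + 2) := Real.log_nonneg (by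
        have : (0 : ℝ) ≤ Fintype.card ι := Nat.cast_nonneg _
        linarith)
      positivity
    · have h1 := Finset.card_le_univ Q
      omega
  obtain ⟨n, hn⟩ : ∃ n, n = Fintype.card ι := ⟨_, rfl⟩
  rw [← hn] at hn0
  rw [← hn]
  have hnp : 0 < n := Nat.pos_of_ne_zero hn0
  have hn1 : (1 : ℝ) ≤ n := by exact_mod_cast hnp
  have hlog0 : 0 ≤ Real.log n := Real.log_nonneg hn1
  let q : ℕ → ℕ := fun j => min ⌈((4 : ℝ) / 3) ^ j⌉₊ n
  have hq0 : ∀ j, 0 < q j := fun j => lt_min (Nat.ceil_pos.2 (by positivity)) hnp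
  have hqn : ∀ j, q j ≤ Fintype.card ι := fun j => by
    rw [← hn]
    exact min_le_right _ _
  choose τ hτ0 hτl hτle hτlt using fun j : ℕ => Kpr.orderStat D hD0 hD (hq0 j) (hqn j)
  have hN := fun j : ℕ => hV (fun v => τ j v / 4) (fun v => div_nonneg (hτ0 j v) (by norm_num))
    (fun u v huv => by
      have h1 := hτl j u v huv
      have h2 : τ j u / 4 - τ j v / 4 = (τ j u - τ j v) / 4 := by ring
      have h3 := abs_nonneg (τ j u - τ j v)
      show |τ j u / 4 - τ j v / 4| ≤ _
      rw [h2, abs_div, abs_of_pos (by norm_num : (0 : ℝ) < 4)]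
      linarith)
  choose N hN1 hN2 hN3 using hN
  set J := ⌊4 * Real.log n⌋₊ with hJ
  have hJle : (J : ℝ) ≤ 4 * Real.log n := Nat.floor_le (by positivity)
  refine ⟨fun a b => ∑ j ∈ Finset.range (J + 1), N j a b,
    IsSq.sum (Finset.range (J + 1)) (fun j => N j) fun j _ => hN1 j, fun u v huv => ?_, ?_⟩
  · show ∑ j ∈ Finset.range (J + 1), N j u v ≤ _
    have h2 : ∑ j ∈ Finset.range (J + 1), N j u v ≤ ((J : ℝ) + 1) * (12 * ℓ s(u, v) ^ 2) := by
      refine (Finset.sum_le_sum fun j _ => hN2 j u v huv).trans (le_of_eq ?_)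
      rw [Finset.sum_const, Finset.card_range, nsmul_eq_mul]
      push_cast
      ring
    have h3 := sq_nonneg (ℓ s(u, v))
    have h4 : Real.log n ≤ Real.log ((n : ℝ) + 2) := Real.log_le_log (by linarith) (by linarith)
    have h5 : 1 ≤ Real.log ((n : ℝ) + 2) := by
      rw [Real.le_log_iff_exp_le (by linarith)]
      have := Real.exp_one_lt_d9
      linarith
    have h6 : ((J : ℝ) + 1) * 12 ≤ 100 * Real.log ((n : ℝ) + 2) := by linarith
    have h7 := mul_le_mul_of_nonneg_right h6 h3
    linarith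
  · intro x y hxy A Q hA hQ hAQ
    show pathDist G ℓ x y ^ 2 ≤ 10 ^ 4 * T * ∑ j ∈ Finset.range (J + 1), N j x y
    set d := pathDist G ℓ x y with hdd
    have hQn : Q.card ≤ n := by
      rw [hn]
      exact Finset.card_le_univ Q
    obtain ⟨j, hjJ, hjA, hjQ⟩ : ∃ j ∈ Finset.range (J + 1), A.card < q j ∧ q j ≤ Q.card := by
      have hex : ∃ j : ℕ, (A.card : ℝ) < ((4 : ℝ) / 3) ^ j :=
        pow_unbounded_of_one_lt _ (by norm_num)
      have hs := Nat.find_spec hex
      have hm := fun k (hk : k < Nat.find hex) => Nat.find_min hex hk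
      generalize Nat.find hex = j at hs hm
      have hAn : A.card < n := by omega
      have hAc : A.card < ⌈((4 : ℝ) / 3) ^ j⌉₊ := Nat.lt_ceil.2 hs
      have hpow : ((4 : ℝ) / 3) ^ j ≤ (Q.card : ℝ) := by
        rcases Nat.eq_zero_or_pos j with h0 | h0
        · rw [h0, pow_zero]
          have : 0 < Q.card := by omega
          exact_mod_cast this
        · obtain ⟨k, rfl⟩ := Nat.exists_eq_succ_of_ne_zero h0.ne'
          have h1 := not_lt.1 (hm k (Nat.lt_succ_self k))
          have h2 : (4 : ℝ) * A.card < 3 * Q.card := by exact_mod_cast hAQ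
          rw [pow_succ]
          linarith
      refine ⟨j, ?_, lt_min hAc hAn, (min_le_left _ _).trans (Nat.ceil_le.2 hpow)⟩
      rw [Finset.mem_range, Nat.lt_succ_iff]
      refine Nat.le_floor ?_
      have h1 : ((4 : ℝ) / 3) ^ j ≤ n := hpow.trans (by exact_mod_cast hQn)
      have h2 := Real.log_le_log (by positivity) h1
      rw [Real.log_pow] at h2
      have h3 : (1 : ℝ) / 4 ≤ Real.log (4 / 3) := by
        have := Real.one_sub_inv_le_log_of_pos (by norm_num : (0 : ℝ) < 4 / 3)
        norm_num at this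
        linarith
      have h4 := mul_le_mul_of_nonneg_left h3 (Nat.cast_nonneg j : (0 : ℝ) ≤ j)
      linarith
    have h1 : τ j x ≤ 5 * d := hτle j x (5 * d) Q hQ hjQ
    have h2 : d / 16 < τ j x := by
      refine hτlt j x (d / 16) fun A' hA' => ?_
      exact (Finset.card_le_card fun i hi => hA i (hA' i hi)).trans_lt hjA
    have h3 := hN3 j x y (by show 0 < τ j x / 4; linarith) (by
      show τ j x / 4 ≤ 2 * d
      linarith)
    have h4 : N j x y ≤ ∑ j ∈ Finset.range (J + 1), N j x y :=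
      Finset.single_le_sum (f := fun j => N j x y) (fun j _ => (hN1 j).nonneg x y) hjJ
    have h5 : (d / 64) ^ 2 ≤ (τ j x / 4) ^ 2 :=
      pow_le_pow_left₀ (by positivity) (by linarith) 2
    have h6 : (τ j x / 4) ^ 2 ≤ T * N j x y := h3
    have h7 := mul_le_mul_of_nonneg_left h4 (by linarith : (0 : ℝ) ≤ T)
    have h8 := (hN1 j).nonneg x y
    have h9 : 0 ≤ T * N j x y := mul_nonneg (by linarith) h8
    have e : (d / 64) ^ 2 = d ^ 2 / 4096 := by ring
    rw [e] at h5
    linarith

end Vale.Agent.P235.Ulg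

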