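import Vale.Agent.P235.R2.H802.T4All
import Vale.Agent.P235.R2.H934.Multi4

/-!
P235-M (helper934): `plane_all` with one source face.
-/

set_option autoImplicit false
set_option linter.all false

namespace Vale.Agent.P235.R2.H934

open SimpleGraph
open Vale.Agent.P235 Vale.Agent.P235.Red Vale.Agent.P235.H341W Vale.Agent.P235.Red.W3
open Vale.Agent.P235.R2.H582 (cD)

/-- **One source face.**  `G` plane, `h` nonexpansive, every vertex off the face of `d₁` has an edge
downwards of slope at least `1/D`, every vertex which is not in `B` and not on a face of `M` has an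
edge upwards of slope at least `1/D`; all other edges are arbitrary. -/
theorem face_source {C : ℝ} (hC : 1 ≤ C) (hMS : MStarLL C) (V : Type) [Finite V]
    (G : SimpleGraph V) (σ : Equiv.Perm G.Dart) (ℓ : Sym2 V → ℝ) (h : V → ℝ) (d₁ : G.Dart)
    (D : ℝ) (M : Finset G.Dart) (B : Finset V) (hD : 1 ≤ D) (hc : G.Connected)
    (hP : PlaneMap G σ) (hℓ : ∀ e ∈ G.edgeSet, 0 < ℓ e)
    (h1 : ∀ u v, G.Adj u v → |h u - h v| ≤ ℓ s(u, v))
    (hsep : ∀ m ∈ M, ¬ (faceNext σ).SameCycle d₁ m)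
    (hlow : ∀ v, v ∉ onFace σ d₁ → ∃ u, G.Adj v u ∧ ℓ s(v, u) ≤ D * (h v - h u))
    (hhigh : ∀ v, (∃ u, G.Adj v u ∧ ℓ s(v, u) ≤ D * (h u - h v)) ∨ v ∈ B ∨
      ∃ m ∈ M, v ∈ onFace σ m) :
    EmbedsL1 (pathDist G ℓ) (4 * (10 ^ 9 * 1000000000000000) * C * D *
      ((ll (Nat.card V) : ℝ) + 3 + √(Real.log ((B.card + M.card : ℕ) + 2)))) := by
  classical
  have hne : Nonempty V := ⟨d₁.fst⟩
  have hT : (onFace σ d₁).Nonempty := ⟨d₁.fst, d₁, Equiv.Perm.SameCycle.refl _ _, rfl⟩
  have hW : Wide G ℓ h D (onFace σ d₁) ((B : Set V) ∪ ⋃ m ∈ M, onFace σ m) := by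
    refine ⟨hc, hℓ, h1, hlow, fun v hv => ?_⟩
    rcases hhigh v with k | k | ⟨m, hm, k⟩
    · exact k
    · exact absurd (Or.inl k) hv
    · exact absurd (Or.inr (Set.mem_iUnion₂.2 ⟨m, hm, k⟩)) hv
  obtain ⟨R, H, e1, e2⟩ := exists_height G ℓ (fun v => - h v)
  have hW' := (hW.neg.cap hD hT e1 e2).neg
  obtain ⟨σ', hP', hF⟩ := cap_faces hP d₁
  have hE := SqR.plane_all hC hMS (Option V) (capG G (onFace σ d₁)) σ'
    (capL ℓ (fun v => - h v) H) (fun v => - capH (fun v => - h v) H v) none D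
    (M.image (cD G (onFace σ d₁))) (B.image some) hD hW'.conn hP' hW'.pos hW'.lip
    (fun v hv => hW'.low v hv) (by
      intro v
      by_cases hv : v ∈ some '' ((B : Set V) ∪ ⋃ m ∈ M, onFace σ m)
      · right
        obtain ⟨w, hw | hw, rfl⟩ := hv
        · exact Or.inl (Finset.mem_image_of_mem some hw)
        · obtain ⟨m, hm, hw⟩ := Set.mem_iUnion₂.1 hw
          exact Or.inr ⟨_, Finset.mem_image_of_mem _ hm, ((hF m (hsep m hm)).1 w).1 hw⟩
      · exact Or.inl (hW'.high v hv))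
  have hE' := Tight.embeds_restrict some
    (fun x y => cap_dist hc hℓ hT e1 e2 x y) hE
  rw [Finite.card_option] at hE'
  refine R2.H582.embeds_mono (pd_nonneg hℓ) ?_ hE'
  have k1 : (ll (Nat.card V + 1) : ℝ) ≤ ll (Nat.card V) + 2 := by
    have h3 := ll_add (Nat.card V) 1
    have h4 : ll 1 = 0 := by
      unfold ll
      simp
    have h5 : ll (Nat.card V + 1) ≤ ll (Nat.card V) + 2 := by omega
    exact_mod_cast h5
  have k2 : √(Real.log ((((B.image some).card + (M.image (cD G (onFace σ d₁))).card : ℕ) : ℝ) + 2))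
      ≤ √(Real.log (((B.card + M.card : ℕ) : ℝ) + 2)) := by
    refine Real.sqrt_le_sqrt (Real.log_le_log (by positivity) ?_)
    have h3 : (B.image some).card + (M.image (cD G (onFace σ d₁))).card ≤ B.card + M.card :=
      Nat.add_le_add Finset.card_image_le Finset.card_image_le
    have h4 : (((B.image some).card + (M.image (cD G (onFace σ d₁))).card : ℕ) : ℝ) ≤
      ((B.card + M.card : ℕ) : ℝ) := by exact_mod_cast h3
    linarith
  have k3 : (0 : ℝ) ≤ 4 * (10 ^ 9 * 1000000000000000) * C * D := by positivity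
  exact mul_le_mul_of_nonneg_left (by linarith) k3

end Vale.Agent.P235.R2.H934
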