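import Vale.Agent.P235.R2.H341.KrSpec

/-!
P235-M (helper934), row K3 of `KrSpec`: random partitions.
-/

set_option autoImplicit false
set_option linter.all false

namespace Vale.Agent.P235.Kr.H934

open SimpleGraph Vale.Agent.P235 Vale.Agent.P235.Kpr Vale.Agent.P235.Kr

theorem ncard_sum {α : Type} [Fintype α] (p : α → Prop) [DecidablePred p] :
    (({x | p x} : Set α).ncard : ℝ) = ∑ x, if p x then (1 : ℝ) else 0 := by
  rw [Set.ncard_eq_toFinset_card', Set.toFinset_ofPred, Finset.card_filter]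
  push_cast
  rfl

theorem tree (h2 : RowPot) (h3 : RowCount) {V : Type} [Finite V] {G : SimpleGraph V}
    {ℓ : Sym2 V → ℝ} (hℓ : ∀ e ∈ G.edgeSet, 0 < ℓ e) {Δ : ℝ} {N : ℕ} (hΔ : 0 < Δ) (hN : 0 < N)
    (n : ℕ) : ∀ H : SimpleGraph V, H ≤ G →
      ∃ K : (Fin n → Fin N) → SimpleGraph V, (∀ ω, Chopped ℓ Δ n H (K ω)) ∧
        ∀ u v, H.Adj u v → ({ω | ¬ (K ω).Adj u v}.ncard : ℝ) ≤
          n * (N : ℝ) ^ n * (ℓ s(u, v) / Δ + 1 / N) := by
  classical
  have hNR : (0 : ℝ) < N := by exact_mod_cast hN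
  induction n with
  | zero =>
    intro H _
    refine ⟨fun _ => H, fun _ => .zero H, fun u v huv => ?_⟩
    simp [huv]
  | succ n ih =>
    intro H hH
    obtain ⟨f, r, hP⟩ := h2 V H ℓ (fun e he => hℓ e (edgeSet_mono hH he))
    have e1 := fun a : Fin N => ih (chop H f Δ ((a : ℕ) * Δ / N)) (fun _ _ h => hH h.1)
    choose K hK1 hK2 using e1
    refine ⟨fun ω => K (ω 0) (Fin.tail ω), fun ω => .succ f r _ hP (hK1 _ _), fun u v huv => ?_⟩
    have hl0 : 0 < ℓ s(u, v) := hℓ _ (hH huv)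
    set q : ℝ := ℓ s(u, v) / Δ + 1 / N with hq
    have hq0 : 0 ≤ q := by positivity
    have hcnt : ∑ a : Fin N, (if slab f Δ ((a : ℕ) * Δ / N) u ≠ slab f Δ ((a : ℕ) * Δ / N) v
        then (1 : ℝ) else 0) ≤ N * q := by
      have h4 := h3 (f u) (f v) (ℓ s(u, v)) Δ N (hP.lip u v huv) hΔ hN
      rw [ncard_sum] at h4
      refine h4.trans (le_of_eq ?_)
      rw [hq]
      field_simp
    have hone : ∀ a : Fin N, ∑ ω : Fin n → Fin N, (if ¬ (K a ω).Adj u v then (1 : ℝ) else 0) ≤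
        n * (N : ℝ) ^ n * q + (N : ℝ) ^ n * (if slab f Δ ((a : ℕ) * Δ / N) u ≠
          slab f Δ ((a : ℕ) * Δ / N) v then (1 : ℝ) else 0) := by
      intro a
      by_cases ha : slab f Δ ((a : ℕ) * Δ / N) u = slab f Δ ((a : ℕ) * Δ / N) v
      · have h4 := hK2 a u v ⟨huv, ha⟩
        rw [ncard_sum] at h4
        rw [if_neg (not_not.2 ha), mul_zero, add_zero]
        exact h4
      · rw [if_pos ha, mul_one]
        have h4 : ∑ ω : Fin n → Fin N, (if ¬ (K a ω).Adj u v then (1 : ℝ) else 0) ≤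
            ∑ _ω : Fin n → Fin N, (1 : ℝ) :=
          Finset.sum_le_sum fun ω _ => by split_ifs <;> norm_num
        have h5 : ∑ _ω : Fin n → Fin N, (1 : ℝ) = (N : ℝ) ^ n := by simp
        have h6 : (0 : ℝ) ≤ n * (N : ℝ) ^ n * q := by positivity
        linarith
    rw [ncard_sum, ← (Fin.consEquiv (fun _ : Fin (n + 1) => Fin N)).sum_comp]
    rw [Fintype.sum_prod_type]
    have h5 : ∀ a : Fin N, ∑ ω : Fin n → Fin N, (if ¬ (K ((Fin.consEquiv
        (fun _ : Fin (n + 1) => Fin N)) (a, ω) 0) (Fin.tail ((Fin.consEquiv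
        (fun _ : Fin (n + 1) => Fin N)) (a, ω)))).Adj u v then (1 : ℝ) else 0) =
        ∑ ω : Fin n → Fin N, (if ¬ (K a ω).Adj u v then (1 : ℝ) else 0) := by
      intro a
      refine Finset.sum_congr rfl fun ω _ => ?_
      rfl
    rw [Finset.sum_congr rfl fun a _ => h5 a]
    refine (Finset.sum_le_sum fun a _ => hone a).trans ?_
    have h6 := mul_le_mul_of_nonneg_left hcnt (by positivity : (0 : ℝ) ≤ (N : ℝ) ^ n)
    rw [Finset.mul_sum] at h6
    rw [Finset.sum_add_distrib]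
    simp only [Finset.sum_const, Finset.card_univ, Fintype.card_fin, nsmul_eq_mul]
    push_cast
    rw [pow_succ]
    nlinarith

/-- **(K3)** -/
theorem rowK3 (h2 : RowPot) (h3 : RowCount) (h5 : RowK2) : RowK3 := by
  intro V _ G ℓ r hc hno hℓ Δ N hΔ hN
  classical
  let S : SimpleGraph V :=
    { Adj := fun u v => G.Adj u v ∧ ℓ s(u, v) ≤ Δ
      symm := ⟨fun _ _ h => ⟨h.1.symm, by rw [Sym2.eq_swap]; exact h.2⟩⟩
      loopless := ⟨fun _ h => h.1.ne rfl⟩ }
  have hS : S ≤ G := fun _ _ h => h.1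
  obtain ⟨K, hK1, hK2⟩ := tree h2 h3 hℓ hΔ hN (r + 2) S hS
  have hout : ∀ ω v, (K ω).connectedComponentMk (Quot.out ((K ω).connectedComponentMk v)) =
      (K ω).connectedComponentMk v := fun ω v => Quot.out_eq _
  refine ⟨fun ω v => Quot.out ((K ω).connectedComponentMk v), ?_, ?_⟩
  · intro ω u v huv
    have hr : (K ω).Reachable u v := by
      apply SimpleGraph.ConnectedComponent.exact
      have h1 := hout ω u
      have h2 := hout ω v
      have h3 : Quot.out ((K ω).connectedComponentMk u) =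
        Quot.out ((K ω).connectedComponentMk v) := huv
      rw [← h1, ← h2, h3]
    exact h5 V G S (K ω) ℓ Δ r hc hno hℓ hS hΔ (fun _ _ h => h.2) (hK1 ω) u v hr
  · intro u v huv
    have hNR : (0 : ℝ) < N := by exact_mod_cast hN
    have hl0 : 0 < ℓ s(u, v) := hℓ _ huv
    by_cases hs : ℓ s(u, v) ≤ Δ
    · have h1 := hK2 u v ⟨huv, hs⟩
      have h4 : (({ω | Quot.out ((K ω).connectedComponentMk u) ≠
          Quot.out ((K ω).connectedComponentMk v)} : Set (Fin (r + 2) → Fin N)).ncard : ℝ) ≤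
          ({ω | ¬ (K ω).Adj u v}.ncard : ℝ) := by
        refine Nat.cast_le.2 (Set.ncard_le_ncard ?_ (Set.toFinite _))
        intro ω hω hadj
        exact hω (by rw [SimpleGraph.ConnectedComponent.sound hadj.reachable])
      refine h4.trans (h1.trans (le_of_eq ?_))
      push_cast
      ring
    · push Not at hs
      have h1 : (({ω | Quot.out ((K ω).connectedComponentMk u) ≠
          Quot.out ((K ω).connectedComponentMk v)} : Set (Fin (r + 2) → Fin N)).ncard : ℝ) ≤
          (N : ℝ) ^ (r + 2) := by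
        have h4 := Set.ncard_le_card ({ω | Quot.out ((K ω).connectedComponentMk u) ≠
          Quot.out ((K ω).connectedComponentMk v)} : Set (Fin (r + 2) → Fin N))
        rw [Nat.card_eq_fintype_card, Fintype.card_fun, Fintype.card_fin, Fintype.card_fin] at h4
        exact_mod_cast h4
      refine h1.trans ?_
      have h2 : 1 ≤ ℓ s(u, v) / Δ := by rw [le_div_iff₀ hΔ]; linarith
      have h3 : (0 : ℝ) ≤ 1 / N := by positivity
      have h4 : (0 : ℝ) < (N : ℝ) ^ (r + 2) := by positivity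
      have hr : (0 : ℝ) ≤ r := Nat.cast_nonneg _
      have h5 : (1 : ℝ) ≤ ((r : ℝ) + 2) * (ℓ s(u, v) / Δ + 1 / N) := by nlinarith
      calc (N : ℝ) ^ (r + 2) = 1 * (N : ℝ) ^ (r + 2) := (one_mul _).symm
        _ ≤ (((r : ℝ) + 2) * (ℓ s(u, v) / Δ + 1 / N)) * (N : ℝ) ^ (r + 2) :=
          mul_le_mul_of_nonneg_right h5 h4.le
        _ = _ := by ring

end Vale.Agent.P235.Kr.H934

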