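import Vale.Agent.P235.R2.H611.QDefs
import Vale.Agent.P235.R2.H611.StarMetric

/-!
P235-M (helper934): many local maxima and minima, arbitrary slack edges.  Part 1: finite orders
without three incomparable elements are unions of two chains; in a plane graph the vertices below
`j` which have a neighbour below `k` and not below `j` are a union of two chains.
-/

set_option autoImplicit false
set_option linter.all false

namespace Vale.Agent.P235.R2.H934

open Relation SimpleGraph Vale.Agent.P235.Quo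

/-! ## two chains -/

/-- a finite order without three pairwise incomparable elements is a union of two chains -/
theorem two_chains {V : Type} (R : V → V → Prop) (hr : ∀ a, R a a)
    (ht : ∀ a b c, R a b → R b c → R a c) (ha : ∀ a b, R a b → R b a → a = b) :
    ∀ (n : ℕ) (C : Finset V), C.card = n →
      (∀ a ∈ C, ∀ b ∈ C, ∀ c ∈ C, R a b ∨ R b a ∨ R a c ∨ R c a ∨ R b c ∨ R c b) →
      ∃ P Q : Finset V, (∀ x ∈ C, x ∈ P ∨ x ∈ Q) ∧ (∀ x, x ∈ P ∨ x ∈ Q → x ∈ C) ∧
        (∀ x ∈ P, ∀ y ∈ P, R x y ∨ R y x) ∧ ∀ x ∈ Q, ∀ y ∈ Q, R x y ∨ R y x := by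
  classical
  intro n
  induction n using Nat.strong_induction_on with
  | _ n ih =>
  intro C hCn hC
  rcases C.eq_empty_or_nonempty with rfl | hne
  · exact ⟨∅, ∅, by simp, by simp, by simp, by simp⟩
  -- a maximal element
  have hmax : ∃ x ∈ C, ∀ y ∈ C, R x y → y = x := by
    have hwf : ∀ (m : ℕ) (x : V), x ∈ C → (C.filter fun y => R x y).card ≤ m →
        ∃ x ∈ C, ∀ y ∈ C, R x y → y = x := by
      intro m
      induction m with
      | zero =>
        intro x hx hm
        have : x ∈ C.filter fun y => R x y := Finset.mem_filter.2 ⟨hx, hr x⟩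
        rw [Finset.card_eq_zero.1 (Nat.le_zero.1 hm)] at this
        exact absurd this (Finset.notMem_empty _)
      | succ m ihm =>
        intro x hx hm
        by_cases h : ∀ y ∈ C, R x y → y = x
        · exact ⟨x, hx, h⟩
        push Not at h
        obtain ⟨y, hy, hxy, hne'⟩ := h
        refine ihm y hy ?_
        have hlt : (C.filter fun z => R y z).card < (C.filter fun z => R x z).card := by
          refine Finset.card_lt_card ⟨fun z hz => ?_, fun hsub => ?_⟩
          · rw [Finset.mem_filter] at hz ⊢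
            exact ⟨hz.1, ht _ _ _ hxy hz.2⟩
          · have h1 := hsub (Finset.mem_filter.2 ⟨hx, hr x⟩)
            exact hne' (ha _ _ (Finset.mem_filter.1 h1).2 hxy)
        omega
    obtain ⟨x, hx⟩ := hne
    exact hwf _ x hx le_rfl
  obtain ⟨x, hx, hxm⟩ := hmax
  set D := C.filter fun y => R y x ∧ y ≠ x with hD
  set N := C.filter fun y => ¬ R y x with hN
  have hNx : ∀ y ∈ N, ¬ R x y := by
    intro y hy hxy
    rw [hN, Finset.mem_filter] at hy
    exact hy.2 (hxm y hy.1 hxy ▸ hr _)
  have hNc : ∀ y ∈ N, ∀ z ∈ N, R y z ∨ R z y := by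
    intro y hy z hz
    have hy' := hNx y hy
    have hz' := hNx z hz
    rw [hN, Finset.mem_filter] at hy hz
    rcases hC y hy.1 z hz.1 x hx with h | h | h | h | h | h
    · exact Or.inl h
    · exact Or.inr h
    · exact absurd h hy.2
    · exact absurd h hy'
    · exact absurd h hz.2
    · exact absurd h hz'
  have hcov : ∀ y ∈ C, y ∈ D ∨ y ∈ N ∨ y = x := by
    intro y hy
    by_cases h1 : R y x
    · by_cases h2 : y = x
      · exact Or.inr (Or.inr h2)
      · exact Or.inl (Finset.mem_filter.2 ⟨hy, h1, h2⟩)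
    · exact Or.inr (Or.inl (Finset.mem_filter.2 ⟨hy, h1⟩))
  rcases N.eq_empty_or_nonempty with hNe | hNne
  · -- everything below `x`
    have hlt : D.card < n := by
      rw [← hCn]
      refine Finset.card_lt_card ⟨Finset.filter_subset _ _, fun hsub => ?_⟩
      exact (Finset.mem_filter.1 (hsub hx)).2.2 rfl
    obtain ⟨P, Q, h1, h2, h3, h4⟩ := ih _ hlt D rfl fun a ha b hb c hc =>
      hC a (Finset.mem_filter.1 ha).1 b (Finset.mem_filter.1 hb).1 c (Finset.mem_filter.1 hc).1
    have hPx : ∀ y ∈ P, R y x := fun y hy => (Finset.mem_filter.1 (h2 y (Or.inl hy))).2.1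
    refine ⟨insert x P, Q, ?_, ?_, ?_, h4⟩
    · intro y hy
      rcases hcov y hy with h5 | h5 | rfl
      · rcases h1 y h5 with h6 | h6
        · exact Or.inl (Finset.mem_insert_of_mem h6)
        · exact Or.inr h6
      · rw [hNe] at h5
        exact absurd h5 (Finset.notMem_empty _)
      · exact Or.inl (Finset.mem_insert_self _ _)
    · rintro y (h5 | h5)
      · rcases Finset.mem_insert.1 h5 with rfl | h6
        · exact hx
        · exact (Finset.mem_filter.1 (h2 y (Or.inl h6))).1
      · exact (Finset.mem_filter.1 (h2 y (Or.inr h5))).1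
    · intro y hy z hz
      rcases Finset.mem_insert.1 hy with e1 | g1 <;> rcases Finset.mem_insert.1 hz with e2 | g2
      · rw [e1, e2]
        exact Or.inl (hr _)
      · rw [e1]
        exact Or.inr (hPx _ g2)
      · rw [e2]
        exact Or.inl (hPx _ g1)
      · exact h3 y g1 z g2
  -- the lowest element which is not below `x`
  have hmin : ∃ z ∈ N, ∀ y ∈ N, R z y := by
    have hwf : ∀ (m : ℕ) (z : V), z ∈ N → (N.filter fun y => R y z).card ≤ m →
        ∃ z ∈ N, ∀ y ∈ N, R z y := by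
      intro m
      induction m with
      | zero =>
        intro z hz hm
        have : z ∈ N.filter fun y => R y z := Finset.mem_filter.2 ⟨hz, hr z⟩
        rw [Finset.card_eq_zero.1 (Nat.le_zero.1 hm)] at this
        exact absurd this (Finset.notMem_empty _)
      | succ m ihm =>
        intro z hz hm
        by_cases h : ∀ y ∈ N, R z y
        · exact ⟨z, hz, h⟩
        push Not at h
        obtain ⟨y, hy, hzy⟩ := h
        have hyz : R y z := (hNc z hz y hy).resolve_left hzy
        refine ihm y hy ?_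
        have hlt : (N.filter fun w => R w y).card < (N.filter fun w => R w z).card := by
          refine Finset.card_lt_card ⟨fun w hw => ?_, fun hsub => ?_⟩
          · rw [Finset.mem_filter] at hw ⊢
            exact ⟨hw.1, ht _ _ _ hw.2 hyz⟩
          · have h1 := hsub (Finset.mem_filter.2 ⟨hz, hr z⟩)
            exact hzy (Finset.mem_filter.1 h1).2
        omega
    obtain ⟨z, hz⟩ := hNne
    exact hwf _ z hz le_rfl
  obtain ⟨z, hz, hzm⟩ := hmin
  have hzC : z ∈ C := (Finset.mem_filter.1 hz).1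
  have hzx : ¬ R z x := (Finset.mem_filter.1 hz).2
  have hzx' : z ≠ x := fun h => hzx (h ▸ hr _)
  have hsubC : ∀ a ∈ insert z D, a ∈ C := by
    intro a ha
    rcases Finset.mem_insert.1 ha with rfl | h
    · exact hzC
    · exact (Finset.mem_filter.1 h).1
  have hlt : (insert z D).card < n := by
    rw [← hCn]
    refine Finset.card_lt_card ⟨fun a ha => hsubC a ha, fun hsub => ?_⟩
    rcases Finset.mem_insert.1 (hsub hx) with h | h
    · exact hzx' h.symm
    · exact (Finset.mem_filter.1 h).2.2 rfl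
  obtain ⟨P, Q, h1, h2, h3, h4⟩ := ih _ hlt (insert z D) rfl fun a ha b hb c hc =>
    hC a (hsubC a ha) b (hsubC b hb) c (hsubC c hc)
  -- put `z` into the second chain
  have key : ∀ P Q : Finset V, (∀ x ∈ insert z D, x ∈ P ∨ x ∈ Q) →
      (∀ x, x ∈ P ∨ x ∈ Q → x ∈ insert z D) → (∀ x ∈ P, ∀ y ∈ P, R x y ∨ R y x) →
      (∀ x ∈ Q, ∀ y ∈ Q, R x y ∨ R y x) → z ∈ Q →
      ∃ P Q : Finset V, (∀ x ∈ C, x ∈ P ∨ x ∈ Q) ∧ (∀ x, x ∈ P ∨ x ∈ Q → x ∈ C) ∧
        (∀ x ∈ P, ∀ y ∈ P, R x y ∨ R y x) ∧ ∀ x ∈ Q, ∀ y ∈ Q, R x y ∨ R y x := by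
    intro P Q h1 h2 h3 h4 hzQ
    have hPx : ∀ y ∈ P, y ≠ z → R y x := fun y hy hyz =>
      (Finset.mem_filter.1 ((Finset.mem_insert.1 (h2 y (Or.inl hy))).resolve_left hyz)).2.1
    have hQz : ∀ y ∈ Q, R y z := by
      intro y hy
      rcases Finset.mem_insert.1 (h2 y (Or.inr hy)) with rfl | h5
      · exact hr _
      · rcases h4 y hy z hzQ with h6 | h6
        · exact h6
        · exact absurd (ht _ _ _ h6 (Finset.mem_filter.1 h5).2.1) hzx
    refine ⟨insert x (P.erase z), Q ∪ N, ?_, ?_, ?_, ?_⟩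
    · intro y hy
      rcases hcov y hy with h5 | h5 | rfl
      · by_cases hyz : y = z
        · rw [hyz]
          exact Or.inr (Finset.mem_union_left _ hzQ)
        rcases h1 y (Finset.mem_insert_of_mem h5) with h6 | h6
        · exact Or.inl (Finset.mem_insert_of_mem (Finset.mem_erase.2 ⟨hyz, h6⟩))
        · exact Or.inr (Finset.mem_union_left _ h6)
      · exact Or.inr (Finset.mem_union_right _ h5)
      · exact Or.inl (Finset.mem_insert_self _ _)
    · rintro y (h5 | h5)
      · rcases Finset.mem_insert.1 h5 with rfl | h6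
        · exact hx
        · exact hsubC y (h2 y (Or.inl (Finset.mem_erase.1 h6).2))
      · rcases Finset.mem_union.1 h5 with h6 | h6
        · exact hsubC y (h2 y (Or.inr h6))
        · exact (Finset.mem_filter.1 h6).1
    · intro y hy w hw
      rcases Finset.mem_insert.1 hy with e1 | g1 <;> rcases Finset.mem_insert.1 hw with e2 | g2
      · rw [e1, e2]
        exact Or.inl (hr _)
      · rw [e1]
        exact Or.inr (hPx _ (Finset.mem_erase.1 g2).2 (Finset.mem_erase.1 g2).1)
      · rw [e2]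
        exact Or.inl (hPx _ (Finset.mem_erase.1 g1).2 (Finset.mem_erase.1 g1).1)
      · exact h3 y (Finset.mem_erase.1 g1).2 w (Finset.mem_erase.1 g2).2
    · intro y hy w hw
      rcases Finset.mem_union.1 hy with hy | hy <;> rcases Finset.mem_union.1 hw with hw | hw
      · exact h4 y hy w hw
      · exact Or.inl (ht _ _ _ (hQz y hy) (hzm w hw))
      · exact Or.inr (ht _ _ _ (hQz w hw) (hzm y hy))
      · exact hNc y hy w hw
  rcases h1 z (Finset.mem_insert_self _ _) with hzP | hzQ
  · exact key Q P (fun x hx => (h1 x hx).symm) (fun x hx => h2 x hx.symm) h4 h3 hzP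
  · exact key P Q h1 h2 h3 h4 hzQ

/-! ## the order -/

/-- `b` can be reached from `a` along an ascending path of steep edges -/
def Asc {V : Type} (E : V → V → Prop) (h : V → ℝ) : V → V → Prop :=
  ReflTransGen fun x y => E x y ∧ h x < h y

section order

variable {V : Type} {E : V → V → Prop} {h : V → ℝ}

theorem Asc.eq_or_lt {a b : V} (hab : Asc E h a b) : a = b ∨ h a < h b := by
  induction hab with
  | refl => exact Or.inl rfl
  | tail _ e ih =>
    right
    rcases ih with rfl | ih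
    · exact e.2
    · exact ih.trans e.2

theorem Asc.antisymm {a b : V} (h1 : Asc E h a b) (h2 : Asc E h b a) : a = b := by
  rcases h1.eq_or_lt with h3 | h3
  · exact h3
  · rcases h2.eq_or_lt with h4 | h4
    · exact h4.symm
    · exact absurd h3 (not_lt.2 h4.le)

theorem Asc.head {a b : V} (hab : Asc E h a b) (hne : a ≠ b) :
    ∃ w, E a w ∧ h a < h w ∧ Asc E h w b := by
  rcases ReflTransGen.cases_head hab with h1 | ⟨w, h1, h2⟩
  · exact absurd h1 hne
  · exact ⟨w, h1.1, h1.2, h2⟩

theorem Asc.last {a b : V} (hab : Asc E h a b) (hne : b ≠ a) :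
    ∃ w, E w b ∧ h w < h b ∧ Asc E h a w := by
  rcases ReflTransGen.cases_tail hab with h1 | ⟨w, h1, h2⟩
  · exact absurd h1 hne
  · exact ⟨w, h2.1, h2.2, h1⟩

theorem Asc.neg (hE : ∀ u v, E u v → E v u) {a b : V} (hab : Asc E h a b) :
    Asc E (fun v => - h v) b a := by
  induction hab with
  | refl => exact ReflTransGen.refl
  | tail _ e ih => exact ReflTransGen.head ⟨hE _ _ e.1, neg_lt_neg e.2⟩ ih

theorem Asc.of_neg (hE : ∀ u v, E u v → E v u) {a b : V} (hab : Asc E (fun v => - h v) a b) :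
    Asc E h b a := by
  have h1 := hab.neg hE
  simpa using h1

/-- every vertex is below a top -/
theorem exists_top [Finite V] {B : Set V} (hB : ∀ v, v ∉ B → ∃ u, E v u ∧ h v < h u) (v : V) :
    ∃ j ∈ B, Asc E h v j := by
  induction v using (Vale.Agent.P235.Tight.wf_h h).induction with
  | _ v ih =>
    by_cases hv : v ∈ B
    · exact ⟨v, hv, ReflTransGen.refl⟩
    · obtain ⟨u, hu, hlt⟩ := hB v hv
      obtain ⟨j, hj, h1⟩ := ih u hlt
      exact ⟨j, hj, ReflTransGen.head ⟨hu, hlt⟩ h1⟩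

end order

/-- a set in which every vertex but `j` has a higher neighbour is connected -/
theorem conn_asc {V : Type} [Finite V] {G : SimpleGraph V} {S : Set V} {h : V → ℝ} {j : V}
    (hj : j ∈ S) (hS : ∀ v ∈ S, v ≠ j → ∃ w ∈ S, G.Adj v w ∧ h v < h w) :
    (G.induce S).Connected :=
  Vale.Agent.P235.Tight.conn_of_up (t := (⟨j, hj⟩ : S)) (h := fun v : S => h v) fun v hv => by
    obtain ⟨w, hw, h1, h2⟩ := hS v.1 v.2 fun k => hv (Subtype.ext k)
    exact ⟨⟨w, hw⟩, h1, h2⟩

/-- **three pairwise incomparable vertices between `i` and `j` with neighbours below `k` and not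
below `j` give a minor `K_{3,3}`** -/
theorem no_three (hK : RowK33) {V : Type} [Finite V] {G : SimpleGraph V} (hc : G.Connected)
    (hP : ∃ σ : Equiv.Perm G.Dart, PlaneMap G σ) {E : V → V → Prop} {h : V → ℝ}
    (hE : ∀ u v, E u v → G.Adj u v) {i j k : V} (c d : Fin 3 → V)
    (hic : ∀ m, Asc E h i (c m)) (hcj : ∀ m, Asc E h (c m) j) (hcd : ∀ m, G.Adj (c m) (d m))
    (hdk : ∀ m, Asc E h (d m) k) (hdj : ∀ m, ¬ Asc E h (d m) j)
    (hinc : ∀ m n, m ≠ n → ¬ Asc E h (c m) (c n)) : False := by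
  have hlt : ∀ {a b : V}, Asc E h a b → a ≠ b → h a < h b := fun hab hne =>
    hab.eq_or_lt.resolve_left hne
  have hex : ∀ m : Fin 3, ∃ n, m ≠ n := fun m => ⟨m + 1, by fin_cases m <;> decide⟩
  have hcj' : ∀ m, c m ≠ j := by
    intro m e
    obtain ⟨n, hn⟩ := hex m
    exact hinc n m hn.symm (e ▸ hcj n)
  have hci' : ∀ m, c m ≠ i := by
    intro m e
    obtain ⟨n, hn⟩ := hex m
    exact hinc m n hn (e ▸ hic n)
  have hstrict : ∀ m n, Asc E h (c m) (c n) → c m ≠ c n → False := by
    intro m n h1 h2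
    refine hinc m n (fun e => h2 (e ▸ rfl)) h1
  -- the three connected sets
  let U : Set V := {v | Asc E h v j ∧ ∃ m, Asc E h (c m) v ∧ v ≠ c m}
  let W : Set V := {v | Asc E h i v ∧ ∃ m, Asc E h v (c m) ∧ v ≠ c m}
  let Y : Set V := {v | Asc E h v k ∧ ∃ m, Asc E h (d m) v}
  have hU : (G.induce U).Connected := by
    refine conn_asc (h := h) (j := j) ⟨ReflTransGen.refl, 0, hcj 0, (hcj' 0).symm⟩ ?_
    rintro v ⟨h1, m, h2, h3⟩ hv
    obtain ⟨w, hw, hvw, hwj⟩ := h1.head hv
    have h4 : Asc E h (c m) w := h2.tail ⟨hw, hvw⟩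
    refine ⟨w, ⟨hwj, m, h4, ?_⟩, hE _ _ hw, hvw⟩
    rintro rfl
    have := hlt h2 h3.symm
    linarith
  have hW : (G.induce W).Connected := by
    refine conn_asc (h := fun v => - h v) (j := i) ⟨ReflTransGen.refl, 0, hic 0, (hci' 0).symm⟩ ?_
    rintro v ⟨h1, m, h2, h3⟩ hv
    obtain ⟨w, hw, hvw, hwj⟩ := h1.last hv
    have h4 : Asc E h w (c m) := ReflTransGen.head ⟨hw, hvw⟩ h2
    refine ⟨w, ⟨hwj, m, h4, ?_⟩, (hE _ _ hw).symm, neg_lt_neg hvw⟩
    rintro rfl
    have := hlt h2 h3
    linarith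
  have hY : (G.induce Y).Connected := by
    refine conn_asc (h := h) (j := k) ⟨ReflTransGen.refl, 0, hdk 0⟩ ?_
    rintro v ⟨h1, m, h2⟩ hv
    obtain ⟨w, hw, hvw, hwj⟩ := h1.head hv
    exact ⟨w, ⟨hwj, m, h2.tail ⟨hw, hvw⟩⟩, hE _ _ hw, hvw⟩
  have dUW : Disjoint U W := by
    rw [Set.disjoint_left]
    rintro v ⟨-, m, h1, h2⟩ ⟨-, n, h3, h4⟩
    have h5 := hlt h1 h2.symm
    have h6 := hlt h3 h4
    refine hstrict m n (h1.trans h3) (fun e => ?_)
    rw [e] at h5
    linarith
  have dUY : Disjoint U Y := by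
    rw [Set.disjoint_left]
    rintro v ⟨h1, -⟩ ⟨-, n, h3⟩
    exact hdj n (h3.trans h1)
  have dWY : Disjoint W Y := by
    rw [Set.disjoint_left]
    rintro v ⟨-, m, h1, -⟩ ⟨-, n, h3⟩
    exact hdj n (h3.trans (h1.trans (hcj m)))
  refine hK V G hc hP c ![U, W, Y] ?_ ?_ ?_ ?_ ?_
  · intro m n hmn
    by_contra hne
    exact hinc m n hne (hmn ▸ ReflTransGen.refl)
  · intro m
    fin_cases m
    · exact hU
    · exact hW
    · exact hY
  · intro m n hmn
    fin_cases m <;> fin_cases n
    · exact absurd rfl hmn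
    · exact dUW
    · exact dUY
    · exact dUW.symm
    · exact absurd rfl hmn
    · exact dWY
    · exact dUY.symm
    · exact dWY.symm
    · exact absurd rfl hmn
  · intro m n
    fin_cases m
    · rintro ⟨-, l, h1, h2⟩
      exact hstrict l n h1 h2.symm
    · rintro ⟨-, l, h1, h2⟩
      exact hstrict n l h1 h2
    · rintro ⟨-, l, h1⟩
      exact hdj l (h1.trans (hcj n))
  · intro m n
    fin_cases m
    · obtain ⟨w, hw, h1, h2⟩ := (hcj n).head (hcj' n)
      refine ⟨w, ⟨h2, n, ReflTransGen.single ⟨hw, h1⟩, ?_⟩, (hE _ _ hw).symm⟩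
      rintro rfl
      exact lt_irrefl _ h1
    · obtain ⟨w, hw, h1, h2⟩ := (hic n).last (hci' n)
      refine ⟨w, ⟨h2, n, ReflTransGen.single ⟨hw, h1⟩, ?_⟩, hE _ _ hw⟩
      rintro rfl
      exact lt_irrefl _ h1
    · exact ⟨d n, ⟨hdk n, n, ReflTransGen.refl⟩, (hcd n).symm⟩

/-- the vertices between `i` and `j` with a neighbour below `k` and not below `j` -/
def Bd {V : Type} (G : SimpleGraph V) (E : V → V → Prop) (h : V → ℝ) (i j k : V) : Set V :=
  {c | Asc E h i c ∧ Asc E h c j ∧ ∃ d, G.Adj c d ∧ Asc E h d k ∧ ¬ Asc E h d j}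

/-- they are a union of two chains -/
theorem bd_chains (hK : RowK33) {V : Type} [Finite V] {G : SimpleGraph V} (hc : G.Connected)
    (hP : ∃ σ : Equiv.Perm G.Dart, PlaneMap G σ) {E : V → V → Prop} {h : V → ℝ}
    (hE : ∀ u v, E u v → G.Adj u v) (i j k : V) :
    ∃ P Q : Set V, Bd G E h i j k = P ∪ Q ∧ (∀ x ∈ P, ∀ y ∈ P, Asc E h x y ∨ Asc E h y x) ∧
      ∀ x ∈ Q, ∀ y ∈ Q, Asc E h x y ∨ Asc E h y x := by
  classical
  have := Fintype.ofFinite V
  obtain ⟨P, Q, h1, h2, h3, h4⟩ := two_chains (Asc E h) (fun a => ReflTransGen.refl)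
    (fun a b c => ReflTransGen.trans) (fun a b => Asc.antisymm) _
    (Finset.univ.filter fun v => v ∈ Bd G E h i j k) rfl (by
      intro a ha b hb c hc'
      by_contra hcon
      push Not at hcon
      obtain ⟨n1, n2, n3, n4, n5, n6⟩ := hcon
      rw [Finset.mem_filter] at ha hb hc'
      obtain ⟨-, a1, a2, a3, a4, a5, a6⟩ := ha
      obtain ⟨-, b1, b2, b3, b4, b5, b6⟩ := hb
      obtain ⟨-, c1, c2, c3, c4, c5, c6⟩ := hc'
      refine no_three (h := h) hK hc hP hE (i := i) (j := j) (k := k) ![a, b, c] ![a3, b3, c3] ?_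
        ?_ ?_ ?_ ?_ ?_
      · intro m; fin_cases m <;> assumption
      · intro m; fin_cases m <;> assumption
      · intro m; fin_cases m <;> assumption
      · intro m; fin_cases m <;> assumption
      · intro m; fin_cases m <;> assumption
      · intro m n hmn
        fin_cases m <;> fin_cases n <;> first | exact absurd rfl hmn | assumption)
  refine ⟨P, Q, ?_, h3, h4⟩
  ext x
  constructor
  · intro hx
    exact h1 x (Finset.mem_filter.2 ⟨Finset.mem_univ _, hx⟩)
  · intro hx
    exact (Finset.mem_filter.1 (h2 x hx)).2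

end Vale.Agent.P235.R2.H934
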