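import Vale.Agent.P235.R2.H582.Faces
import Vale.Agent.P235.R2.H934.TwoFace
import Vale.Agent.P235.R2.H341.XDefs

/-!
P235-M, W7 WIDE (helper934): plane graphs with slack edges; one vertex without steep edge downwards,
the vertices without steep edge upwards and the slack edges on few faces; from `RowMQ`.
-/

set_option autoImplicit false
set_option linter.all false

namespace Vale.Agent.P235.R2.H934

open Vale.Agent.P235 Vale.Agent.P235.Red Vale.Agent.P235.H341W
open Vale.Agent.P235.R2.H582 (embeds_mono)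

variable {V : Type} {G : SimpleGraph V}

/-- `h` is nonexpansive for `ℓ` on the edges and an isometry on the edges of `E` -/
structure Fit (G : SimpleGraph V) (ℓ : Sym2 V → ℝ) (h : V → ℝ) (E : V → V → Prop) : Prop where
  pos : ∀ e ∈ G.edgeSet, 0 < ℓ e
  lip : ∀ u v, G.Adj u v → |h u - h v| ≤ ℓ s(u, v)
  tight : ∀ u v, E u v → ℓ s(u, v) = |h u - h v|

variable {ℓ : Sym2 V → ℝ} {h : V → ℝ} {E : V → V → Prop}

theorem Fit.lip_pd (hF : Fit G ℓ h E) (hc : G.Connected) (a b : V) :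
    |h a - h b| ≤ pathDist G ℓ a b := by
  have h1 := pd_semi (ℓ := ℓ) (ρ := fun a b => |h a - h b|) hc one_pos (fun a => by simp)
    (fun a b c => abs_sub_le _ _ _) (fun u v huv => by rw [one_mul]; exact hF.lip u v huv) a b
  rwa [one_mul] at h1

/-- a descending path of steep edges is isometric -/
theorem Fit.desc_le (hF : Fit G ℓ h E) (hc : G.Connected) (hE : ∀ u v, E u v → G.Adj u v)
    {a b : V} (hd : DescE E h a b) : pathDist G ℓ a b ≤ h a - h b := by
  induction hd with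
  | refl => rw [pd_self hF.pos]; simp
  | @tail c b _ hcb ih =>
    have h1 := pd_tri hc hF.pos a c b
    have h2 := pd_adj hF.pos (hE _ _ hcb.1)
    rw [hF.tight _ _ hcb.1, abs_of_pos (sub_pos.2 hcb.2)] at h2
    linarith

theorem Fit.desc_le_abs (hF : Fit G ℓ h E) (hc : G.Connected) (hE : ∀ u v, E u v → G.Adj u v)
    {a b : V} (hd : DescE E h a b ∨ DescE E h b a) : pathDist G ℓ a b ≤ |h a - h b| := by
  rcases hd with hd | hd
  · exact (hF.desc_le hc hE hd).trans (le_abs_self _)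
  · rw [pd_comm hc hF.pos, abs_sub_comm]
    exact (hF.desc_le hc hE hd).trans (le_abs_self _)

/-- the leaves: one marked face -/
def LeafS (n : ℕ) (W : Type) (G' : SimpleGraph W) (ℓ' : Sym2 W → ℝ) : Prop :=
  ∃ (h' : W → ℝ) (E' : W → W → Prop) (σ' : Equiv.Perm G'.Dart) (s' : W) (m : G'.Dart),
    MQ G' σ' E' h' s' {m} ∧ Fit G' ℓ' h' E' ∧ Nat.card W ≤ n

theorem leafS_embeds {C : ℝ} (hC : 1 ≤ C) (hM : MStarLL C) (n : ℕ) (W : Type) [Finite W]
    (G' : SimpleGraph W) (ℓ' : Sym2 W → ℝ) (hc : G'.Connected)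
    (hℓ : ∀ e ∈ G'.edgeSet, 0 < ℓ' e) (hQ : LeafS n W G' ℓ') :
    EmbedsL1 (pathDist G' ℓ') (219073 * 96 * C * 1 * ((ll n : ℝ) + 3)) := by
  obtain ⟨h', E', σ', s', m, hMQ, hF, hn⟩ := hQ
  have h1 := W3.plane_ends hC hM W G' σ' ℓ' h' {s'} (onFace σ' m) 1 le_rfl hc hMQ.plane hℓ
    ⟨Or.inl ⟨s', rfl⟩, Or.inr ⟨m, rfl⟩, Or.inl ⟨s', rfl⟩⟩ hF.lip
    (fun v hv => by
      obtain ⟨u, h1, h2⟩ := hMQ.low v (fun k => hv (by rw [k]; rfl))
      refine ⟨u, hMQ.adj _ _ h1, ?_⟩
      rw [hF.tight _ _ h1, abs_of_pos (sub_pos.2 h2), one_mul])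
    (fun v hv => by
      rcases hMQ.high v with ⟨u, h1, h2⟩ | ⟨m', hm', h⟩
      · refine ⟨u, hMQ.adj _ _ h1, ?_⟩
        rw [hF.tight _ _ h1, abs_of_neg (sub_neg.2 h2), one_mul]
        linarith
      · rw [Set.mem_singleton_iff.1 hm'] at h
        exact absurd h hv)
  refine embeds_mono (pd_nonneg hℓ) ?_ h1
  have h2 : (ll (Nat.card W) : ℝ) ≤ ll n := by exact_mod_cast R2.H582.ll_mono hn
  have h3 : (0 : ℝ) ≤ 219073 * 96 * C * 1 := by positivity
  exact mul_le_mul_of_nonneg_left (by linarith) h3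

/-- the lengths of a piece -/
theorem Fit.comap (hF : Fit G ℓ h E) {W : Type} {G' : SimpleGraph W} {ι : W → V}
    (hadj : ∀ a b, G'.Adj a b → G.Adj (ι a) (ι b)) :
    Fit G' (fun e => ℓ (e.map ι)) (h ∘ ι) (fun a b => E (ι a) (ι b)) where
  pos e he := by
    induction e with
    | _ a b => exact hF.pos _ ((G.mem_edgeSet).2 (hadj a b he))
  lip a b hab := hF.lip _ _ (hadj a b hab)
  tight a b hab := hF.tight _ _ hab

/-- the pieces -/
theorem Fit.piece [Finite V] (hF : Fit G ℓ h E) (hc : G.Connected) {K : Set V} {W : Type}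
    [Finite W] {G' : SimpleGraph W} {ι : W → V} (hadj : ∀ a b, G'.Adj a b → G.Adj (ι a) (ι b))
    (hK : ∀ a b, ι a ∈ K → ι b ∈ K → G.Adj (ι a) (ι b) → G'.Adj a b)
    (hc' : G'.Connected) {κ : K → W} (hκ : ∀ a, ι (κ a) = a.1) :
    H341W.Piece G ℓ K G' (fun e => ℓ (e.map ι)) κ := by
  have hF' := hF.comap hadj
  refine ⟨inferInstance, hc', hF'.pos, ?_, ?_⟩
  · intro a b hab
    have h1 : G'.Adj (κ a) (κ b) := hK _ _ (by rw [hκ]; exact a.2) (by rw [hκ]; exact b.2)
      (by rw [hκ, hκ]; exact hab)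
    refine (pd_adj hF'.pos h1).trans (le_of_eq ?_)
    show ℓ s(ι (κ a), ι (κ b)) = _
    rw [hκ, hκ]
  · intro a b
    have h1 := pd_semi (ℓ := fun e => ℓ (e.map ι))
      (ρ := fun x y => pathDist G ℓ (ι x) (ι y)) hc'
      one_pos (fun x => pd_self hF.pos _) (fun x y z => pd_tri hc hF.pos _ _ _)
      (fun u v huv => by
        rw [one_mul]
        exact pd_adj hF.pos (hadj u v huv)) (κ a) (κ b)
    rw [one_mul] at h1
    beta_reduce at h1
    rwa [hκ, hκ] at h1

/-- one round -/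
theorem rounds_of [Finite V] {σ : Equiv.Perm G.Dart} {s : V} {M : Finset G.Dart}
    (hRMQ : RowMQ) (hMQ : MQ G σ E h s (M : Set G.Dart)) (hF : Fit G ℓ h E) (hM : M.Nonempty) :
    Rounds (LeafS (Nat.card V)) (4 * M.card) 0 1 G ℓ := by
  classical
  have hc := hMQ.conn
  have hℓ := hF.pos
  obtain ⟨Ls, hlenL, hdesc, hp⟩ := hRMQ M.card V G σ E h s M hMQ hM le_rfl
  set X : Set V := insert s (lanesSet Ls) with hX
  have hlanes : Lanes G ℓ (4 * M.card) X := by
    refine ⟨h, ({s} :: Ls).length, fun i => ({s} :: Ls).get i, ?_, hF.lip_pd hc, ?_, ?_, ?_⟩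
    · rw [List.length_cons]
      omega
    · intro i
      beta_reduce
      have hmem := List.get_mem ({s} :: Ls) i
      rcases List.mem_cons.1 hmem with h1 | h1
      · rw [h1]
        exact ⟨s, rfl⟩
      · exact (hdesc _ h1).1
    · intro i a ha b hb
      beta_reduce at ha hb
      have hmem := List.get_mem ({s} :: Ls) i
      rcases List.mem_cons.1 hmem with h1 | h1
      · rw [h1] at ha hb
        rw [Set.mem_singleton_iff.1 ha, Set.mem_singleton_iff.1 hb, pd_self hℓ]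
        exact abs_nonneg _
      · exact hF.desc_le_abs hc hMQ.adj ((hdesc _ h1).2 a ha b hb)
    · ext x
      rw [Set.mem_iUnion, hX, Set.mem_insert_iff]
      constructor
      · rintro (rfl | ⟨L, hL, hx⟩)
        · exact ⟨⟨0, by simp⟩, rfl⟩
        · obtain ⟨i, hi⟩ := List.mem_iff_get.1 (List.mem_cons_of_mem ({s} : Set V) hL)
          exact ⟨i, by rw [hi]; exact hx⟩
      · rintro ⟨i, hi⟩
        have hmem := List.get_mem ({s} :: Ls) i
        rcases List.mem_cons.1 hmem with h1 | h1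
        · rw [h1] at hi
          exact Or.inl hi
        · exact Or.inr ⟨_, h1, hi⟩
  have key : ∀ u, ∃ (W : Type) (G' : SimpleGraph W) (ℓ' : Sym2 W → ℝ)
      (κ : compSet G X u → W), u ∉ X →
        H341W.Piece G ℓ (compSet G X u) G' ℓ' κ ∧ LeafS (Nat.card V) W G' ℓ' := by
    intro u
    by_cases hu : u ∈ X
    · exact ⟨compSet G X u, ⊥, fun _ => 0, id, fun h => absurd hu h⟩
    · have hu' : u ∉ lanesSet Ls := fun h => hu (Or.inr h)
      obtain ⟨W, fW, G', ι, σ', s', m, hinj, hadj, hback, hsub, hMQ'⟩ := hp u hu'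
      have hle : compSet G X u ⊆ compSet G (lanesSet Ls) u := by
        rintro a ⟨p, hp'⟩
        exact ⟨p, fun b hb hbX => hp' b hb (Or.inr hbX)⟩
      have hmono : ∀ a : compSet G X u, a.1 ∈ Set.range ι := fun a => hsub (hle a.2)
      choose κ hκ using hmono
      refine ⟨W, G', fun e => ℓ (e.map ι), κ, fun _ => ⟨hF.piece hc hadj
        (fun a b ha hb hab => hback a b (hle ha) (hle hb) hab) hMQ'.conn hκ,
        h ∘ ι, fun a b => E (ι a) (ι b), σ', s', m, hMQ', hF.comap hadj, ?_⟩⟩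
      exact Nat.card_le_card_of_injective ι hinj
  choose W G' ℓ' κ hW using key
  exact Rounds.lanes ⟨s, Or.inl rfl⟩ hlanes (fun u hu => (hW u hu).1)
    fun u hu => Rounds.leaf (hW u hu).2

/-- **few faces, slack edges, `D = 1`** -/
theorem plane_slack_one {C : ℝ} (hC : 1 ≤ C) (hMS : MStarLL C) (hRMQ : RowMQ) (V : Type)
    [Finite V] (G : SimpleGraph V) (σ : Equiv.Perm G.Dart) (ℓ : Sym2 V → ℝ)
    (E : V → V → Prop) (h : V → ℝ) (s : V) (M : Finset G.Dart)
    (hMQ : MQ G σ E h s (M : Set G.Dart)) (hF : Fit G ℓ h E) (hM : M.Nonempty) :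
    EmbedsL1 (pathDist G ℓ)
      (316000000000000 * C * ((ll (Nat.card V) : ℝ) + 1 + Real.log (M.card + 2))) := by
  have hL0 : (0 : ℝ) ≤ ll (Nat.card V) := Nat.cast_nonneg _
  have hC' : (1 : ℝ) ≤ 219073 * 96 * C * 1 * ((ll (Nat.card V) : ℝ) + 3) := by nlinarith
  have h1 := rounds_distortion (LeafS (Nat.card V)) hC'
    (fun W _ G' ℓ' hc' hℓ' hQ => leafS_embeds hC hMS _ W G' ℓ' hc' hℓ' hQ)
    (4 * M.card) 0 1 V G ℓ hMQ.conn hF.pos (rounds_of hRMQ hMQ hF hM)
  refine embeds_mono (pd_nonneg hF.pos) ?_ h1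
  have hm : (0 : ℝ) ≤ M.card := Nat.cast_nonneg _
  have h2 : Real.log (((4 * M.card : ℕ) : ℝ) + 2) ≤ 2 + Real.log (M.card + 2) := by
    have h3 : Real.log (4 * ((M.card : ℝ) + 2)) = Real.log 4 + Real.log (M.card + 2) :=
      Real.log_mul (by norm_num) (by positivity)
    have h4 : Real.log 4 ≤ 2 := by
      have h5 : Real.log 4 = 2 * Real.log 2 := by
        rw [show (4 : ℝ) = 2 ^ 2 by norm_num, Real.log_pow]
        norm_num
      have h6 := Real.log_two_lt_d9
      rw [h5]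
      linarith
    have h5 : Real.log (((4 * M.card : ℕ) : ℝ) + 2) ≤ Real.log (4 * ((M.card : ℝ) + 2)) := by
      refine Real.log_le_log (by positivity) ?_
      push_cast
      linarith
    linarith
  have h3 : 0 ≤ Real.log ((M.card : ℝ) + 2) := Real.log_nonneg (by linarith)
  have h4 : Real.log ((M.card : ℝ) + 2) ≤ C * Real.log ((M.card : ℝ) + 2) :=
    le_mul_of_one_le_left h3 hC
  have h5 : (ll (Nat.card V) : ℝ) ≤ C * ll (Nat.card V) := le_mul_of_one_le_left hL0 hC
  push_cast at h2 ⊢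
  nlinarith

/-- **W7 WIDE: few faces, slack edges.**  `h` is nonexpansive on the edges; every vertex but `s`
has a steep edge downwards; every vertex without steep edge upwards is on one of the faces of the
darts in `M`, and every edge which is not steep has a side on one of them. -/
theorem plane_slack {C : ℝ} (hC : 1 ≤ C) (hMS : MStarLL C) (hRMQ : RowMQ) (V : Type) [Finite V]
    (G : SimpleGraph V) (σ : Equiv.Perm G.Dart) (ℓ : Sym2 V → ℝ) (h : V → ℝ) (s : V) (D : ℝ)
    (M : Finset G.Dart) (hD : 1 ≤ D) (hM : M.Nonempty) (hc : G.Connected) (hP : PlaneMap G σ)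
    (hℓ : ∀ e ∈ G.edgeSet, 0 < ℓ e)
    (h1 : ∀ u v, G.Adj u v → |h u - h v| ≤ ℓ s(u, v))
    (hlow : ∀ v, v ≠ s → ∃ u, G.Adj v u ∧ ℓ s(v, u) ≤ D * (h v - h u))
    (hhigh : ∀ v, (∃ u, G.Adj v u ∧ ℓ s(v, u) ≤ D * (h u - h v)) ∨ ∃ m ∈ M, v ∈ onFace σ m)
    (hslack : ∀ d : G.Dart, ℓ s(d.fst, d.snd) ≤ D * |h d.fst - h d.snd| ∨
      ∃ m ∈ M, (faceNext σ).SameCycle m d ∨ (faceNext σ).SameCycle m d.symm) :
    EmbedsL1 (pathDist G ℓ)
      (316000000000000 * C * D * ((ll (Nat.card V) : ℝ) + 1 + Real.log (M.card + 2))) := by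
  classical
  have hD0 : 0 < D := one_pos.trans_le hD
  -- the steep edges and the lengths which are tight on them
  let E : V → V → Prop := fun u v => G.Adj u v ∧ ℓ s(u, v) ≤ D * |h u - h v|
  let P : Sym2 V → Prop := fun e => ℓ e ≤ D * R2.H168.hlen h e
  let ℓ' : Sym2 V → ℝ := fun e => if P e then R2.H168.hlen h e else ℓ e
  have hlen_mk' : ∀ u v, R2.H168.hlen h s(u, v) = |h u - h v| := R2.H168.hlen_mk h
  have hEne : ∀ u v, E u v → h u ≠ h v := by
    rintro u v ⟨ha, hs⟩ he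
    have h4 := hℓ _ ((G.mem_edgeSet).2 ha)
    rw [he, sub_self, abs_zero, mul_zero] at hs
    linarith
  have hup : ∀ u v, G.Adj u v → ℓ s(u, v) ≤ D * (h u - h v) → E u v ∧ h v < h u := by
    intro u v ha hs
    have h4 := hℓ _ ((G.mem_edgeSet).2 ha)
    have h5 : 0 < h u - h v := by
      by_contra h6
      push Not at h6
      nlinarith
    exact ⟨⟨ha, by rw [abs_of_pos h5]; exact hs⟩, by linarith⟩
  have hF : Fit G ℓ' h E := by
    refine ⟨?_, ?_, ?_⟩
    · intro e he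
      induction e with
      | _ u v =>
        show 0 < if P s(u, v) then R2.H168.hlen h s(u, v) else ℓ s(u, v)
        split_ifs with hs
        · have hs' : E u v := ⟨he, by rw [← hlen_mk']; exact hs⟩
          rw [hlen_mk']
          exact abs_pos.2 (sub_ne_zero.2 (hEne u v hs'))
        · exact hℓ _ he
    · intro u v ha
      show _ ≤ if P s(u, v) then R2.H168.hlen h s(u, v) else ℓ s(u, v)
      split_ifs with hs
      · rw [hlen_mk']
      · exact h1 u v ha
    · rintro u v ⟨ha, hs⟩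
      have hs' : P s(u, v) := by
        show _ ≤ _
        rw [hlen_mk']
        exact hs
      show (if P s(u, v) then R2.H168.hlen h s(u, v) else ℓ s(u, v)) = _
      rw [if_pos hs', hlen_mk']
  have hMQ : MQ G σ E h s (M : Set G.Dart) := by
    refine ⟨hc, hP, fun u v k => k.1, fun u v k => ⟨k.1.symm, ?_⟩, hEne, ?_, ?_, ?_⟩
    · rw [Sym2.eq_swap, abs_sub_comm]
      exact k.2
    · intro v hv
      obtain ⟨u, hu, h2⟩ := hlow v hv
      obtain ⟨h3, h4⟩ := hup v u hu h2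
      exact ⟨u, h3, h4⟩
    · intro v
      rcases hhigh v with ⟨u, hu, h2⟩ | h2
      · obtain ⟨h3, h4⟩ := hup u v hu.symm (by rw [Sym2.eq_swap]; exact h2)
        refine Or.inl ⟨u, ⟨hu, ?_⟩, h4⟩
        rw [Sym2.eq_swap, abs_sub_comm]
        exact h3.2
      · exact Or.inr h2
    · intro d
      rcases hslack d with h2 | h2
      · exact Or.inl ⟨d.adj, h2⟩
      · exact Or.inr h2
  have hE := plane_slack_one hC hMS hRMQ V G σ ℓ' E h s M hMQ hF hM
  have k1 : ∀ u v, G.Adj u v → ℓ s(u, v) ≤ D * ℓ' s(u, v) := by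
    intro u v ha
    show _ ≤ D * if P s(u, v) then R2.H168.hlen h s(u, v) else ℓ s(u, v)
    split_ifs with hs
    · exact hs
    · exact le_mul_of_one_le_left (hℓ _ ((G.mem_edgeSet).2 ha)).le hD
  have k2 : ∀ u v, G.Adj u v → ℓ' s(u, v) ≤ 1 * ℓ s(u, v) := by
    intro u v ha
    rw [one_mul]
    show (if P s(u, v) then R2.H168.hlen h s(u, v) else ℓ s(u, v)) ≤ _
    split_ifs with hs
    · rw [hlen_mk']
      exact h1 u v ha
    · exact le_rfl
  have e1 : ∀ x y, pathDist G ℓ x y ≤ D * pathDist G ℓ' x y := fun x y =>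
    pd_semi (ℓ := ℓ') (ρ := pathDist G ℓ) hc hD0 (fun x => pd_self hℓ _)
      (fun x y z => pd_tri hc hℓ _ _ _) (fun u v ha => (pd_adj hℓ ha).trans (k1 u v ha)) x y
  have e2 : ∀ x y, pathDist G ℓ' x y ≤ 1 * pathDist G ℓ x y := fun x y =>
    pd_semi (ℓ := ℓ) (ρ := pathDist G ℓ') hc one_pos (fun x => pd_self hF.pos _)
      (fun x y z => pd_tri hc hF.pos _ _ _)
      (fun u v ha => (pd_adj hF.pos ha).trans (k2 u v ha)) x y
  refine R2.H673.embedsL1_scale hD0.le hE e1 (fun x y => ?_)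
  have hlog : 0 ≤ Real.log ((M.card : ℝ) + 2) := Real.log_nonneg (by
    have : (0 : ℝ) ≤ M.card := Nat.cast_nonneg _
    linarith)
  have h3 : (0 : ℝ) ≤ 316000000000000 * C * D *
      ((ll (Nat.card V) : ℝ) + 1 + Real.log (M.card + 2)) := by positivity
  have h4 := mul_le_mul_of_nonneg_left (e2 x y) h3
  rw [one_mul] at h4
  calc D * (316000000000000 * C * ((ll (Nat.card V) : ℝ) + 1 + Real.log (M.card + 2)) *
        pathDist G ℓ' x y) =
      316000000000000 * C * D * ((ll (Nat.card V) : ℝ) + 1 + Real.log (M.card + 2)) *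
        pathDist G ℓ' x y := by ring
    _ ≤ _ := h4

/-- **W7 WIDE, metric form.**  Every plane graph with every lengths: `M` are faces such that every
edge which is not tight for the distance from `s` has a side on one of them, and so is every vertex
at which that distance has a local maximum. -/
theorem plane_slack_metric {C : ℝ} (hC : 1 ≤ C) (hMS : MStarLL C) (hRMQ : RowMQ) (V : Type)
    [Finite V] (G : SimpleGraph V) (σ : Equiv.Perm G.Dart) (ℓ : Sym2 V → ℝ) (s : V)
    (M : Finset G.Dart) (hM : M.Nonempty) (hc : G.Connected) (hP : PlaneMap G σ)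
    (hℓ : ∀ e ∈ G.edgeSet, 0 < ℓ e)
    (hhigh : ∀ v, (∃ u, G.Adj v u ∧ pathDist G ℓ s u = pathDist G ℓ s v + ℓ s(v, u)) ∨
      ∃ m ∈ M, v ∈ onFace σ m)
    (hslack : ∀ d : G.Dart, |pathDist G ℓ s d.fst - pathDist G ℓ s d.snd| = ℓ s(d.fst, d.snd) ∨
      ∃ m ∈ M, (faceNext σ).SameCycle m d ∨ (faceNext σ).SameCycle m d.symm) :
    EmbedsL1 (pathDist G ℓ)
      (316000000000000 * C * ((ll (Nat.card V) : ℝ) + 1 + Real.log (M.card + 2))) := by
  have h := plane_slack hC hMS hRMQ V G σ ℓ (pathDist G ℓ s) s 1 M le_rfl hM hc hP hℓ ?_ ?_ ?_ ?_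
  · rwa [mul_one] at h
  · intro u v ha
    have h1 := pd_tri hc hℓ s u v
    have h2 := pd_tri hc hℓ s v u
    have h3 := pd_adj hℓ ha
    rw [pd_comm hc hℓ v u] at h2
    rw [abs_le]
    constructor <;> linarith
  · intro v hv
    obtain ⟨u, hu, h2⟩ := Tight.exists_first hc hℓ hv
    refine ⟨u, hu, ?_⟩
    rw [one_mul, pd_comm hc hℓ s v, pd_comm hc hℓ s u]
    linarith
  · intro v
    rcases hhigh v with ⟨u, hu, h2⟩ | h2
    · exact Or.inl ⟨u, hu, by rw [one_mul, h2]; linarith⟩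
    · exact Or.inr h2
  · intro d
    rcases hslack d with h2 | h2
    · exact Or.inl (by rw [one_mul, h2])
    · exact Or.inr h2

end Vale.Agent.P235.R2.H934
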