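import Vale.Agent.P235.R2.H934.Multi1
import Vale.Agent.P235.R2.H934.Slack
import Vale.Agent.P235.R2.H418.Ind
import Vale.Agent.P235.R2.H611.TermFinal

/-!
P235-M (helper934): many local maxima and minima, arbitrary slack edges.  Part 2: one round.
-/

set_option autoImplicit false
set_option linter.all false

namespace Vale.Agent.P235.R2.H934

open Relation SimpleGraph
open Vale.Agent.P235 Vale.Agent.P235.Red Vale.Agent.P235.H341W Vale.Agent.P235.Quo
open Vale.Agent.P235.R2.H582 (embeds_mono)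

variable {V : Type} {G : SimpleGraph V} {ℓ : Sym2 V → ℝ} {h : V → ℝ} {E : V → V → Prop}

/-- every vertex outside `A` has a steep edge downwards, every vertex outside `B` a steep edge
upwards; the steep edges are `E` -/
structure MM (G : SimpleGraph V) (σ : Equiv.Perm G.Dart) (E : V → V → Prop) (h : V → ℝ)
    (A B : Set V) : Prop where
  conn : G.Connected
  plane : PlaneMap G σ
  adj : ∀ u v, E u v → G.Adj u v
  symm : ∀ u v, E u v → E v u
  low : ∀ v, v ∉ A → ∃ u, E v u ∧ h u < h v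
  high : ∀ v, v ∉ B → ∃ u, E v u ∧ h v < h u

theorem MM.neg {σ : Equiv.Perm G.Dart} {A B : Set V} (hM : MM G σ E h A B) :
    MM G σ E (fun v => - h v) B A where
  conn := hM.conn
  plane := hM.plane
  adj := hM.adj
  symm := hM.symm
  low v hv := by
    obtain ⟨u, h1, h2⟩ := hM.high v hv
    exact ⟨u, h1, neg_lt_neg h2⟩
  high v hv := by
    obtain ⟨u, h1, h2⟩ := hM.low v hv
    exact ⟨u, h1, neg_lt_neg h2⟩

/-- an ascending path of steep edges is isometric -/
theorem Fit.asc_le (hF : Fit G ℓ h E) (hc : G.Connected) (hE : ∀ u v, E u v → G.Adj u v)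
    {a b : V} (hd : Asc E h a b) : pathDist G ℓ a b ≤ h b - h a := by
  induction hd with
  | refl => rw [pd_self hF.pos]; simp
  | @tail c b _ hcb ih =>
    have h1 := pd_tri hc hF.pos a c b
    have h2 := pd_adj hF.pos (hE _ _ hcb.1)
    rw [hF.tight _ _ hcb.1, abs_of_neg (sub_neg.2 hcb.2)] at h2
    linarith

theorem Fit.asc_le_abs (hF : Fit G ℓ h E) (hc : G.Connected) (hE : ∀ u v, E u v → G.Adj u v)
    {a b : V} (hd : Asc E h a b ∨ Asc E h b a) : pathDist G ℓ a b ≤ |h a - h b| := by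
  rcases hd with hd | hd
  · rw [abs_sub_comm]
    exact (hF.asc_le hc hE hd).trans (le_abs_self _)
  · rw [pd_comm hc hF.pos]
    exact (hF.asc_le hc hE hd).trans (le_abs_self _)

/-- a finite family of sets on which `u` is isometric -/
theorem lanes_of {ι : Type} [Finite ι] {n : ℕ} (hn : Nat.card ι ≤ n) (L : ι → Set V) {x₀ : V}
    {X : Set V} (hX : ∀ x, x ∈ X ↔ ∃ i, x ∈ L i) (hx : x₀ ∈ X)
    (hlip : ∀ a b, |h a - h b| ≤ pathDist G ℓ a b) (hself : pathDist G ℓ x₀ x₀ = 0)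
    (hL : ∀ i, ∀ a ∈ L i, ∀ b ∈ L i, pathDist G ℓ a b ≤ |h a - h b|) : Lanes G ℓ n X := by
  classical
  have := Fintype.ofFinite ι
  let e := Fintype.equivFin ι
  have hcard : Nat.card ι = Fintype.card ι := Nat.card_eq_fintype_card
  refine ⟨h, Fintype.card ι, fun m => if (L (e.symm m)).Nonempty then L (e.symm m) else {x₀},
    by omega, hlip, ?_, ?_, ?_⟩
  · intro m
    beta_reduce
    split_ifs with k
    · exact k
    · exact ⟨x₀, rfl⟩
  · intro m a ha b hb
    beta_reduce at ha hb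
    split_ifs at ha hb with k
    · exact hL _ a ha b hb
    · rw [Set.mem_singleton_iff.1 ha, Set.mem_singleton_iff.1 hb, hself]
      exact abs_nonneg _
  · ext x
    rw [Set.mem_iUnion]
    constructor
    · intro hxX
      obtain ⟨i, hi⟩ := (hX x).1 hxX
      refine ⟨e i, ?_⟩
      beta_reduce
      rw [Equiv.symm_apply_apply, if_pos ⟨x, hi⟩]
      exact hi
    · rintro ⟨m, hm⟩
      beta_reduce at hm
      split_ifs at hm with k
      · exact (hX x).2 ⟨_, hm⟩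
      · rw [Set.mem_singleton_iff.1 hm]
        exact hx

/-- the separating set -/
def Sep (G : SimpleGraph V) (E : V → V → Prop) (h : V → ℝ) (A B : Set V) : Set V :=
  {v | v ∈ A ∨ v ∈ B ∨ (∃ i ∈ A, ∃ j ∈ B, ∃ k ∈ B, v ∈ Bd G E h i j k) ∨
    ∃ j ∈ B, ∃ i ∈ A, ∃ l ∈ A, v ∈ Bd G E (fun v => - h v) j i l}

/-- an interval -/
def Iv (E : V → V → Prop) (h : V → ℝ) (i j : V) : Set V := {v | Asc E h i v ∧ Asc E h v j}

theorem comp_sub [Finite V] {σ : Equiv.Perm G.Dart} {A B : Set V} (hM : MM G σ E h A B)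
    {i j u : V} (hi : i ∈ A) (hj : j ∈ B) (hu : u ∈ Iv E h i j) :
    compSet G (Sep G E h A B) u ⊆ Iv E h i j := by
  have step : ∀ v ∈ Iv E h i j, v ∉ Sep G E h A B → ∀ w, G.Adj v w → w ∈ Iv E h i j := by
    rintro v ⟨h1, h2⟩ hv w hvw
    constructor
    · by_contra hcon
      obtain ⟨l, hl, h3⟩ := exists_top (B := A) hM.neg.high w
      exact hv (Or.inr (Or.inr (Or.inr ⟨j, hj, i, hi, l, hl, h2.neg hM.symm, h1.neg hM.symm, w,
        hvw, h3, fun h4 => hcon (h4.of_neg hM.symm)⟩)))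
    · by_contra hcon
      obtain ⟨k, hk, h3⟩ := exists_top (B := B) hM.high w
      exact hv (Or.inr (Or.inr (Or.inl ⟨i, hi, j, hj, k, hk, h1, h2, w, hvw, h3, hcon⟩)))
  have key : ∀ (a b : V) (w : G.Walk a b), (∀ x ∈ w.support, x ∉ Sep G E h A B) →
      a ∈ Iv E h i j → b ∈ Iv E h i j := by
    intro a b w
    induction w with
    | nil => exact fun _ ha => ha
    | @cons a c b hac w ihw =>
      intro hw ha
      rw [Walk.support_cons] at hw
      exact ihw (fun x hx => hw x (List.mem_cons_of_mem _ hx))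
        (step a ha (hw a List.mem_cons_self) c hac)
  rintro v ⟨w, hw⟩
  exact key _ _ w hw hu

theorem iv_conn [Finite V] {σ : Equiv.Perm G.Dart} {A B : Set V} (hM : MM G σ E h A B)
    {i j u : V} (hu : u ∈ Iv E h i j) : (G.induce (Iv E h i j)).Connected := by
  refine conn_asc (h := h) (j := j) ⟨hu.1.trans hu.2, ReflTransGen.refl⟩ ?_
  rintro v ⟨h1, h2⟩ hv
  obtain ⟨w, hw, h3, h4⟩ := h2.head hv
  exact ⟨w, ⟨h1.tail ⟨hw, h3⟩, h4⟩, hM.adj _ _ hw, h3⟩

/-- the leaf -/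
theorem iv_embeds {C : ℝ} (hC : 1 ≤ C) (hMS : MStarLL C) [Finite V] {σ : Equiv.Perm G.Dart}
    {A B : Set V} (hM : MM G σ E h A B) (hF : Fit G ℓ h E) {i j u : V} (hu : u ∈ Iv E h i j)
    (huj : u ≠ j) :
    EmbedsL1 (pathDist (G.induce (Iv E h i j)) (fun e => ℓ (e.map Subtype.val)))
      (219073 * 96 * C * 1 * ((ll (Nat.card V) : ℝ) + 1)) := by
  have hc := iv_conn hM hu
  have hne : Nonempty (G.induce (Iv E h i j)).Dart := by
    obtain ⟨w, hw, h3, h4⟩ := hu.2.head huj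
    exact ⟨⟨(⟨u, hu⟩, ⟨w, hu.1.tail ⟨hw, h3⟩, h4⟩), hM.adj _ _ hw⟩⟩
  obtain ⟨σ', hσ', -⟩ := rowInd V G σ (Iv E h i j) hM.conn hM.plane hc hne
  have hi : i ∈ Iv E h i j := ⟨ReflTransGen.refl, hu.1.trans hu.2⟩
  have hj : j ∈ Iv E h i j := ⟨hu.1.trans hu.2, ReflTransGen.refl⟩
  have h1 := Tight.plane_wide_any hC hMS (Iv E h i j) (G.induce (Iv E h i j)) σ'
    (fun e => ℓ (e.map Subtype.val)) (fun v => h v.1) ⟨i, hi⟩ ⟨j, hj⟩ 1 le_rfl hc hσ'
    (induce_pos hF.pos _) (fun a b hab => hF.lip a.1 b.1 hab)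
    (by
      rintro ⟨v, hv⟩ hvi
      obtain ⟨w, hw, h3, h4⟩ := hv.1.last fun k => hvi (Subtype.ext k)
      refine ⟨⟨w, h4, ReflTransGen.head ⟨hw, h3⟩ hv.2⟩, (hM.adj _ _ hw).symm, ?_⟩
      show ℓ s(v, w) ≤ 1 * (h v - h w)
      rw [Sym2.eq_swap, hF.tight _ _ hw, abs_of_neg (sub_neg.2 h3)]
      linarith)
    (by
      rintro ⟨v, hv⟩ hvi
      obtain ⟨w, hw, h3, h4⟩ := hv.2.head fun k => hvi (Subtype.ext k)
      refine ⟨⟨w, hv.1.tail ⟨hw, h3⟩, h4⟩, hM.adj _ _ hw, ?_⟩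
      show ℓ s(v, w) ≤ 1 * (h w - h v)
      rw [hF.tight _ _ hw, abs_of_neg (sub_neg.2 h3)]
      linarith)
  refine embeds_mono (pd_nonneg (induce_pos hF.pos _)) ?_ h1
  have h2 : (ll (Nat.card (Iv E h i j)) : ℝ) ≤ ll (Nat.card V) := by
    exact_mod_cast R2.H582.ll_mono (Nat.card_le_card_of_injective _ Subtype.val_injective)
  have h3 : (0 : ℝ) ≤ 219073 * 96 * C * 1 := by positivity
  exact mul_le_mul_of_nonneg_left (by linarith) h3

end Vale.Agent.P235.R2.H934
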