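import Vale.Agent.P235.R2.H934.Multi2

/-!
P235-M (helper934): many local maxima and minima, arbitrary slack edges.  Part 3: the theorem for
vertices.
-/

set_option autoImplicit false
set_option linter.all false

namespace Vale.Agent.P235.R2.H934

open Relation SimpleGraph
open Vale.Agent.P235 Vale.Agent.P235.Red Vale.Agent.P235.H341W Vale.Agent.P235.Quo
open Vale.Agent.P235.R2.H582 (embeds_mono)

variable {V : Type} {G : SimpleGraph V} {ℓ : Sym2 V → ℝ} {h : V → ℝ} {E : V → V → Prop}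

theorem k33 : RowK33 := rowK33 quo_row noK33

/-- the index set of the lanes -/
abbrev Ix (A B : Finset V) : Type :=
  (A ⊕ B) ⊕ ((A × B × B × Bool) ⊕ (B × A × A × Bool))

theorem card_ix (A B : Finset V) (hA : A.Nonempty) (hB : B.Nonempty) :
    Nat.card (Ix A B) ≤ (A.card + B.card) ^ 3 := by
  have h1 : Nat.card (Ix A B) = A.card + B.card +
      (A.card * (B.card * (B.card * 2)) + B.card * (A.card * (A.card * 2))) := by
    rw [Nat.card_eq_fintype_card]
    simp only [Fintype.card_sum, Fintype.card_prod, Fintype.card_coe, Fintype.card_bool]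
  have hA' := Finset.card_pos.2 hA
  have hB' := Finset.card_pos.2 hB
  rw [h1]
  generalize A.card = a at *
  generalize B.card = b at *
  obtain ⟨a, rfl⟩ := Nat.exists_eq_add_of_le' hA'
  obtain ⟨b, rfl⟩ := Nat.exists_eq_add_of_le' hB'
  ring_nf
  nlinarith [Nat.zero_le (a * b), Nat.zero_le (a ^ 2), Nat.zero_le (b ^ 2), Nat.zero_le (a ^ 3),
    Nat.zero_le (b ^ 3), Nat.zero_le (a ^ 2 * b), Nat.zero_le (a * b ^ 2)]

theorem sep_lanes [Finite V] {σ : Equiv.Perm G.Dart} {A B : Finset V}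
    (hM : MM G σ E h (A : Set V) (B : Set V)) (hF : Fit G ℓ h E) (hA : A.Nonempty)
    (hB : B.Nonempty) :
    Lanes G ℓ ((A.card + B.card) ^ 3) (Sep G E h (A : Set V) (B : Set V)) := by
  classical
  have hN := hM.neg
  choose P Q hPQ hPc hQc using fun i j k => bd_chains k33 hM.conn ⟨σ, hM.plane⟩ (h := h)
    hM.adj i j k
  choose P' Q' hPQ' hPc' hQc' using fun i j k => bd_chains k33 hM.conn ⟨σ, hM.plane⟩
    (h := fun v => - h v) hM.adj i j k
  obtain ⟨x₀, hx₀⟩ := hA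
  let L : Ix A B → Set V := fun t => match t with
    | .inl (.inl a) => {a.1}
    | .inl (.inr b) => {b.1}
    | .inr (.inl (i, j, k, c)) => if c = true then P i.1 j.1 k.1 else Q i.1 j.1 k.1
    | .inr (.inr (j, i, l, c)) => if c = true then P' j.1 i.1 l.1 else Q' j.1 i.1 l.1
  refine lanes_of (ι := Ix A B) (card_ix A B ⟨x₀, hx₀⟩ hB) L (x₀ := x₀) ?_ (Or.inl hx₀)
    (hF.lip_pd hM.conn) (pd_self hF.pos _) ?_
  · intro x
    constructor
    · rintro (hx | hx | ⟨i, hi, j, hj, k, hk, hx⟩ | ⟨j, hj, i, hi, l, hl, hx⟩)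
      · exact ⟨.inl (.inl ⟨x, hx⟩), rfl⟩
      · exact ⟨.inl (.inr ⟨x, hx⟩), rfl⟩
      · rw [hPQ] at hx
        rcases hx with hx | hx
        · exact ⟨.inr (.inl (⟨i, hi⟩, ⟨j, hj⟩, ⟨k, hk⟩, true)), hx⟩
        · exact ⟨.inr (.inl (⟨i, hi⟩, ⟨j, hj⟩, ⟨k, hk⟩, false)), hx⟩
      · rw [hPQ'] at hx
        rcases hx with hx | hx
        · exact ⟨.inr (.inr (⟨j, hj⟩, ⟨i, hi⟩, ⟨l, hl⟩, true)), hx⟩
        · exact ⟨.inr (.inr (⟨j, hj⟩, ⟨i, hi⟩, ⟨l, hl⟩, false)), hx⟩
    · rintro ⟨(a | b) | (⟨i, j, k, c⟩ | ⟨j, i, l, c⟩), hx⟩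
      · rw [show x = a.1 from hx]
        exact Or.inl a.2
      · rw [show x = b.1 from hx]
        exact Or.inr (Or.inl b.2)
      · refine Or.inr (Or.inr (Or.inl ⟨i.1, i.2, j.1, j.2, k.1, k.2, ?_⟩))
        rw [hPQ]
        rcases c with _ | _
        · exact Or.inr hx
        · exact Or.inl hx
      · refine Or.inr (Or.inr (Or.inr ⟨j.1, j.2, i.1, i.2, l.1, l.2, ?_⟩))
        rw [hPQ']
        rcases c with _ | _
        · exact Or.inr hx
        · exact Or.inl hx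
  · have neg : ∀ a b, Asc E (fun v => - h v) a b ∨ Asc E (fun v => - h v) b a →
        Asc E h a b ∨ Asc E h b a := fun a b hab => by
      rcases hab with k | k
      · exact Or.inr (k.of_neg hM.symm)
      · exact Or.inl (k.of_neg hM.symm)
    rintro ((a | b) | (⟨i, j, k, c⟩ | ⟨j, i, l, c⟩)) x hx y hy
    · rw [show x = a.1 from hx, show y = a.1 from hy, pd_self hF.pos]
      exact abs_nonneg _
    · rw [show x = b.1 from hx, show y = b.1 from hy, pd_self hF.pos]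
      exact abs_nonneg _
    · refine hF.asc_le_abs hM.conn hM.adj ?_
      rcases c with _ | _
      · exact hQc _ _ _ x hx y hy
      · exact hPc _ _ _ x hx y hy
    · refine hF.asc_le_abs hM.conn hM.adj (neg _ _ ?_)
      rcases c with _ | _
      · exact hQc' _ _ _ x hx y hy
      · exact hPc' _ _ _ x hx y hy

/-- **many sources and sinks, `D = 1`** -/
theorem multi_one {C : ℝ} (hC : 1 ≤ C) (hMS : MStarLL C) (V : Type) [Finite V]
    (G : SimpleGraph V) (σ : Equiv.Perm G.Dart) (ℓ : Sym2 V → ℝ) (E : V → V → Prop) (h : V → ℝ)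
    (A B : Finset V) (hM : MM G σ E h (A : Set V) (B : Set V)) (hF : Fit G ℓ h E) :
    EmbedsL1 (pathDist G ℓ)
      (105200000000000 * C * ((ll (Nat.card V) : ℝ) + 1 + Real.log (A.card + B.card + 2))) := by
  classical
  have hc := hM.conn
  have hℓ := hF.pos
  obtain ⟨v₀⟩ := hc.nonempty
  obtain ⟨j₀, hj₀, -⟩ := exists_top (B := (B : Set V)) hM.high v₀
  obtain ⟨i₀, hi₀, -⟩ := exists_top (B := (A : Set V)) hM.neg.high v₀
  have hL0 : (0 : ℝ) ≤ ll (Nat.card V) := Nat.cast_nonneg _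
  set K' : ℝ := 219073 * 96 * C * 1 * ((ll (Nat.card V) : ℝ) + 1) with hK'
  have hC' : (1 : ℝ) ≤ K' := by
    rw [hK']
    nlinarith
  let Q : ∀ (W : Type), SimpleGraph W → (Sym2 W → ℝ) → Prop := fun W G' ℓ' =>
    EmbedsL1 (pathDist G' ℓ') K'
  set X : Set V := Sep G E h (A : Set V) (B : Set V) with hX
  have key : ∀ u, ∃ (W : Type) (G' : SimpleGraph W) (ℓ' : Sym2 W → ℝ)
      (κ : compSet G X u → W), u ∉ X →
        H341W.Piece G ℓ (compSet G X u) G' ℓ' κ ∧ Q W G' ℓ' := by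
    intro u
    by_cases hu : u ∈ X
    · exact ⟨compSet G X u, ⊥, fun _ => 0, id, fun k => absurd hu k⟩
    obtain ⟨j, hj, h1⟩ := exists_top (B := (B : Set V)) hM.high u
    obtain ⟨i, hi, h2⟩ := exists_top (B := (A : Set V)) hM.neg.high u
    have h3 : u ∈ Iv E h i j := ⟨h2.of_neg hM.symm, h1⟩
    have huj : u ≠ j := fun k => hu (Or.inr (Or.inl (k ▸ hj)))
    have hsub : compSet G X u ⊆ Iv E h i j := comp_sub hM hi hj h3
    exact ⟨Iv E h i j, G.induce (Iv E h i j), fun e => ℓ (e.map Subtype.val),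
      fun a => ⟨a.1, hsub a.2⟩, fun _ => ⟨H341W.Piece.induce hc hℓ hsub (iv_conn hM h3),
        iv_embeds hC hMS hM hF h3 huj⟩⟩
  choose W G' ℓ' κ hW using key
  have hR : Rounds Q ((A.card + B.card) ^ 3) 0 1 G ℓ :=
    Rounds.lanes ⟨i₀, Or.inl hi₀⟩ (sep_lanes hM hF ⟨i₀, hi₀⟩ ⟨j₀, hj₀⟩)
      (fun u hu => (hW u hu).1) fun u hu => Rounds.leaf (hW u hu).2
  have h1 := rounds_distortion Q hC' (fun W _ G' ℓ' _ _ hQ => hQ)
    ((A.card + B.card) ^ 3) 0 1 V G ℓ hc hℓ hR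
  refine embeds_mono (pd_nonneg hℓ) ?_ h1
  have hm : (0 : ℝ) ≤ (A.card : ℝ) + B.card := by positivity
  have h2 : Real.log ((((A.card + B.card) ^ 3 : ℕ) : ℝ) + 2) ≤
      3 * Real.log ((A.card : ℝ) + B.card + 2) := by
    have h3 : 3 * Real.log ((A.card : ℝ) + B.card + 2) =
        Real.log (((A.card : ℝ) + B.card + 2) ^ 3) := by
      rw [Real.log_pow]
      norm_num
    rw [h3]
    refine Real.log_le_log (by positivity) ?_
    push_cast
    nlinarith [sq_nonneg ((A.card : ℝ) + B.card), mul_nonneg hm (sq_nonneg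
      ((A.card : ℝ) + B.card))]
  have h3 : 0 ≤ Real.log ((A.card : ℝ) + B.card + 2) := Real.log_nonneg (by linarith)
  have h4 : Real.log ((A.card : ℝ) + B.card + 2) ≤ C * Real.log ((A.card : ℝ) + B.card + 2) :=
    le_mul_of_one_le_left h3 hC
  have h5 : (ll (Nat.card V) : ℝ) ≤ C * ll (Nat.card V) := le_mul_of_one_le_left hL0 hC
  rw [hK']
  push_cast at h2 ⊢
  nlinarith

/-- lengths which are tight on the steep edges -/
theorem exists_fit {G : SimpleGraph V} {ℓ : Sym2 V → ℝ} {h : V → ℝ} {D : ℝ} (hD : 1 ≤ D)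
    (hℓ : ∀ e ∈ G.edgeSet, 0 < ℓ e) (h1 : ∀ u v, G.Adj u v → |h u - h v| ≤ ℓ s(u, v)) :
    ∃ (E : V → V → Prop) (ℓ' : Sym2 V → ℝ), Fit G ℓ' h E ∧ (∀ u v, E u v → G.Adj u v) ∧
      (∀ u v, E u v → E v u) ∧
      (∀ u v, G.Adj u v → ℓ s(u, v) ≤ D * (h u - h v) → E u v ∧ h v < h u) ∧
      (∀ u v, G.Adj u v → ℓ s(u, v) ≤ D * ℓ' s(u, v)) ∧
      ∀ u v, G.Adj u v → ℓ' s(u, v) ≤ 1 * ℓ s(u, v) := by
  classical
  have hD0 : 0 < D := one_pos.trans_le hD
  let E : V → V → Prop := fun u v => G.Adj u v ∧ ℓ s(u, v) ≤ D * |h u - h v|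
  let P : Sym2 V → Prop := fun e => ℓ e ≤ D * R2.H168.hlen h e
  let ℓ' : Sym2 V → ℝ := fun e => if P e then R2.H168.hlen h e else ℓ e
  have hlen_mk' : ∀ u v, R2.H168.hlen h s(u, v) = |h u - h v| := R2.H168.hlen_mk h
  have hEne : ∀ u v, E u v → h u ≠ h v := by
    rintro u v ⟨ha, hs⟩ he
    have h4 := hℓ _ ((G.mem_edgeSet).2 ha)
    rw [he, sub_self, abs_zero, mul_zero] at hs
    linarith
  refine ⟨E, ℓ', ⟨?_, ?_, ?_⟩, fun u v k => k.1, fun u v k => ⟨k.1.symm, ?_⟩, ?_, ?_, ?_⟩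
  · intro e he
    induction e with
    | _ u v =>
      show 0 < if P s(u, v) then R2.H168.hlen h s(u, v) else ℓ s(u, v)
      split_ifs with hs
      · have hs' : E u v := ⟨he, by rw [← hlen_mk']; exact hs⟩
        rw [hlen_mk']
        exact abs_pos.2 (sub_ne_zero.2 (hEne u v hs'))
      · exact hℓ _ he
  · intro u v ha
    show _ ≤ if P s(u, v) then R2.H168.hlen h s(u, v) else ℓ s(u, v)
    split_ifs with hs
    · rw [hlen_mk']
    · exact h1 u v ha
  · rintro u v ⟨ha, hs⟩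
    have hs' : P s(u, v) := by
      show _ ≤ _
      rw [hlen_mk']
      exact hs
    show (if P s(u, v) then R2.H168.hlen h s(u, v) else ℓ s(u, v)) = _
    rw [if_pos hs', hlen_mk']
  · rw [Sym2.eq_swap, abs_sub_comm]
    exact k.2
  · intro u v ha hs
    have h4 := hℓ _ ((G.mem_edgeSet).2 ha)
    have h5 : 0 < h u - h v := by
      by_contra h6
      push Not at h6
      nlinarith
    exact ⟨⟨ha, by rw [abs_of_pos h5]; exact hs⟩, by linarith⟩
  · intro u v ha
    show _ ≤ D * if P s(u, v) then R2.H168.hlen h s(u, v) else ℓ s(u, v)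
    split_ifs with hs
    · exact hs
    · exact le_mul_of_one_le_left (hℓ _ ((G.mem_edgeSet).2 ha)).le hD
  · intro u v ha
    rw [one_mul]
    show (if P s(u, v) then R2.H168.hlen h s(u, v) else ℓ s(u, v)) ≤ _
    split_ifs with hs
    · rw [hlen_mk']
      exact h1 u v ha
    · exact le_rfl

/-- **Many local minima and maxima, arbitrary slack edges.**  Plane graph, `h` nonexpansive on the
edges; every vertex outside `A` has a steep edge downwards, every vertex outside `B` a steep edge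
upwards; nothing is assumed about the other edges. -/
theorem multi_vertices {C : ℝ} (hC : 1 ≤ C) (hMS : MStarLL C) (V : Type) [Finite V]
    (G : SimpleGraph V) (σ : Equiv.Perm G.Dart) (ℓ : Sym2 V → ℝ) (h : V → ℝ) (A B : Finset V)
    (D : ℝ) (hD : 1 ≤ D) (hc : G.Connected) (hP : PlaneMap G σ) (hℓ : ∀ e ∈ G.edgeSet, 0 < ℓ e)
    (h1 : ∀ u v, G.Adj u v → |h u - h v| ≤ ℓ s(u, v))
    (hlow : ∀ v, v ∉ A → ∃ u, G.Adj v u ∧ ℓ s(v, u) ≤ D * (h v - h u))
    (hhigh : ∀ v, v ∉ B → ∃ u, G.Adj v u ∧ ℓ s(v, u) ≤ D * (h u - h v)) :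
    EmbedsL1 (pathDist G ℓ)
      (105200000000000 * C * D *
        ((ll (Nat.card V) : ℝ) + 1 + Real.log (A.card + B.card + 2))) := by
  have hD0 : 0 < D := one_pos.trans_le hD
  obtain ⟨E, ℓ', hF, hEa, hEs, hup, k1, k2⟩ := exists_fit (h := h) hD hℓ h1
  have hM : MM G σ E h (A : Set V) (B : Set V) := by
    refine ⟨hc, hP, hEa, hEs, ?_, ?_⟩
    · intro v hv
      obtain ⟨u, hu, h2⟩ := hlow v hv
      obtain ⟨h3, h4⟩ := hup v u hu h2
      exact ⟨u, h3, h4⟩
    · intro v hv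
      obtain ⟨u, hu, h2⟩ := hhigh v hv
      obtain ⟨h3, h4⟩ := hup u v hu.symm (by rw [Sym2.eq_swap]; exact h2)
      exact ⟨u, hEs _ _ h3, h4⟩
  have hE := multi_one hC hMS V G σ ℓ' E h A B hM hF
  have e1 : ∀ x y, pathDist G ℓ x y ≤ D * pathDist G ℓ' x y := fun x y =>
    pd_semi (ℓ := ℓ') (ρ := pathDist G ℓ) hc hD0 (fun x => pd_self hℓ _)
      (fun x y z => pd_tri hc hℓ _ _ _) (fun u v ha => (pd_adj hℓ ha).trans (k1 u v ha)) x y
  have e2 : ∀ x y, pathDist G ℓ' x y ≤ 1 * pathDist G ℓ x y := fun x y =>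
    pd_semi (ℓ := ℓ) (ρ := pathDist G ℓ') hc one_pos (fun x => pd_self hF.pos _)
      (fun x y z => pd_tri hc hF.pos _ _ _)
      (fun u v ha => (pd_adj hF.pos ha).trans (k2 u v ha)) x y
  refine R2.H673.embedsL1_scale hD0.le hE e1 (fun x y => ?_)
  have hlog : 0 ≤ Real.log ((A.card : ℝ) + B.card + 2) := Real.log_nonneg (by
    have : (0 : ℝ) ≤ (A.card : ℝ) + B.card := by positivity
    linarith)
  have h3 : (0 : ℝ) ≤ 105200000000000 * C * D *
      ((ll (Nat.card V) : ℝ) + 1 + Real.log (A.card + B.card + 2)) := by positivity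
  have h4 := mul_le_mul_of_nonneg_left (e2 x y) h3
  rw [one_mul] at h4
  calc D * (105200000000000 * C *
        ((ll (Nat.card V) : ℝ) + 1 + Real.log (A.card + B.card + 2)) * pathDist G ℓ' x y) =
      105200000000000 * C * D *
        ((ll (Nat.card V) : ℝ) + 1 + Real.log (A.card + B.card + 2)) *
        pathDist G ℓ' x y := by ring
    _ ≤ _ := h4

end Vale.Agent.P235.R2.H934
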