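import Vale.Agent.P235.R2.H934.Multi4

/-!
P235-M (helper934): the general theorem for the distance from one vertex.
-/

set_option autoImplicit false
set_option linter.all false

namespace Vale.Agent.P235.R2.H934

open Relation SimpleGraph
open Vale.Agent.P235 Vale.Agent.P235.Red Vale.Agent.P235.H341W Vale.Agent.P235.Red.W3

/-- **Every plane graph, every lengths, every root `s`**: `M` are faces which contain all vertices
at which the distance from `s` has a local maximum (no neighbour `u` with
`d(s, u) = d(s, v) + ℓ(v, u)`). -/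
theorem multi_root {C : ℝ} (hC : 1 ≤ C) (hMS : MStarLL C) (V : Type) [Finite V]
    (G : SimpleGraph V) (σ : Equiv.Perm G.Dart) (ℓ : Sym2 V → ℝ) (s : V) (M : Finset G.Dart)
    (hc : G.Connected) (hP : PlaneMap G σ) (hℓ : ∀ e ∈ G.edgeSet, 0 < ℓ e)
    (hM : ∀ v, (∀ m ∈ M, v ∉ onFace σ m) →
      ∃ u, G.Adj v u ∧ pathDist G ℓ s u = pathDist G ℓ s v + ℓ s(v, u)) :
    EmbedsL1 (pathDist G ℓ) (640000000000000 * C *
      ((ll (Nat.card V) : ℝ) + 1 + Real.log (M.card + 2))) := by
  classical
  have h := multi_faces hC hMS V G σ ℓ (pathDist G ℓ s) {s} ∅ ∅ M 1 le_rfl hc hP hℓ ?_ (by simp)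
    ?_ ?_
  · refine R2.H582.embeds_mono (pd_nonneg hℓ) ?_ h
    have h2 : Real.log (((({s} : Finset V).card : ℕ) : ℝ) + ((∅ : Finset V).card : ℕ) +
        ((∅ : Finset G.Dart).card : ℕ) + M.card + 2) ≤ 1 + Real.log (M.card + 2) := by
      have hm : (0 : ℝ) ≤ M.card := Nat.cast_nonneg _
      have h3 : Real.log (2 * ((M.card : ℝ) + 2)) = Real.log 2 + Real.log (M.card + 2) :=
        Real.log_mul (by norm_num) (by positivity)
      have h4 := Real.log_two_lt_d9
      have h5 : Real.log (((({s} : Finset V).card : ℕ) : ℝ) + ((∅ : Finset V).card : ℕ) +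
        ((∅ : Finset G.Dart).card : ℕ) + M.card + 2) ≤ Real.log (2 * ((M.card : ℝ) + 2)) := by
        refine Real.log_le_log (by positivity) ?_
        rw [Finset.card_singleton, Finset.card_empty, Finset.card_empty]
        push_cast
        linarith
      linarith
    have h3 : (0 : ℝ) ≤ ll (Nat.card V) := Nat.cast_nonneg _
    have h4 : 0 ≤ Real.log ((M.card : ℝ) + 2) := Real.log_nonneg (by
      have : (0 : ℝ) ≤ M.card := Nat.cast_nonneg _
      linarith)
    have h5 : (0 : ℝ) ≤ 320000000000000 * C * 1 := by positivity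
    calc 320000000000000 * C * 1 * ((ll (Nat.card V) : ℝ) + 1 +
          Real.log (((({s} : Finset V).card : ℕ) : ℝ) + ((∅ : Finset V).card : ℕ) +
            ((∅ : Finset G.Dart).card : ℕ) + M.card + 2)) ≤
        320000000000000 * C * 1 * (2 * ((ll (Nat.card V) : ℝ) + 1 + Real.log (M.card + 2))) :=
          mul_le_mul_of_nonneg_left (by linarith) h5
      _ = _ := by ring
  · intro u v ha
    have h1 := pd_tri hc hℓ s u v
    have h2 := pd_tri hc hℓ s v u
    have h3 := pd_adj hℓ ha
    rw [pd_comm hc hℓ v u] at h2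
    rw [abs_le]
    constructor <;> linarith
  · intro v hv _
    obtain ⟨u, hu, h2⟩ := Tight.exists_first hc hℓ (r := s) (v := v)
      (fun k => hv (by rw [k]; exact Finset.mem_singleton_self _))
    refine ⟨u, hu, ?_⟩
    rw [one_mul, pd_comm hc hℓ s v, pd_comm hc hℓ s u]
    linarith
  · intro v _ hv
    obtain ⟨u, hu, h2⟩ := hM v hv
    exact ⟨u, hu, by rw [one_mul, h2]; linarith⟩

end Vale.Agent.P235.R2.H934
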