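/-
P235-M, row W3, two faces (helper934): the plane side as a literal Prop.
-/
import Vale.Agent.P235.R2.H341.CapDefs

namespace Vale.Agent.P235.H341W

/-- a new vertex can be joined to any vertices of one face, and the other faces survive -/
def RowCap2 : Prop :=
  ∀ (V : Type) [Finite V] (G : SimpleGraph V) (σ : Equiv.Perm G.Dart) (d₀ : G.Dart) (T : Set V),
    G.Connected → PlaneMap G σ → T.Nonempty → T ⊆ onFace σ d₀ →
    ∃ σ' : Equiv.Perm (capG G T).Dart, PlaneMap (capG G T) σ' ∧
      ∀ d₂ : G.Dart, ¬ (faceNext σ).SameCycle d₀ d₂ →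
        ∃ d' : (capG G T).Dart, ∀ v ∈ onFace σ d₂, some v ∈ onFace σ' d'

end Vale.Agent.P235.H341W
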