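import Vale.Agent.P235.R2.H718.UlgSpec

/-!
P235-M (helper934), row C of `UlgSpec`: weights on the subsets.
-/

set_option autoImplicit false
set_option linter.all false

namespace Vale.Agent.P235.Ulg.H934

open Vale.Agent.P235 Vale.Agent.P235.Ulg

theorem pow_third {p : ℝ} {j : ℕ} (hp : p = 1 / 2 ^ j) : (1 : ℝ) / 3 ≤ (1 - p) ^ (2 ^ j - 1) := by
  rcases Nat.eq_zero_or_pos j with rfl | hj
  · norm_num
  have h2 : (2 : ℝ) ≤ 2 ^ j := by
    calc (2 : ℝ) = 2 ^ 1 := (pow_one 2).symm
      _ ≤ 2 ^ j := pow_le_pow_right₀ (by norm_num) hj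
  obtain ⟨N, hN⟩ : ∃ N : ℕ, 2 ^ j = N + 2 := ⟨2 ^ j - 2, by
    have : 2 ≤ 2 ^ j := by exact_mod_cast h2
    omega⟩
  have hNr : (2 : ℝ) ^ j = N + 2 := by exact_mod_cast hN
  have hp1 : 1 - p = ((N : ℝ) + 1) / (N + 2) := by
    rw [hp, hNr]
    field_simp
    ring
  have hN0 : (0 : ℝ) ≤ N := Nat.cast_nonneg _
  have e1 : 2 ^ j - 1 = N + 1 := by omega
  rw [hp1, e1]
  have h3 : ((N : ℝ) + 2) / (N + 1) ≤ Real.exp (1 / (N + 1)) := by
    have := Real.add_one_le_exp (1 / ((N : ℝ) + 1))
    refine le_trans (le_of_eq ?_) this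
    field_simp
    ring
  have h4 : (((N : ℝ) + 2) / (N + 1)) ^ (N + 1) ≤ 3 := by
    refine (pow_le_pow_left₀ (by positivity) h3 (N + 1)).trans ?_
    rw [← Real.exp_nat_mul]
    have e : ((N + 1 : ℕ) : ℝ) * (1 / ((N : ℝ) + 1)) = 1 := by
      push_cast
      field_simp
    rw [e]
    have := Real.exp_one_lt_d9
    linarith
  have h5 : (((N : ℝ) + 1) / (N + 2)) ^ (N + 1) = ((((N : ℝ) + 2) / (N + 1)) ^ (N + 1))⁻¹ := by
    rw [← inv_pow, inv_div]
  rw [h5, one_div]
  exact inv_anti₀ (by positivity) h4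

/-- **(C)** -/
theorem rowC : RowC := by
  intro ι _ _ j
  obtain ⟨p, hp⟩ : ∃ p : ℝ, p = 1 / 2 ^ j := ⟨_, rfl⟩
  have hp0 : 0 < p := by rw [hp]; positivity
  have hp1 : p ≤ 1 := by
    rw [hp, div_le_one (by positivity)]
    exact one_le_pow₀ (by norm_num)
  have hq0 : 0 ≤ 1 - p := by linarith
  let w : Finset ι → ℝ := fun S => (∏ _i ∈ S, p) * ∏ _i ∈ Finset.univ \ S, (1 - p)
  have hw0 : ∀ S, 0 ≤ w S := fun S => mul_nonneg (Finset.prod_nonneg fun _ _ => hp0.le)
    (Finset.prod_nonneg fun _ _ => hq0)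
  refine ⟨w, hw0, ?_, ?_⟩
  · have h := Finset.prod_add (fun _ : ι => p) (fun _ : ι => 1 - p) Finset.univ
    rw [Finset.powerset_univ] at h
    show ∑ S, (∏ _i ∈ S, p) * ∏ _i ∈ Finset.univ \ S, (1 - p) = 1
    rw [← h]
    simp
  · intro Q C hCQ hQ1 hQ2 hQC
    have hone : ∀ i₀ ∈ C, p * (1 - p) ^ (Q.card - 1) ≤
        ∑ S : Finset ι, if S ∩ Q = {i₀} then w S else 0 := by
      intro i₀ hi₀
      have hi₀Q := hCQ hi₀
      let f : ι → ℝ := fun i => if i ∈ Q ∧ i ≠ i₀ then 0 else p
      let g : ι → ℝ := fun i => if i = i₀ then 0 else 1 - p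
      have h := Finset.prod_add f g Finset.univ
      rw [Finset.powerset_univ] at h
      have h1 : ∀ S : Finset ι, (∏ i ∈ S, f i) * ∏ i ∈ Finset.univ \ S, g i ≤
          if S ∩ Q = {i₀} then w S else 0 := by
        intro S
        by_cases hS : S ∩ Q = {i₀}
        · rw [if_pos hS]
          refine le_of_eq ?_
          show _ = (∏ _i ∈ S, p) * ∏ _i ∈ Finset.univ \ S, (1 - p)
          congr 1
          · refine Finset.prod_congr rfl fun i hi => ?_
            show (if i ∈ Q ∧ i ≠ i₀ then (0 : ℝ) else p) = p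
            rw [if_neg]
            rintro ⟨h2, h3⟩
            have h4 : i ∈ S ∩ Q := Finset.mem_inter.2 ⟨hi, h2⟩
            rw [hS] at h4
            exact h3 (Finset.mem_singleton.1 h4)
          · refine Finset.prod_congr rfl fun i hi => ?_
            show (if i = i₀ then (0 : ℝ) else 1 - p) = 1 - p
            rw [if_neg]
            rintro rfl
            have h4 : i ∈ S ∩ Q := by
              rw [hS]
              exact Finset.mem_singleton_self _
            exact (Finset.mem_sdiff.1 hi).2 (Finset.mem_inter.1 h4).1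
        · rw [if_neg hS]
          refine le_of_eq ?_
          by_cases h2 : i₀ ∈ S
          · have h3 : ∃ i ∈ S, i ∈ Q ∧ i ≠ i₀ := by
              by_contra h4
              push Not at h4
              refine hS ?_
              ext i
              rw [Finset.mem_inter, Finset.mem_singleton]
              constructor
              · rintro ⟨h5, h6⟩
                exact h4 i h5 h6
              · rintro rfl
                exact ⟨h2, hi₀Q⟩
            obtain ⟨i, hi, h4⟩ := h3
            have h5 : ∏ i ∈ S, f i = 0 := Finset.prod_eq_zero hi (if_pos h4)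
            rw [h5, zero_mul]
          · have h5 : ∏ i ∈ Finset.univ \ S, g i = 0 := Finset.prod_eq_zero
              (Finset.mem_sdiff.2 ⟨Finset.mem_univ i₀, h2⟩) (if_pos rfl)
            rw [h5, mul_zero]
      have h2 : ∏ i, (f i + g i) = p * (1 - p) ^ (Q.card - 1) := by
        have h3 : ∀ i, f i + g i = if i = i₀ then p else if i ∈ Q then 1 - p else 1 := by
          intro i
          by_cases h4 : i = i₀
          · subst h4
            simp [f, g]
          · by_cases h5 : i ∈ Q
            · simp [f, g, h4, h5]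
            · simp [f, g, h4, h5]
        rw [Finset.prod_congr rfl fun i _ => h3 i]
        have h4 : ∏ i, (if i = i₀ then p else if i ∈ Q then 1 - p else 1) =
            p * ∏ i ∈ Finset.univ.erase i₀, (if i ∈ Q then 1 - p else 1) := by
          rw [← Finset.mul_prod_erase Finset.univ _ (Finset.mem_univ i₀), if_pos rfl]
          congr 1
          refine Finset.prod_congr rfl fun i hi => ?_
          rw [if_neg (Finset.ne_of_mem_erase hi)]
        rw [h4]
        congr 1
        rw [Finset.prod_ite, Finset.prod_const_one, mul_one, Finset.prod_const]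
        congr 1
        have h5 : (Finset.univ.erase i₀).filter (fun i => i ∈ Q) = Q.erase i₀ := by
          ext i
          simp [and_comm]
        rw [h5, Finset.card_erase_of_mem hi₀Q]
      rw [← h2, h]
      exact Finset.sum_le_sum fun S _ => h1 S
    have htwo : ∑ i₀ ∈ C, ∑ S : Finset ι, (if S ∩ Q = {i₀} then w S else 0) ≤
        ∑ S ∈ Finset.univ.filter (fun S : Finset ι => ∃ i ∈ C, S ∩ Q = {i}), w S := by
      rw [Finset.sum_comm, Finset.sum_filter]
      refine Finset.sum_le_sum fun S _ => ?_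
      by_cases hS : ∃ i ∈ C, S ∩ Q = {i}
      · rw [if_pos hS]
        obtain ⟨i, hi, hSi⟩ := hS
        refine le_of_eq ?_
        rw [Finset.sum_eq_single_of_mem i hi fun k _ hk => ?_, if_pos hSi]
        rw [if_neg]
        intro h
        rw [hSi] at h
        exact hk (Finset.singleton_injective h).symm
      · rw [if_neg hS]
        refine le_of_eq (Finset.sum_eq_zero fun i hi => if_neg fun h => hS ⟨i, hi, h⟩)
    have h3 : (C.card : ℝ) * (p * (1 - p) ^ (Q.card - 1)) ≤
        ∑ i₀ ∈ C, ∑ S : Finset ι, (if S ∩ Q = {i₀} then w S else 0) := by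
      rw [← nsmul_eq_mul, ← Finset.sum_const]
      exact Finset.sum_le_sum hone
    refine le_trans ?_ (h3.trans htwo)
    have h4 : (1 : ℝ) / 9 ≤ (1 - p) ^ (Q.card - 1) := by
      have h5 := pow_third hp
      have h6 : (1 - p) ^ (2 * (2 ^ j - 1)) ≤ (1 - p) ^ (Q.card - 1) := by
        refine pow_le_pow_of_le_one hq0 (by linarith) ?_
        rw [pow_succ] at hQ2
        omega
      refine le_trans ?_ h6
      rw [mul_comm, pow_mul]
      have h7 := pow_le_pow_left₀ (by norm_num) h5 2
      norm_num at h7 ⊢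
      exact h7
    have h5 : (1 : ℝ) / 2 ≤ C.card * p := by
      have h6 : (2 : ℝ) ^ j ≤ 2 * C.card := by exact_mod_cast hQ1.trans hQC
      rw [hp, mul_one_div, le_div_iff₀ (by positivity)]
      linarith
    calc (1 : ℝ) / 18 = 1 / 2 * (1 / 9) := by norm_num
      _ ≤ (C.card * p) * (1 - p) ^ (Q.card - 1) :=
        mul_le_mul h5 h4 (by norm_num) (by positivity)
      _ = _ := by ring

end Vale.Agent.P235.Ulg.H934

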