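import Vale.Agent.P235.R2.H934.UlgD

/-!
P235-M (helper934), row E of `UlgSpec`: the union of `m` sets.
-/

set_option autoImplicit false
set_option linter.all false

namespace Vale.Agent.P235.Ulg

open Vale.Agent.P235

/-- **(E)** -/
theorem rowE (hA : RowA) (hBB : RowB) (hC : RowC) : RowE := by
  intro V _ G ℓ hc hℓ E hE1 hR T hT1 hV m X B hB1 hX
  classical
  have hd := pathDist_isMet hc hℓ
  let ι := {i : Fin m // (X i).Nonempty}
  have hν : ∀ i : ι, ∃ ν, Near G ℓ (X i.1) ν := fun i => exists_near hc hℓ i.2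
  choose ν hν using hν
  let D : ι → V → ℝ := fun i v => pathDist G ℓ v (ν i v)
  have hDz : ∀ i v, ∀ z ∈ X i.1, D i v ≤ pathDist G ℓ v z := fun i v z hz => (hν i).le v z hz
  have hDt : ∀ i x y, D i x ≤ pathDist G ℓ x y + D i y := fun i x y =>
    (hDz i x _ ((hν i).mem y)).trans (hd.tri x y (ν i y))
  have hD0 : ∀ i v, 0 ≤ D i v := fun i v => hd.nonneg _ _
  have hDl : ∀ i a b, G.Adj a b → |D i a - D i b| ≤ ℓ s(a, b) := by
    intro i a b hab
    have h1 := hDt i a b
    have h2 := hDt i b a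
    rw [hd.symm b a] at h2
    have h3 := pathDist_adj hℓ hab
    rw [abs_le]
    constructor <;> linarith
  have hA' : ∀ i : ι, ∃ F : V → V → ℝ, IsL1 F ∧
      (∀ u v, F u v ≤ (E + 3) * B * pathDist G ℓ u v) ∧
      ∀ x y, pathDist G ℓ x y - 6 * D i x ≤ F x y := fun i => by
    obtain ⟨F, h1, h2, h3⟩ := hA V G ℓ hc hℓ E hE1 hR (X i.1) B i.2 hB1 (hX i.1)
    exact ⟨F, h1, h2, fun x y => h3 (ν i) (hν i) x y⟩
  choose F hF hFu hFl using hA'
  set K : ℝ := (E + 3) * B with hK
  have hK1 : 1 ≤ K := by nlinarith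
  have hFe : ∀ i u v, G.Adj u v → F i u v ≤ K * ℓ s(u, v) := fun i u v huv =>
    (hFu i u v).trans (mul_le_mul_of_nonneg_left (pathDist_adj hℓ huv) (by linarith))
  choose Φ hΦ1 hΦe hΦs using fun S : Finset ι =>
    hBB V G ℓ hc hℓ ι K hK1 F D hF hFe hD0 hDl S
  obtain ⟨N, hN, hNe, hNs⟩ := rowD V G ℓ hc hℓ (T ^ 2) (by nlinarith) hV ι D hD0 hDl
  obtain ⟨M, hM, hMN⟩ := hN.toL1
  choose w hw0 hw1 hws using fun j : ℕ => hC ι j
  obtain ⟨J, hJ⟩ : ∃ J, J = Nat.log 2 (Fintype.card ι) := ⟨_, rfl⟩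
  let P : V → V → ℝ := fun x y => ∑ j ∈ Finset.range (J + 1), ∑ S : Finset ι, w j S * Φ S x y
  have hP : IsL1 P := IsL1.sum (Finset.range (J + 1))
    (fun j x y => ∑ S : Finset ι, w j S * Φ S x y)
    fun j _ => IsL1.sum Finset.univ (fun S x y => w j S * Φ S x y) fun S _ =>
      (hΦ1 S).smul (hw0 j S)
  have hm0 : (0 : ℝ) ≤ m := Nat.cast_nonneg _
  set L := Real.log ((m : ℝ) + 2) with hL
  have hcard : (Fintype.card ι : ℝ) ≤ m := by
    have := Fintype.card_subtype_le (fun i : Fin m => (X i).Nonempty)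
    rw [Fintype.card_fin] at this
    exact_mod_cast this
  have hL2 : Real.log ((Fintype.card ι : ℝ) + 2) ≤ L :=
    Real.log_le_log (by positivity) (by linarith)
  have hL1 : 1 / 2 ≤ L := by
    have h1 : Real.log 2 ≤ L := Real.log_le_log (by norm_num) (by linarith)
    have := Real.log_two_gt_d9
    linarith
  have hJL : (J : ℝ) + 1 ≤ 3 * L := by
    have h1 := _root_.Vale.Agent.P235.log_add_two (Fintype.card ι)
    rw [← hJ] at h1
    push_cast at h1
    linarith
  have hPe : ∀ u v, G.Adj u v → P u v ≤ (12 * K * L) * ℓ s(u, v) := by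
    intro u v huv
    have h0 : 0 ≤ 4 * K * ℓ s(u, v) := by
      have := hℓ s(u, v) huv
      positivity
    have h1 : ∀ j ∈ Finset.range (J + 1), ∑ S : Finset ι, w j S * Φ S u v ≤
        4 * K * ℓ s(u, v) := by
      intro j _
      calc ∑ S : Finset ι, w j S * Φ S u v ≤ ∑ S : Finset ι, w j S * (4 * K * ℓ s(u, v)) :=
            Finset.sum_le_sum fun S _ => mul_le_mul_of_nonneg_left (hΦe S u v huv) (hw0 j S)
        _ = 4 * K * ℓ s(u, v) := by rw [← Finset.sum_mul, hw1, one_mul]
    have h2 : P u v ≤ ((J : ℝ) + 1) * (4 * K * ℓ s(u, v)) := by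
      refine (Finset.sum_le_sum h1).trans (le_of_eq ?_)
      rw [Finset.sum_const, Finset.card_range, nsmul_eq_mul]
      push_cast
      ring
    have h3 := mul_le_mul_of_nonneg_right hJL h0
    linarith
  have hPd : ∀ u v, P u v ≤ (12 * K * L) * pathDist G ℓ u v := fun u v =>
    pathDist_semi hc (by positivity) (fun x => hP.self x) (fun x y z => hP.tri x y z) hPe u v
  have hMe : ∀ u v, G.Adj u v → M u v ≤ (20 * L) * ℓ s(u, v) := by
    intro u v huv
    have hl := hℓ s(u, v) huv
    refine (hMN u v).1.trans ?_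
    rw [Real.sqrt_le_left (by positivity)]
    refine (hNe u v huv).trans ?_
    have h1 : 100 * Real.log ((Fintype.card ι : ℝ) + 2) ≤ (20 * L) ^ 2 := by nlinarith
    calc 100 * Real.log ((Fintype.card ι : ℝ) + 2) * ℓ s(u, v) ^ 2 ≤
          (20 * L) ^ 2 * ℓ s(u, v) ^ 2 := mul_le_mul_of_nonneg_right h1 (sq_nonneg _)
      _ = _ := by ring
  have hMd : ∀ u v, M u v ≤ (20 * L) * pathDist G ℓ u v := fun u v =>
    pathDist_semi hc (by positivity) (fun x => hM.self x) (fun x y z => hM.tri x y z) hMe u v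
  have hsq : ∀ x y, pathDist G ℓ x y ^ 2 ≤ 10 ^ 4 * T ^ 2 * N x y →
      pathDist G ℓ x y ≤ 200 * T * M x y := by
    intro x y h
    have h1 : pathDist G ℓ x y ≤ 100 * T * √(N x y) := by
      refine (pow_le_pow_iff_left₀ (hd.nonneg x y) (by positivity) two_ne_zero).1 ?_
      rw [mul_pow, Real.sq_sqrt (hN.nonneg x y)]
      linarith
    have h2 := mul_le_mul_of_nonneg_left (hMN x y).2 (by positivity : 0 ≤ 100 * T)
    linarith
  refine ((hP.smul (by norm_num : (0 : ℝ) ≤ 72000)).add (hM.smul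
    (by positivity : (0 : ℝ) ≤ 200 * T)) |>.comap (Subtype.val : ↥(⋃ i, X i) → V)).embeds
    (fun x y => ?_) fun x y => ?_
  · obtain ⟨x, hx⟩ := x
    obtain ⟨y, hy⟩ := y
    show pathDist G ℓ x y ≤ 72000 * P x y + 200 * T * M x y
    have hP0 := hP.nonneg x y
    have hM0 := hM.nonneg x y
    have hM0' : 0 ≤ 200 * T * M x y := by positivity
    rcases (hd.nonneg x y).eq_or_lt with h0 | h0
    · rw [← h0]
      positivity
    obtain ⟨a, ha⟩ := Set.mem_iUnion.1 hx
    obtain ⟨d, hdd⟩ : ∃ d, d = pathDist G ℓ x y := ⟨_, rfl⟩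
    rw [← hdd] at h0 ⊢
    let A := Finset.univ.filter fun i : ι => D i x ≤ d / 16
    let A' := Finset.univ.filter fun i : ι => D i y ≤ d / 16
    let Q := Finset.univ.filter fun i : ι => D i x ≤ 4 * d
    have hAm : ∀ i, i ∈ A ↔ D i x ≤ d / 16 := fun i => by simp [A]
    have hAm' : ∀ i, i ∈ A' ↔ D i y ≤ d / 16 := fun i => by simp [A']
    have hQm : ∀ i, i ∈ Q ↔ D i x ≤ 4 * d := fun i => by simp [Q]
    by_cases c1 : 4 * A.card < 3 * Q.card
    · have h1 := hNs x y (by rw [← hdd]; exact h0) A Q (fun i hi => (hAm i).2 (by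
        rw [hdd]; exact hi)) (fun i hi => by
        have := (hQm i).1 hi
        rw [← hdd]
        linarith) c1
      have h2 := hsq x y h1
      rw [← hdd] at h2
      linarith
    by_cases c2 : 4 * A'.card < 3 * Q.card
    · have e := hd.symm y x
      have h1 := hNs y x (by rw [e, ← hdd]; exact h0) A' Q (fun i hi => (hAm' i).2 (by
        rw [hdd, ← e]; exact hi)) (fun i hi => by
        have h2 := (hQm i).1 hi
        have h3 := hDt i y x
        rw [e, ← hdd] at h3
        rw [e, ← hdd]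
        linarith) c2
      have h2 := hsq y x h1
      rw [e, ← hdd, hM.symm y x] at h2
      linarith
    · let C := A ∩ A'
      have hAQ : A ⊆ Q := fun i hi => (hQm i).2 (by
        have := (hAm i).1 hi
        linarith)
      have hAQ' : A' ⊆ Q := fun i hi => (hQm i).2 (by
        have h1 := (hAm' i).1 hi
        have h2 := hDt i x y
        rw [← hdd] at h2
        linarith)
      have hCQ : C ⊆ Q := Finset.inter_subset_left.trans hAQ
      have h1 := Finset.card_union_add_card_inter A A'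
      have h2 := Finset.card_le_card (Finset.union_subset hAQ hAQ')
      have h3 : Q.card ≤ 2 * C.card := by
        show Q.card ≤ 2 * (A ∩ A').card
        omega
      have hQ0 : Q.card ≠ 0 := by
        refine Finset.card_ne_zero_of_mem ((hQm ⟨a, x, ha⟩).2 ?_)
        have h4 := hDz ⟨a, x, ha⟩ x x ha
        rw [hd.self] at h4
        linarith
      have hj1 : 2 ^ Nat.log 2 Q.card ≤ Q.card := Nat.pow_log_le_self 2 hQ0
      have hj2 : Q.card < 2 ^ (Nat.log 2 Q.card + 1) := Nat.lt_pow_succ_log_self (by norm_num) _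
      have hjJ : Nat.log 2 Q.card ∈ Finset.range (J + 1) := by
        rw [Finset.mem_range, Nat.lt_succ_iff, hJ]
        exact Nat.log_mono_right (Finset.card_le_univ _)
      generalize Nat.log 2 Q.card = j at hj1 hj2 hjJ
      have h7 := hws j Q C hCQ hj1 hj2 h3
      have key : ∀ S : Finset ι, (∃ i ∈ C, S ∩ Q = {i}) → d / 4000 ≤ Φ S x y := by
        rintro S ⟨i, hiC, hSi⟩
        have hiS : i ∈ S := (Finset.mem_inter.1 (by rw [hSi]; exact Finset.mem_singleton_self i)).1
        have hix := (hAm i).1 (Finset.mem_inter.1 hiC).1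
        have hiy := (hAm' i).1 (Finset.mem_inter.1 hiC).2
        have h8 := hΦs S x y d h0 i hiS fun k hk hki => by
          have h9 : k ∉ Q := fun hkQ => hki (by
            have : k ∈ S ∩ Q := Finset.mem_inter.2 ⟨hk, hkQ⟩
            rw [hSi] at this
            exact Finset.mem_singleton.1 this)
          rw [hQm] at h9
          push Not at h9
          have h10 := hDt k x y
          rw [← hdd] at h10
          constructor <;> linarith
        have h9 := hFl i x y
        rw [← hdd] at h9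
        have h10 : d / 2 ≤ min (F i x y) d := le_min (by linarith) (by linarith)
        linarith
      have h8 : (1 : ℝ) / 18 * (d / 4000) ≤ ∑ S, w j S * Φ S x y := by
        refine (mul_le_mul_of_nonneg_right h7 (by positivity)).trans ?_
        rw [Finset.sum_mul]
        refine (Finset.sum_le_sum fun S hS => mul_le_mul_of_nonneg_left
          (key S (Finset.mem_filter.1 hS).2) (hw0 j S)).trans ?_
        exact Finset.sum_le_sum_of_subset_of_nonneg (Finset.filter_subset _ _)
          fun S _ _ => mul_nonneg (hw0 j S) ((hΦ1 S).nonneg x y)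
      have h9 : ∑ S, w j S * Φ S x y ≤ P x y :=
        Finset.single_le_sum (f := fun j => ∑ S, w j S * Φ S x y) (fun j _ =>
          Finset.sum_nonneg fun S _ => mul_nonneg (hw0 j S) ((hΦ1 S).nonneg x y)) hjJ
      linarith
  · show 72000 * P x y + 200 * T * M x y ≤ _
    have h1 := hPd x.1 y.1
    have h2 := hMd x.1 y.1
    have h3 := mul_le_mul_of_nonneg_left h2 (by positivity : 0 ≤ 200 * T)
    have hd0 := hd.nonneg x.1 y.1
    have h4 : 864000 * K + 4000 * T ≤ 10 ^ 7 * (E + T) * B := by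
      rw [hK]
      nlinarith [mul_nonneg (by linarith : (0 : ℝ) ≤ E - 1) (by linarith : (0 : ℝ) ≤ B - 1),
        mul_nonneg (by linarith : (0 : ℝ) ≤ T - 1) (by linarith : (0 : ℝ) ≤ B - 1)]
    have h5 : 0 ≤ L * pathDist G ℓ x.1 y.1 := by positivity
    have h6 := mul_le_mul_of_nonneg_right h4 h5
    show 72000 * P x.1 y.1 + 200 * T * M x.1 y.1 ≤ 10 ^ 7 * (E + T) * B * L * pathDist G ℓ x.1 y.1
    linarith

end Vale.Agent.P235.Ulg

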